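import Vale.Agent.P154AF.CtrLib

/-! Contraction and range of the potential `F4`. -/

namespace Vale.Agent.P154.AF.CTR4

open CtrLib

theorem e1_0 (r t : ℝ) (ha : (-1 / 2) ≤ r) (hb : r ≤ (-1 / 8)) (h0 : 0 ≤ t) (h1 : t ≤ 1) :
    0 ≤ (450 * (1 + t) + 988 * r * (1 + t + t ^ 2) + -64 * r ^ 2 * (1 + t + t ^ 2 + t ^ 3)) + 2 * r ^ 2 * (611 * (1 + t + t ^ 2 + t ^ 3) + -562 * r * (1 + t + t ^ 2 + t ^ 3 + t ^ 4)) := by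
  have hx : 0 ≤ r - (-1 / 2) := by linarith
  have hy : 0 ≤ (-1 / 8) - r := by linarith
  have hz : 0 ≤ 1 - t := by linarith
  have key : 0 ≤ (197632 / 27) * ((r - (-1 / 2)) ^ 0 * ((-1 / 8) - r) ^ 3 * (t ^ 0 * (1 - t) ^ 4)) +
      (988160 / 27) * ((r - (-1 / 2)) ^ 0 * ((-1 / 8) - r) ^ 3 * (t ^ 1 * (1 - t) ^ 3)) +
      (1745920 / 27) * ((r - (-1 / 2)) ^ 0 * ((-1 / 8) - r) ^ 3 * (t ^ 2 * (1 - t) ^ 2)) +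
      (1538048 / 27) * ((r - (-1 / 2)) ^ 0 * ((-1 / 8) - r) ^ 3 * (t ^ 3 * (1 - t) ^ 1)) +
      (654592 / 27) * ((r - (-1 / 2)) ^ 0 * ((-1 / 8) - r) ^ 3 * (t ^ 4 * (1 - t) ^ 0)) +
      (132800 / 9) * ((r - (-1 / 2)) ^ 1 * ((-1 / 8) - r) ^ 2 * (t ^ 0 * (1 - t) ^ 4)) +
      (664000 / 9) * ((r - (-1 / 2)) ^ 1 * ((-1 / 8) - r) ^ 2 * (t ^ 1 * (1 - t) ^ 3)) +
      (1097600 / 9) * ((r - (-1 / 2)) ^ 1 * ((-1 / 8) - r) ^ 2 * (t ^ 2 * (1 - t) ^ 2)) +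
      (826496 / 9) * ((r - (-1 / 2)) ^ 1 * ((-1 / 8) - r) ^ 2 * (t ^ 3 * (1 - t) ^ 1)) +
      (278080 / 9) * ((r - (-1 / 2)) ^ 1 * ((-1 / 8) - r) ^ 2 * (t ^ 4 * (1 - t) ^ 0)) +
      15136 * ((r - (-1 / 2)) ^ 2 * ((-1 / 8) - r) ^ 1 * (t ^ 0 * (1 - t) ^ 4)) +
      75680 * ((r - (-1 / 2)) ^ 2 * ((-1 / 8) - r) ^ 1 * (t ^ 1 * (1 - t) ^ 3)) +
      125760 * ((r - (-1 / 2)) ^ 2 * ((-1 / 8) - r) ^ 1 * (t ^ 2 * (1 - t) ^ 2)) +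
      (797504 / 9) * ((r - (-1 / 2)) ^ 2 * ((-1 / 8) - r) ^ 1 * (t ^ 3 * (1 - t) ^ 1)) +
      (215056 / 9) * ((r - (-1 / 2)) ^ 2 * ((-1 / 8) - r) ^ 1 * (t ^ 4 * (1 - t) ^ 0)) +
      (177556 / 27) * ((r - (-1 / 2)) ^ 3 * ((-1 / 8) - r) ^ 0 * (t ^ 0 * (1 - t) ^ 4)) +
      (887780 / 27) * ((r - (-1 / 2)) ^ 3 * ((-1 / 8) - r) ^ 0 * (t ^ 1 * (1 - t) ^ 3)) +
      (1545160 / 27) * ((r - (-1 / 2)) ^ 3 * ((-1 / 8) - r) ^ 0 * (t ^ 2 * (1 - t) ^ 2)) +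
      (1147592 / 27) * ((r - (-1 / 2)) ^ 3 * ((-1 / 8) - r) ^ 0 * (t ^ 3 * (1 - t) ^ 1)) +
      (313780 / 27) * ((r - (-1 / 2)) ^ 3 * ((-1 / 8) - r) ^ 0 * (t ^ 4 * (1 - t) ^ 0)) := by positivity
  have e : (450 * (1 + t) + 988 * r * (1 + t + t ^ 2) + -64 * r ^ 2 * (1 + t + t ^ 2 + t ^ 3)) + 2 * r ^ 2 * (611 * (1 + t + t ^ 2 + t ^ 3) + -562 * r * (1 + t + t ^ 2 + t ^ 3 + t ^ 4)) = (197632 / 27) * ((r - (-1 / 2)) ^ 0 * ((-1 / 8) - r) ^ 3 * (t ^ 0 * (1 - t) ^ 4)) +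
      (988160 / 27) * ((r - (-1 / 2)) ^ 0 * ((-1 / 8) - r) ^ 3 * (t ^ 1 * (1 - t) ^ 3)) +
      (1745920 / 27) * ((r - (-1 / 2)) ^ 0 * ((-1 / 8) - r) ^ 3 * (t ^ 2 * (1 - t) ^ 2)) +
      (1538048 / 27) * ((r - (-1 / 2)) ^ 0 * ((-1 / 8) - r) ^ 3 * (t ^ 3 * (1 - t) ^ 1)) +
      (654592 / 27) * ((r - (-1 / 2)) ^ 0 * ((-1 / 8) - r) ^ 3 * (t ^ 4 * (1 - t) ^ 0)) +
      (132800 / 9) * ((r - (-1 / 2)) ^ 1 * ((-1 / 8) - r) ^ 2 * (t ^ 0 * (1 - t) ^ 4)) +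
      (664000 / 9) * ((r - (-1 / 2)) ^ 1 * ((-1 / 8) - r) ^ 2 * (t ^ 1 * (1 - t) ^ 3)) +
      (1097600 / 9) * ((r - (-1 / 2)) ^ 1 * ((-1 / 8) - r) ^ 2 * (t ^ 2 * (1 - t) ^ 2)) +
      (826496 / 9) * ((r - (-1 / 2)) ^ 1 * ((-1 / 8) - r) ^ 2 * (t ^ 3 * (1 - t) ^ 1)) +
      (278080 / 9) * ((r - (-1 / 2)) ^ 1 * ((-1 / 8) - r) ^ 2 * (t ^ 4 * (1 - t) ^ 0)) +
      15136 * ((r - (-1 / 2)) ^ 2 * ((-1 / 8) - r) ^ 1 * (t ^ 0 * (1 - t) ^ 4)) +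
      75680 * ((r - (-1 / 2)) ^ 2 * ((-1 / 8) - r) ^ 1 * (t ^ 1 * (1 - t) ^ 3)) +
      125760 * ((r - (-1 / 2)) ^ 2 * ((-1 / 8) - r) ^ 1 * (t ^ 2 * (1 - t) ^ 2)) +
      (797504 / 9) * ((r - (-1 / 2)) ^ 2 * ((-1 / 8) - r) ^ 1 * (t ^ 3 * (1 - t) ^ 1)) +
      (215056 / 9) * ((r - (-1 / 2)) ^ 2 * ((-1 / 8) - r) ^ 1 * (t ^ 4 * (1 - t) ^ 0)) +
      (177556 / 27) * ((r - (-1 / 2)) ^ 3 * ((-1 / 8) - r) ^ 0 * (t ^ 0 * (1 - t) ^ 4)) +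
      (887780 / 27) * ((r - (-1 / 2)) ^ 3 * ((-1 / 8) - r) ^ 0 * (t ^ 1 * (1 - t) ^ 3)) +
      (1545160 / 27) * ((r - (-1 / 2)) ^ 3 * ((-1 / 8) - r) ^ 0 * (t ^ 2 * (1 - t) ^ 2)) +
      (1147592 / 27) * ((r - (-1 / 2)) ^ 3 * ((-1 / 8) - r) ^ 0 * (t ^ 3 * (1 - t) ^ 1)) +
      (313780 / 27) * ((r - (-1 / 2)) ^ 3 * ((-1 / 8) - r) ^ 0 * (t ^ 4 * (1 - t) ^ 0)) := by ring
  rw [e]
  exact key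

theorem e1_1 (r t : ℝ) (ha : (-1 / 8) ≤ r) (hb : r ≤ (1 / 4)) (h0 : 0 ≤ t) (h1 : t ≤ 1) :
    0 ≤ (450 * (1 + t) + 988 * r * (1 + t + t ^ 2) + -64 * r ^ 2 * (1 + t + t ^ 2 + t ^ 3)) + 2 * r ^ 2 * (611 * (1 + t + t ^ 2 + t ^ 3) + -562 * r * (1 + t + t ^ 2 + t ^ 3 + t ^ 4)) := by
  have hx : 0 ≤ r - (-1 / 8) := by linarith
  have hy : 0 ≤ (1 / 4) - r := by linarith
  have hz : 0 ≤ 1 - t := by linarith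
  have key : 0 ≤ (177556 / 27) * ((r - (-1 / 8)) ^ 0 * ((1 / 4) - r) ^ 3 * (t ^ 0 * (1 - t) ^ 4)) +
      (887780 / 27) * ((r - (-1 / 8)) ^ 0 * ((1 / 4) - r) ^ 3 * (t ^ 1 * (1 - t) ^ 3)) +
      (1545160 / 27) * ((r - (-1 / 8)) ^ 0 * ((1 / 4) - r) ^ 3 * (t ^ 2 * (1 - t) ^ 2)) +
      (1147592 / 27) * ((r - (-1 / 8)) ^ 0 * ((1 / 4) - r) ^ 3 * (t ^ 3 * (1 - t) ^ 1)) +
      (313780 / 27) * ((r - (-1 / 8)) ^ 0 * ((1 / 4) - r) ^ 3 * (t ^ 4 * (1 - t) ^ 0)) +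
      (218888 / 9) * ((r - (-1 / 8)) ^ 1 * ((1 / 4) - r) ^ 2 * (t ^ 0 * (1 - t) ^ 4)) +
      (1094440 / 9) * ((r - (-1 / 8)) ^ 1 * ((1 / 4) - r) ^ 2 * (t ^ 1 * (1 - t) ^ 3)) +
      (1958480 / 9) * ((r - (-1 / 8)) ^ 1 * ((1 / 4) - r) ^ 2 * (t ^ 2 * (1 - t) ^ 2)) +
      (1497680 / 9) * ((r - (-1 / 8)) ^ 1 * ((1 / 4) - r) ^ 2 * (t ^ 3 * (1 - t) ^ 1)) +
      (412504 / 9) * ((r - (-1 / 8)) ^ 1 * ((1 / 4) - r) ^ 2 * (t ^ 4 * (1 - t) ^ 0)) +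
      (99376 / 3) * ((r - (-1 / 8)) ^ 2 * ((1 / 4) - r) ^ 1 * (t ^ 0 * (1 - t) ^ 4)) +
      (496880 / 3) * ((r - (-1 / 8)) ^ 2 * ((1 / 4) - r) ^ 1 * (t ^ 1 * (1 - t) ^ 3)) +
      (916960 / 3) * ((r - (-1 / 8)) ^ 2 * ((1 / 4) - r) ^ 1 * (t ^ 2 * (1 - t) ^ 2)) +
      (2226848 / 9) * ((r - (-1 / 8)) ^ 2 * ((1 / 4) - r) ^ 1 * (t ^ 3 * (1 - t) ^ 1)) +
      (672976 / 9) * ((r - (-1 / 8)) ^ 2 * ((1 / 4) - r) ^ 1 * (t ^ 4 * (1 - t) ^ 0)) +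
      (384928 / 27) * ((r - (-1 / 8)) ^ 3 * ((1 / 4) - r) ^ 0 * (t ^ 0 * (1 - t) ^ 4)) +
      (1924640 / 27) * ((r - (-1 / 8)) ^ 3 * ((1 / 4) - r) ^ 0 * (t ^ 1 * (1 - t) ^ 3)) +
      (3618880 / 27) * ((r - (-1 / 8)) ^ 3 * ((1 / 4) - r) ^ 0 * (t ^ 2 * (1 - t) ^ 2)) +
      (3031616 / 27) * ((r - (-1 / 8)) ^ 3 * ((1 / 4) - r) ^ 0 * (t ^ 3 * (1 - t) ^ 1)) +
      (943456 / 27) * ((r - (-1 / 8)) ^ 3 * ((1 / 4) - r) ^ 0 * (t ^ 4 * (1 - t) ^ 0)) := by positivity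
  have e : (450 * (1 + t) + 988 * r * (1 + t + t ^ 2) + -64 * r ^ 2 * (1 + t + t ^ 2 + t ^ 3)) + 2 * r ^ 2 * (611 * (1 + t + t ^ 2 + t ^ 3) + -562 * r * (1 + t + t ^ 2 + t ^ 3 + t ^ 4)) = (177556 / 27) * ((r - (-1 / 8)) ^ 0 * ((1 / 4) - r) ^ 3 * (t ^ 0 * (1 - t) ^ 4)) +
      (887780 / 27) * ((r - (-1 / 8)) ^ 0 * ((1 / 4) - r) ^ 3 * (t ^ 1 * (1 - t) ^ 3)) +
      (1545160 / 27) * ((r - (-1 / 8)) ^ 0 * ((1 / 4) - r) ^ 3 * (t ^ 2 * (1 - t) ^ 2)) +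
      (1147592 / 27) * ((r - (-1 / 8)) ^ 0 * ((1 / 4) - r) ^ 3 * (t ^ 3 * (1 - t) ^ 1)) +
      (313780 / 27) * ((r - (-1 / 8)) ^ 0 * ((1 / 4) - r) ^ 3 * (t ^ 4 * (1 - t) ^ 0)) +
      (218888 / 9) * ((r - (-1 / 8)) ^ 1 * ((1 / 4) - r) ^ 2 * (t ^ 0 * (1 - t) ^ 4)) +
      (1094440 / 9) * ((r - (-1 / 8)) ^ 1 * ((1 / 4) - r) ^ 2 * (t ^ 1 * (1 - t) ^ 3)) +
      (1958480 / 9) * ((r - (-1 / 8)) ^ 1 * ((1 / 4) - r) ^ 2 * (t ^ 2 * (1 - t) ^ 2)) +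
      (1497680 / 9) * ((r - (-1 / 8)) ^ 1 * ((1 / 4) - r) ^ 2 * (t ^ 3 * (1 - t) ^ 1)) +
      (412504 / 9) * ((r - (-1 / 8)) ^ 1 * ((1 / 4) - r) ^ 2 * (t ^ 4 * (1 - t) ^ 0)) +
      (99376 / 3) * ((r - (-1 / 8)) ^ 2 * ((1 / 4) - r) ^ 1 * (t ^ 0 * (1 - t) ^ 4)) +
      (496880 / 3) * ((r - (-1 / 8)) ^ 2 * ((1 / 4) - r) ^ 1 * (t ^ 1 * (1 - t) ^ 3)) +
      (916960 / 3) * ((r - (-1 / 8)) ^ 2 * ((1 / 4) - r) ^ 1 * (t ^ 2 * (1 - t) ^ 2)) +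
      (2226848 / 9) * ((r - (-1 / 8)) ^ 2 * ((1 / 4) - r) ^ 1 * (t ^ 3 * (1 - t) ^ 1)) +
      (672976 / 9) * ((r - (-1 / 8)) ^ 2 * ((1 / 4) - r) ^ 1 * (t ^ 4 * (1 - t) ^ 0)) +
      (384928 / 27) * ((r - (-1 / 8)) ^ 3 * ((1 / 4) - r) ^ 0 * (t ^ 0 * (1 - t) ^ 4)) +
      (1924640 / 27) * ((r - (-1 / 8)) ^ 3 * ((1 / 4) - r) ^ 0 * (t ^ 1 * (1 - t) ^ 3)) +
      (3618880 / 27) * ((r - (-1 / 8)) ^ 3 * ((1 / 4) - r) ^ 0 * (t ^ 2 * (1 - t) ^ 2)) +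
      (3031616 / 27) * ((r - (-1 / 8)) ^ 3 * ((1 / 4) - r) ^ 0 * (t ^ 3 * (1 - t) ^ 1)) +
      (943456 / 27) * ((r - (-1 / 8)) ^ 3 * ((1 / 4) - r) ^ 0 * (t ^ 4 * (1 - t) ^ 0)) := by ring
  rw [e]
  exact key

theorem e1_2 (r t : ℝ) (ha : (1 / 4) ≤ r) (hb : r ≤ 1) (h0 : 0 ≤ t) (h1 : t ≤ 1) :
    0 ≤ (450 * (1 + t) + 988 * r * (1 + t + t ^ 2) + -64 * r ^ 2 * (1 + t + t ^ 2 + t ^ 3)) + 2 * r ^ 2 * (611 * (1 + t + t ^ 2 + t ^ 3) + -562 * r * (1 + t + t ^ 2 + t ^ 3 + t ^ 4)) := by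
  have hx : 0 ≤ r - (1 / 4) := by linarith
  have hy : 0 ≤ 1 - r := by linarith
  have hz : 0 ≤ 1 - t := by linarith
  have key : 0 ≤ (48116 / 27) * ((r - (1 / 4)) ^ 0 * (1 - r) ^ 3 * (t ^ 0 * (1 - t) ^ 4)) +
      (240580 / 27) * ((r - (1 / 4)) ^ 0 * (1 - r) ^ 3 * (t ^ 1 * (1 - t) ^ 3)) +
      (452360 / 27) * ((r - (1 / 4)) ^ 0 * (1 - r) ^ 3 * (t ^ 2 * (1 - t) ^ 2)) +
      (378952 / 27) * ((r - (1 / 4)) ^ 0 * (1 - r) ^ 3 * (t ^ 3 * (1 - t) ^ 1)) +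
      (117932 / 27) * ((r - (1 / 4)) ^ 0 * (1 - r) ^ 3 * (t ^ 4 * (1 - t) ^ 0)) +
      (23272 / 3) * ((r - (1 / 4)) ^ 1 * (1 - r) ^ 2 * (t ^ 0 * (1 - t) ^ 4)) +
      (116360 / 3) * ((r - (1 / 4)) ^ 1 * (1 - r) ^ 2 * (t ^ 1 * (1 - t) ^ 3)) +
      (223120 / 3) * ((r - (1 / 4)) ^ 1 * (1 - r) ^ 2 * (t ^ 2 * (1 - t) ^ 2)) +
      (580144 / 9) * ((r - (1 / 4)) ^ 1 * (1 - r) ^ 2 * (t ^ 3 * (1 - t) ^ 1)) +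
      (185552 / 9) * ((r - (1 / 4)) ^ 1 * (1 - r) ^ 2 * (t ^ 4 * (1 - t) ^ 0)) +
      (95296 / 9) * ((r - (1 / 4)) ^ 2 * (1 - r) ^ 1 * (t ^ 0 * (1 - t) ^ 4)) +
      (476480 / 9) * ((r - (1 / 4)) ^ 2 * (1 - r) ^ 1 * (t ^ 1 * (1 - t) ^ 3)) +
      (924160 / 9) * ((r - (1 / 4)) ^ 2 * (1 - r) ^ 1 * (t ^ 2 * (1 - t) ^ 2)) +
      (819136 / 9) * ((r - (1 / 4)) ^ 2 * (1 - r) ^ 1 * (t ^ 3 * (1 - t) ^ 1)) +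
      (258176 / 9) * ((r - (1 / 4)) ^ 2 * (1 - r) ^ 1 * (t ^ 4 * (1 - t) ^ 0)) +
      (94208 / 27) * ((r - (1 / 4)) ^ 3 * (1 - r) ^ 0 * (t ^ 0 * (1 - t) ^ 4)) +
      (471040 / 27) * ((r - (1 / 4)) ^ 3 * (1 - r) ^ 0 * (t ^ 1 * (1 - t) ^ 3)) +
      (913280 / 27) * ((r - (1 / 4)) ^ 3 * (1 - r) ^ 0 * (t ^ 2 * (1 - t) ^ 2)) +
      (792448 / 27) * ((r - (1 / 4)) ^ 3 * (1 - r) ^ 0 * (t ^ 3 * (1 - t) ^ 1)) +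
      (184064 / 27) * ((r - (1 / 4)) ^ 3 * (1 - r) ^ 0 * (t ^ 4 * (1 - t) ^ 0)) := by positivity
  have e : (450 * (1 + t) + 988 * r * (1 + t + t ^ 2) + -64 * r ^ 2 * (1 + t + t ^ 2 + t ^ 3)) + 2 * r ^ 2 * (611 * (1 + t + t ^ 2 + t ^ 3) + -562 * r * (1 + t + t ^ 2 + t ^ 3 + t ^ 4)) = (48116 / 27) * ((r - (1 / 4)) ^ 0 * (1 - r) ^ 3 * (t ^ 0 * (1 - t) ^ 4)) +
      (240580 / 27) * ((r - (1 / 4)) ^ 0 * (1 - r) ^ 3 * (t ^ 1 * (1 - t) ^ 3)) +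
      (452360 / 27) * ((r - (1 / 4)) ^ 0 * (1 - r) ^ 3 * (t ^ 2 * (1 - t) ^ 2)) +
      (378952 / 27) * ((r - (1 / 4)) ^ 0 * (1 - r) ^ 3 * (t ^ 3 * (1 - t) ^ 1)) +
      (117932 / 27) * ((r - (1 / 4)) ^ 0 * (1 - r) ^ 3 * (t ^ 4 * (1 - t) ^ 0)) +
      (23272 / 3) * ((r - (1 / 4)) ^ 1 * (1 - r) ^ 2 * (t ^ 0 * (1 - t) ^ 4)) +
      (116360 / 3) * ((r - (1 / 4)) ^ 1 * (1 - r) ^ 2 * (t ^ 1 * (1 - t) ^ 3)) +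
      (223120 / 3) * ((r - (1 / 4)) ^ 1 * (1 - r) ^ 2 * (t ^ 2 * (1 - t) ^ 2)) +
      (580144 / 9) * ((r - (1 / 4)) ^ 1 * (1 - r) ^ 2 * (t ^ 3 * (1 - t) ^ 1)) +
      (185552 / 9) * ((r - (1 / 4)) ^ 1 * (1 - r) ^ 2 * (t ^ 4 * (1 - t) ^ 0)) +
      (95296 / 9) * ((r - (1 / 4)) ^ 2 * (1 - r) ^ 1 * (t ^ 0 * (1 - t) ^ 4)) +
      (476480 / 9) * ((r - (1 / 4)) ^ 2 * (1 - r) ^ 1 * (t ^ 1 * (1 - t) ^ 3)) +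
      (924160 / 9) * ((r - (1 / 4)) ^ 2 * (1 - r) ^ 1 * (t ^ 2 * (1 - t) ^ 2)) +
      (819136 / 9) * ((r - (1 / 4)) ^ 2 * (1 - r) ^ 1 * (t ^ 3 * (1 - t) ^ 1)) +
      (258176 / 9) * ((r - (1 / 4)) ^ 2 * (1 - r) ^ 1 * (t ^ 4 * (1 - t) ^ 0)) +
      (94208 / 27) * ((r - (1 / 4)) ^ 3 * (1 - r) ^ 0 * (t ^ 0 * (1 - t) ^ 4)) +
      (471040 / 27) * ((r - (1 / 4)) ^ 3 * (1 - r) ^ 0 * (t ^ 1 * (1 - t) ^ 3)) +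
      (913280 / 27) * ((r - (1 / 4)) ^ 3 * (1 - r) ^ 0 * (t ^ 2 * (1 - t) ^ 2)) +
      (792448 / 27) * ((r - (1 / 4)) ^ 3 * (1 - r) ^ 0 * (t ^ 3 * (1 - t) ^ 1)) +
      (184064 / 27) * ((r - (1 / 4)) ^ 3 * (1 - r) ^ 0 * (t ^ 4 * (1 - t) ^ 0)) := by ring
  rw [e]
  exact key

theorem e1 (r t : ℝ) (ha : (-1 / 2) ≤ r) (hb : r ≤ 1) (h0 : 0 ≤ t) (h1 : t ≤ 1) :
    0 ≤ (450 * (1 + t) + 988 * r * (1 + t + t ^ 2) + -64 * r ^ 2 * (1 + t + t ^ 2 + t ^ 3)) + 2 * r ^ 2 * (611 * (1 + t + t ^ 2 + t ^ 3) + -562 * r * (1 + t + t ^ 2 + t ^ 3 + t ^ 4)) := by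
  rcases le_total r (-1 / 8) with h | h
  · exact e1_0 r t (by linarith) (by linarith) h0 h1
  rcases le_total r (1 / 4) with h | h
  · exact e1_1 r t (by linarith) (by linarith) h0 h1
  exact e1_2 r t (by linarith) (by linarith) h0 h1

theorem e2_0 (r t : ℝ) (ha : (-1 / 2) ≤ r) (hb : r ≤ 1) (h0 : 0 ≤ t) (h1 : t ≤ 1) :
    0 ≤ (3 - 2 * r) * (450 * (1 + t) + 988 * r * (1 + t + t ^ 2) + -64 * r ^ 2 * (1 + t + t ^ 2 + t ^ 3)) + 2 * (611 * (1 + t + t ^ 2 + t ^ 3) + -562 * r * (1 + t + t ^ 2 + t ^ 3 + t ^ 4)) := by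
  have hx : 0 ≤ r - (-1 / 2) := by linarith
  have hy : 0 ≤ 1 - r := by linarith
  have hz : 0 ≤ 1 - t := by linarith
  have key : 0 ≤ (12352 / 27) * ((r - (-1 / 2)) ^ 0 * (1 - r) ^ 3 * (t ^ 0 * (1 - t) ^ 4)) +
      (61760 / 27) * ((r - (-1 / 2)) ^ 0 * (1 - r) ^ 3 * (t ^ 1 * (1 - t) ^ 3)) +
      (109120 / 27) * ((r - (-1 / 2)) ^ 0 * (1 - r) ^ 3 * (t ^ 2 * (1 - t) ^ 2)) +
      (96128 / 27) * ((r - (-1 / 2)) ^ 0 * (1 - r) ^ 3 * (t ^ 3 * (1 - t) ^ 1)) +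
      (40912 / 27) * ((r - (-1 / 2)) ^ 0 * (1 - r) ^ 3 * (t ^ 4 * (1 - t) ^ 0)) +
      (25168 / 9) * ((r - (-1 / 2)) ^ 1 * (1 - r) ^ 2 * (t ^ 0 * (1 - t) ^ 4)) +
      (125840 / 9) * ((r - (-1 / 2)) ^ 1 * (1 - r) ^ 2 * (t ^ 1 * (1 - t) ^ 3)) +
      (240880 / 9) * ((r - (-1 / 2)) ^ 1 * (1 - r) ^ 2 * (t ^ 2 * (1 - t) ^ 2)) +
      (71776 / 3) * ((r - (-1 / 2)) ^ 1 * (1 - r) ^ 2 * (t ^ 3 * (1 - t) ^ 1)) +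
      (25040 / 3) * ((r - (-1 / 2)) ^ 1 * (1 - r) ^ 2 * (t ^ 4 * (1 - t) ^ 0)) +
      (23824 / 9) * ((r - (-1 / 2)) ^ 2 * (1 - r) ^ 1 * (t ^ 0 * (1 - t) ^ 4)) +
      (119120 / 9) * ((r - (-1 / 2)) ^ 2 * (1 - r) ^ 1 * (t ^ 1 * (1 - t) ^ 3)) +
      (231040 / 9) * ((r - (-1 / 2)) ^ 2 * (1 - r) ^ 1 * (t ^ 2 * (1 - t) ^ 2)) +
      (204784 / 9) * ((r - (-1 / 2)) ^ 2 * (1 - r) ^ 1 * (t ^ 3 * (1 - t) ^ 1)) +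
      (64544 / 9) * ((r - (-1 / 2)) ^ 2 * (1 - r) ^ 1 * (t ^ 4 * (1 - t) ^ 0)) +
      (11776 / 27) * ((r - (-1 / 2)) ^ 3 * (1 - r) ^ 0 * (t ^ 0 * (1 - t) ^ 4)) +
      (58880 / 27) * ((r - (-1 / 2)) ^ 3 * (1 - r) ^ 0 * (t ^ 1 * (1 - t) ^ 3)) +
      (114160 / 27) * ((r - (-1 / 2)) ^ 3 * (1 - r) ^ 0 * (t ^ 2 * (1 - t) ^ 2)) +
      (99056 / 27) * ((r - (-1 / 2)) ^ 3 * (1 - r) ^ 0 * (t ^ 3 * (1 - t) ^ 1)) +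
      (23008 / 27) * ((r - (-1 / 2)) ^ 3 * (1 - r) ^ 0 * (t ^ 4 * (1 - t) ^ 0)) := by positivity
  have e : (3 - 2 * r) * (450 * (1 + t) + 988 * r * (1 + t + t ^ 2) + -64 * r ^ 2 * (1 + t + t ^ 2 + t ^ 3)) + 2 * (611 * (1 + t + t ^ 2 + t ^ 3) + -562 * r * (1 + t + t ^ 2 + t ^ 3 + t ^ 4)) = (12352 / 27) * ((r - (-1 / 2)) ^ 0 * (1 - r) ^ 3 * (t ^ 0 * (1 - t) ^ 4)) +
      (61760 / 27) * ((r - (-1 / 2)) ^ 0 * (1 - r) ^ 3 * (t ^ 1 * (1 - t) ^ 3)) +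
      (109120 / 27) * ((r - (-1 / 2)) ^ 0 * (1 - r) ^ 3 * (t ^ 2 * (1 - t) ^ 2)) +
      (96128 / 27) * ((r - (-1 / 2)) ^ 0 * (1 - r) ^ 3 * (t ^ 3 * (1 - t) ^ 1)) +
      (40912 / 27) * ((r - (-1 / 2)) ^ 0 * (1 - r) ^ 3 * (t ^ 4 * (1 - t) ^ 0)) +
      (25168 / 9) * ((r - (-1 / 2)) ^ 1 * (1 - r) ^ 2 * (t ^ 0 * (1 - t) ^ 4)) +
      (125840 / 9) * ((r - (-1 / 2)) ^ 1 * (1 - r) ^ 2 * (t ^ 1 * (1 - t) ^ 3)) +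
      (240880 / 9) * ((r - (-1 / 2)) ^ 1 * (1 - r) ^ 2 * (t ^ 2 * (1 - t) ^ 2)) +
      (71776 / 3) * ((r - (-1 / 2)) ^ 1 * (1 - r) ^ 2 * (t ^ 3 * (1 - t) ^ 1)) +
      (25040 / 3) * ((r - (-1 / 2)) ^ 1 * (1 - r) ^ 2 * (t ^ 4 * (1 - t) ^ 0)) +
      (23824 / 9) * ((r - (-1 / 2)) ^ 2 * (1 - r) ^ 1 * (t ^ 0 * (1 - t) ^ 4)) +
      (119120 / 9) * ((r - (-1 / 2)) ^ 2 * (1 - r) ^ 1 * (t ^ 1 * (1 - t) ^ 3)) +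
      (231040 / 9) * ((r - (-1 / 2)) ^ 2 * (1 - r) ^ 1 * (t ^ 2 * (1 - t) ^ 2)) +
      (204784 / 9) * ((r - (-1 / 2)) ^ 2 * (1 - r) ^ 1 * (t ^ 3 * (1 - t) ^ 1)) +
      (64544 / 9) * ((r - (-1 / 2)) ^ 2 * (1 - r) ^ 1 * (t ^ 4 * (1 - t) ^ 0)) +
      (11776 / 27) * ((r - (-1 / 2)) ^ 3 * (1 - r) ^ 0 * (t ^ 0 * (1 - t) ^ 4)) +
      (58880 / 27) * ((r - (-1 / 2)) ^ 3 * (1 - r) ^ 0 * (t ^ 1 * (1 - t) ^ 3)) +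
      (114160 / 27) * ((r - (-1 / 2)) ^ 3 * (1 - r) ^ 0 * (t ^ 2 * (1 - t) ^ 2)) +
      (99056 / 27) * ((r - (-1 / 2)) ^ 3 * (1 - r) ^ 0 * (t ^ 3 * (1 - t) ^ 1)) +
      (23008 / 27) * ((r - (-1 / 2)) ^ 3 * (1 - r) ^ 0 * (t ^ 4 * (1 - t) ^ 0)) := by ring
  rw [e]
  exact key

theorem e2 (r t : ℝ) (ha : (-1 / 2) ≤ r) (hb : r ≤ 1) (h0 : 0 ≤ t) (h1 : t ≤ 1) :
    0 ≤ (3 - 2 * r) * (450 * (1 + t) + 988 * r * (1 + t + t ^ 2) + -64 * r ^ 2 * (1 + t + t ^ 2 + t ^ 3)) + 2 * (611 * (1 + t + t ^ 2 + t ^ 3) + -562 * r * (1 + t + t ^ 2 + t ^ 3 + t ^ 4)) := by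
  exact e2_0 r t (by linarith) (by linarith) h0 h1


theorem ctr : Ctr F4 := by
  intro b hb t h0 h1
  unfold F4
  rw [u_en, w_en]
  rcases (u_nonneg b).eq_or_lt with hu | hu
  · have hw := w_sq hb
    rw [← hu] at hw
    have hw0 : wFn b = 0 := by nlinarith [sq_nonneg (wFn b)]
    rw [← hu, hw0]
    norm_num
  · obtain ⟨r, hr, ha, hb1, hc, hd⟩ := slope hb hu
    rw [hr]
    set u := uFn 3 b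
    have k1 := core (450 * (1 + t) + 988 * r * (1 + t + t ^ 2) + -64 * r ^ 2 * (1 + t + t ^ 2 + t ^ 3)) (611 * (1 + t + t ^ 2 + t ^ 3) + -562 * r * (1 + t + t ^ 2 + t ^ 3 + t ^ 4)) r u hc hd hb1
      (e1 r t ha hb1 h0 h1) (e2 r t ha hb1 h0 h1)
    have k2 : 0 ≤ (450 * (1 + t) + 988 * r * (1 + t + t ^ 2) + -64 * r ^ 2 * (1 + t + t ^ 2 + t ^ 3)) + u * (611 * (1 + t + t ^ 2 + t ^ 3) + -562 * r * (1 + t + t ^ 2 + t ^ 3 + t ^ 4)) + 0 := by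
      have : 0 ≤ 0 := by positivity
      linarith
    have k3 : 0 ≤ (1 - t) * (t ^ 2 * u ^ 2) * ((450 * (1 + t) + 988 * r * (1 + t + t ^ 2) + -64 * r ^ 2 * (1 + t + t ^ 2 + t ^ 3)) + u * (611 * (1 + t + t ^ 2 + t ^ 3) + -562 * r * (1 + t + t ^ 2 + t ^ 3 + t ^ 4)) + 0) :=
      mul_nonneg (mul_nonneg (by linarith) (by positivity)) k2
    nlinarith [k3]

theorem rng : Rng F4 3 := by
  refine ⟨⟨1 / 2, by norm_num, ?_⟩, ?_⟩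
  · intro b hb
    rcases (u_nonneg b).eq_or_lt with hu | hu
    · have hw := w_sq hb
      rw [← hu] at hw
      have hw0 : wFn b = 0 := by nlinarith [sq_nonneg (wFn b)]
      unfold F4
      rw [← hu, hw0]
      norm_num
    · obtain ⟨r, hr, ha, hb1, hc, hd⟩ := slope hb hu
      have h2 := u_le hb
      unfold F4
      rw [hr]
      set u := uFn 3 b
      have key : 0 ≤ 1 / 2 + 450 / 10000 * u + 988 / 10000 * (r * u) + 611 / 10000 * u ^ 2 -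
          64 / 10000 * (r ^ 2 * u) - 562 / 10000 * (r * u ^ 2) := by
        have q1 : -(u / 2) ≤ r * u := by nlinarith
        have q2 : r ^ 2 * u ≤ u := by nlinarith
        have q3 : r * u ^ 2 ≤ u ^ 2 := by nlinarith
        nlinarith
      nlinarith [mul_nonneg hu.le key]
  · intro b hb
    have hu := u_nonneg b
    have h2 := u_le hb
    have h3 := w_sq hb
    have h4 := w_ge hb
    unfold F4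
    set u := uFn 3 b
    set w := wFn b
    have hw1 : w ^ 2 ≤ u ^ 2 := by nlinarith [mul_nonneg (sq_nonneg u) (sub_nonneg.2 h2)]
    have hw : w ≤ u := abs_le_of_sq_le_sq' hw1 hu |>.2
    rcases le_total u (1758 / 1000) with h | h
    · have q1 : u * w ≤ u ^ 2 := by nlinarith
      have q2 : w * (u * (988 / 10000 - 562 / 10000 * u)) ≤
          u * (u * (988 / 10000 - 562 / 10000 * u)) :=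
        mul_le_mul_of_nonneg_right hw (mul_nonneg hu (by nlinarith))
      have q3 : u ^ 2 ≤ 4 := by nlinarith
      have q4 : u ^ 2 ≤ 1758 / 1000 * u := by nlinarith
      have q5 : u ^ 3 ≤ 1758 / 1000 * u ^ 2 := by nlinarith [mul_nonneg (sq_nonneg u) (sub_nonneg.2 h)]
      nlinarith [sq_nonneg w, pow_nonneg hu 3]
    · have q1 : 0 ≤ w := by nlinarith
      have c1 : u * (988 / 10000 - 562 / 10000 * u) ≤ 1 / 1000 := by nlinarith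
      have q2 : w * (u * (988 / 10000 - 562 / 10000 * u)) ≤ w * (1 / 1000) :=
        mul_le_mul_of_nonneg_left c1 q1
      have q3 : u ^ 2 ≤ 4 := by nlinarith
      have q4 : u ^ 3 ≤ 8 := by nlinarith
      nlinarith [sq_nonneg w]

end Vale.Agent.P154.AF.CTR4

namespace Vale.Agent.P154.AF

theorem ctr4 : StmtCtr4 := ⟨CTR4.ctr, CTR4.rng⟩

end Vale.Agent.P154.AF
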