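import Vale.Agent.P154AF.CtrLib

/-! Contraction and range of the potential `F5`. -/

namespace Vale.Agent.P154.AF.CTR5

open CtrLib

theorem e1_0 (r t : ℝ) (ha : (-1 / 2) ≤ r) (hb : r ≤ 1) (h0 : 0 ≤ t) (h1 : t ≤ 1) :
    0 ≤ (521 * (1 + t) + 564 * r * (1 + t + t ^ 2) + 572 * r ^ 2 * (1 + t + t ^ 2 + t ^ 3)) + 2 * r ^ 2 * (-188 * (1 + t + t ^ 2 + t ^ 3) + 307 * r * (1 + t + t ^ 2 + t ^ 3 + t ^ 4)) := by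
  have hx : 0 ≤ r - (-1 / 2) := by linarith
  have hy : 0 ≤ 1 - r := by linarith
  have hz : 0 ≤ 1 - t := by linarith
  have key : 0 ≤ (1690 / 27) * ((r - (-1 / 2)) ^ 0 * (1 - r) ^ 3 * (t ^ 0 * (1 - t) ^ 4)) +
      (8450 / 27) * ((r - (-1 / 2)) ^ 0 * (1 - r) ^ 3 * (t ^ 1 * (1 - t) ^ 3)) +
      (4244 / 9) * ((r - (-1 / 2)) ^ 0 * (1 - r) ^ 3 * (t ^ 2 * (1 - t) ^ 2)) +
      (6652 / 27) * ((r - (-1 / 2)) ^ 0 * (1 - r) ^ 3 * (t ^ 3 * (1 - t) ^ 1)) +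
      (22 / 9) * ((r - (-1 / 2)) ^ 0 * (1 - r) ^ 3 * (t ^ 4 * (1 - t) ^ 0)) +
      556 * ((r - (-1 / 2)) ^ 1 * (1 - r) ^ 2 * (t ^ 0 * (1 - t) ^ 4)) +
      2780 * ((r - (-1 / 2)) ^ 1 * (1 - r) ^ 2 * (t ^ 1 * (1 - t) ^ 3)) +
      (45872 / 9) * ((r - (-1 / 2)) ^ 1 * (1 - r) ^ 2 * (t ^ 2 * (1 - t) ^ 2)) +
      (12512 / 3) * ((r - (-1 / 2)) ^ 1 * (1 - r) ^ 2 * (t ^ 3 * (1 - t) ^ 1)) +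
      (12908 / 9) * ((r - (-1 / 2)) ^ 1 * (1 - r) ^ 2 * (t ^ 4 * (1 - t) ^ 0)) +
      (3968 / 9) * ((r - (-1 / 2)) ^ 2 * (1 - r) ^ 1 * (t ^ 0 * (1 - t) ^ 4)) +
      (19840 / 9) * ((r - (-1 / 2)) ^ 2 * (1 - r) ^ 1 * (t ^ 1 * (1 - t) ^ 3)) +
      (35512 / 9) * ((r - (-1 / 2)) ^ 2 * (1 - r) ^ 1 * (t ^ 2 * (1 - t) ^ 2)) +
      (24920 / 9) * ((r - (-1 / 2)) ^ 2 * (1 - r) ^ 1 * (t ^ 3 * (1 - t) ^ 1)) +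
      (2824 / 9) * ((r - (-1 / 2)) ^ 2 * (1 - r) ^ 1 * (t ^ 4 * (1 - t) ^ 0)) +
      (15160 / 27) * ((r - (-1 / 2)) ^ 3 * (1 - r) ^ 0 * (t ^ 0 * (1 - t) ^ 4)) +
      (75800 / 27) * ((r - (-1 / 2)) ^ 3 * (1 - r) ^ 0 * (t ^ 1 * (1 - t) ^ 3)) +
      (49144 / 9) * ((r - (-1 / 2)) ^ 3 * (1 - r) ^ 0 * (t ^ 2 * (1 - t) ^ 2)) +
      (134584 / 27) * ((r - (-1 / 2)) ^ 3 * (1 - r) ^ 0 * (t ^ 3 * (1 - t) ^ 1)) +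
      1952 * ((r - (-1 / 2)) ^ 3 * (1 - r) ^ 0 * (t ^ 4 * (1 - t) ^ 0)) := by positivity
  have e : (521 * (1 + t) + 564 * r * (1 + t + t ^ 2) + 572 * r ^ 2 * (1 + t + t ^ 2 + t ^ 3)) + 2 * r ^ 2 * (-188 * (1 + t + t ^ 2 + t ^ 3) + 307 * r * (1 + t + t ^ 2 + t ^ 3 + t ^ 4)) = (1690 / 27) * ((r - (-1 / 2)) ^ 0 * (1 - r) ^ 3 * (t ^ 0 * (1 - t) ^ 4)) +
      (8450 / 27) * ((r - (-1 / 2)) ^ 0 * (1 - r) ^ 3 * (t ^ 1 * (1 - t) ^ 3)) +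
      (4244 / 9) * ((r - (-1 / 2)) ^ 0 * (1 - r) ^ 3 * (t ^ 2 * (1 - t) ^ 2)) +
      (6652 / 27) * ((r - (-1 / 2)) ^ 0 * (1 - r) ^ 3 * (t ^ 3 * (1 - t) ^ 1)) +
      (22 / 9) * ((r - (-1 / 2)) ^ 0 * (1 - r) ^ 3 * (t ^ 4 * (1 - t) ^ 0)) +
      556 * ((r - (-1 / 2)) ^ 1 * (1 - r) ^ 2 * (t ^ 0 * (1 - t) ^ 4)) +
      2780 * ((r - (-1 / 2)) ^ 1 * (1 - r) ^ 2 * (t ^ 1 * (1 - t) ^ 3)) +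
      (45872 / 9) * ((r - (-1 / 2)) ^ 1 * (1 - r) ^ 2 * (t ^ 2 * (1 - t) ^ 2)) +
      (12512 / 3) * ((r - (-1 / 2)) ^ 1 * (1 - r) ^ 2 * (t ^ 3 * (1 - t) ^ 1)) +
      (12908 / 9) * ((r - (-1 / 2)) ^ 1 * (1 - r) ^ 2 * (t ^ 4 * (1 - t) ^ 0)) +
      (3968 / 9) * ((r - (-1 / 2)) ^ 2 * (1 - r) ^ 1 * (t ^ 0 * (1 - t) ^ 4)) +
      (19840 / 9) * ((r - (-1 / 2)) ^ 2 * (1 - r) ^ 1 * (t ^ 1 * (1 - t) ^ 3)) +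
      (35512 / 9) * ((r - (-1 / 2)) ^ 2 * (1 - r) ^ 1 * (t ^ 2 * (1 - t) ^ 2)) +
      (24920 / 9) * ((r - (-1 / 2)) ^ 2 * (1 - r) ^ 1 * (t ^ 3 * (1 - t) ^ 1)) +
      (2824 / 9) * ((r - (-1 / 2)) ^ 2 * (1 - r) ^ 1 * (t ^ 4 * (1 - t) ^ 0)) +
      (15160 / 27) * ((r - (-1 / 2)) ^ 3 * (1 - r) ^ 0 * (t ^ 0 * (1 - t) ^ 4)) +
      (75800 / 27) * ((r - (-1 / 2)) ^ 3 * (1 - r) ^ 0 * (t ^ 1 * (1 - t) ^ 3)) +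
      (49144 / 9) * ((r - (-1 / 2)) ^ 3 * (1 - r) ^ 0 * (t ^ 2 * (1 - t) ^ 2)) +
      (134584 / 27) * ((r - (-1 / 2)) ^ 3 * (1 - r) ^ 0 * (t ^ 3 * (1 - t) ^ 1)) +
      1952 * ((r - (-1 / 2)) ^ 3 * (1 - r) ^ 0 * (t ^ 4 * (1 - t) ^ 0)) := by ring
  rw [e]
  exact key

theorem e1 (r t : ℝ) (ha : (-1 / 2) ≤ r) (hb : r ≤ 1) (h0 : 0 ≤ t) (h1 : t ≤ 1) :
    0 ≤ (521 * (1 + t) + 564 * r * (1 + t + t ^ 2) + 572 * r ^ 2 * (1 + t + t ^ 2 + t ^ 3)) + 2 * r ^ 2 * (-188 * (1 + t + t ^ 2 + t ^ 3) + 307 * r * (1 + t + t ^ 2 + t ^ 3 + t ^ 4)) := by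
  exact e1_0 r t (by linarith) (by linarith) h0 h1

theorem e2_0 (r t : ℝ) (ha : (-1 / 2) ≤ r) (hb : r ≤ (-13 / 32)) (h0 : 0 ≤ t) (h1 : t ≤ 1) :
    0 ≤ (3 - 2 * r) * (521 * (1 + t) + 564 * r * (1 + t + t ^ 2) + 572 * r ^ 2 * (1 + t + t ^ 2 + t ^ 3)) + 2 * (-188 * (1 + t + t ^ 2 + t ^ 3) + 307 * r * (1 + t + t ^ 2 + t ^ 3 + t ^ 4)) := by
  have hx : 0 ≤ r - (-1 / 2) := by linarith
  have hy : 0 ≤ (-13 / 32) - r := by linarith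
  have hz : 0 ≤ 1 - t := by linarith
  have key : 0 ≤ (27688960 / 27) * ((r - (-1 / 2)) ^ 0 * ((-13 / 32) - r) ^ 3 * (t ^ 0 * (1 - t) ^ 4)) +
      (138444800 / 27) * ((r - (-1 / 2)) ^ 0 * ((-13 / 32) - r) ^ 3 * (t ^ 1 * (1 - t) ^ 3)) +
      (69533696 / 9) * ((r - (-1 / 2)) ^ 0 * ((-13 / 32) - r) ^ 3 * (t ^ 2 * (1 - t) ^ 2)) +
      (108986368 / 27) * ((r - (-1 / 2)) ^ 0 * ((-13 / 32) - r) ^ 3 * (t ^ 3 * (1 - t) ^ 1)) +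
      (360448 / 9) * ((r - (-1 / 2)) ^ 0 * ((-13 / 32) - r) ^ 3 * (t ^ 4 * (1 - t) ^ 0)) +
      (27502592 / 9) * ((r - (-1 / 2)) ^ 1 * ((-13 / 32) - r) ^ 2 * (t ^ 0 * (1 - t) ^ 4)) +
      (137512960 / 9) * ((r - (-1 / 2)) ^ 1 * ((-13 / 32) - r) ^ 2 * (t ^ 1 * (1 - t) ^ 3)) +
      (207804416 / 9) * ((r - (-1 / 2)) ^ 1 * ((-13 / 32) - r) ^ 2 * (t ^ 2 * (1 - t) ^ 2)) +
      (107436032 / 9) * ((r - (-1 / 2)) ^ 1 * ((-13 / 32) - r) ^ 2 * (t ^ 3 * (1 - t) ^ 1)) +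
      (210944 / 9) * ((r - (-1 / 2)) ^ 1 * ((-13 / 32) - r) ^ 2 * (t ^ 4 * (1 - t) ^ 0)) +
      3059712 * ((r - (-1 / 2)) ^ 2 * ((-13 / 32) - r) ^ 1 * (t ^ 0 * (1 - t) ^ 4)) +
      15298560 * ((r - (-1 / 2)) ^ 2 * ((-13 / 32) - r) ^ 1 * (t ^ 1 * (1 - t) ^ 3)) +
      (209219584 / 9) * ((r - (-1 / 2)) ^ 2 * ((-13 / 32) - r) ^ 1 * (t ^ 2 * (1 - t) ^ 2)) +
      (36068608 / 3) * ((r - (-1 / 2)) ^ 2 * ((-13 / 32) - r) ^ 1 * (t ^ 3 * (1 - t) ^ 1)) +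
      (333568 / 9) * ((r - (-1 / 2)) ^ 2 * ((-13 / 32) - r) ^ 1 * (t ^ 4 * (1 - t) ^ 0)) +
      (27762520 / 27) * ((r - (-1 / 2)) ^ 3 * ((-13 / 32) - r) ^ 0 * (t ^ 0 * (1 - t) ^ 4)) +
      (138812600 / 27) * ((r - (-1 / 2)) ^ 3 * ((-13 / 32) - r) ^ 0 * (t ^ 1 * (1 - t) ^ 3)) +
      (70845904 / 9) * ((r - (-1 / 2)) ^ 3 * ((-13 / 32) - r) ^ 0 * (t ^ 2 * (1 - t) ^ 2)) +
      (110986864 / 27) * ((r - (-1 / 2)) ^ 3 * ((-13 / 32) - r) ^ 0 * (t ^ 3 * (1 - t) ^ 1)) +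
      (147296 / 3) * ((r - (-1 / 2)) ^ 3 * ((-13 / 32) - r) ^ 0 * (t ^ 4 * (1 - t) ^ 0)) := by positivity
  have e : (3 - 2 * r) * (521 * (1 + t) + 564 * r * (1 + t + t ^ 2) + 572 * r ^ 2 * (1 + t + t ^ 2 + t ^ 3)) + 2 * (-188 * (1 + t + t ^ 2 + t ^ 3) + 307 * r * (1 + t + t ^ 2 + t ^ 3 + t ^ 4)) = (27688960 / 27) * ((r - (-1 / 2)) ^ 0 * ((-13 / 32) - r) ^ 3 * (t ^ 0 * (1 - t) ^ 4)) +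
      (138444800 / 27) * ((r - (-1 / 2)) ^ 0 * ((-13 / 32) - r) ^ 3 * (t ^ 1 * (1 - t) ^ 3)) +
      (69533696 / 9) * ((r - (-1 / 2)) ^ 0 * ((-13 / 32) - r) ^ 3 * (t ^ 2 * (1 - t) ^ 2)) +
      (108986368 / 27) * ((r - (-1 / 2)) ^ 0 * ((-13 / 32) - r) ^ 3 * (t ^ 3 * (1 - t) ^ 1)) +
      (360448 / 9) * ((r - (-1 / 2)) ^ 0 * ((-13 / 32) - r) ^ 3 * (t ^ 4 * (1 - t) ^ 0)) +
      (27502592 / 9) * ((r - (-1 / 2)) ^ 1 * ((-13 / 32) - r) ^ 2 * (t ^ 0 * (1 - t) ^ 4)) +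
      (137512960 / 9) * ((r - (-1 / 2)) ^ 1 * ((-13 / 32) - r) ^ 2 * (t ^ 1 * (1 - t) ^ 3)) +
      (207804416 / 9) * ((r - (-1 / 2)) ^ 1 * ((-13 / 32) - r) ^ 2 * (t ^ 2 * (1 - t) ^ 2)) +
      (107436032 / 9) * ((r - (-1 / 2)) ^ 1 * ((-13 / 32) - r) ^ 2 * (t ^ 3 * (1 - t) ^ 1)) +
      (210944 / 9) * ((r - (-1 / 2)) ^ 1 * ((-13 / 32) - r) ^ 2 * (t ^ 4 * (1 - t) ^ 0)) +
      3059712 * ((r - (-1 / 2)) ^ 2 * ((-13 / 32) - r) ^ 1 * (t ^ 0 * (1 - t) ^ 4)) +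
      15298560 * ((r - (-1 / 2)) ^ 2 * ((-13 / 32) - r) ^ 1 * (t ^ 1 * (1 - t) ^ 3)) +
      (209219584 / 9) * ((r - (-1 / 2)) ^ 2 * ((-13 / 32) - r) ^ 1 * (t ^ 2 * (1 - t) ^ 2)) +
      (36068608 / 3) * ((r - (-1 / 2)) ^ 2 * ((-13 / 32) - r) ^ 1 * (t ^ 3 * (1 - t) ^ 1)) +
      (333568 / 9) * ((r - (-1 / 2)) ^ 2 * ((-13 / 32) - r) ^ 1 * (t ^ 4 * (1 - t) ^ 0)) +
      (27762520 / 27) * ((r - (-1 / 2)) ^ 3 * ((-13 / 32) - r) ^ 0 * (t ^ 0 * (1 - t) ^ 4)) +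
      (138812600 / 27) * ((r - (-1 / 2)) ^ 3 * ((-13 / 32) - r) ^ 0 * (t ^ 1 * (1 - t) ^ 3)) +
      (70845904 / 9) * ((r - (-1 / 2)) ^ 3 * ((-13 / 32) - r) ^ 0 * (t ^ 2 * (1 - t) ^ 2)) +
      (110986864 / 27) * ((r - (-1 / 2)) ^ 3 * ((-13 / 32) - r) ^ 0 * (t ^ 3 * (1 - t) ^ 1)) +
      (147296 / 3) * ((r - (-1 / 2)) ^ 3 * ((-13 / 32) - r) ^ 0 * (t ^ 4 * (1 - t) ^ 0)) := by ring
  rw [e]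
  exact key

theorem e2_1 (r t : ℝ) (ha : (-13 / 32) ≤ r) (hb : r ≤ (-5 / 16)) (h0 : 0 ≤ t) (h1 : t ≤ 1) :
    0 ≤ (3 - 2 * r) * (521 * (1 + t) + 564 * r * (1 + t + t ^ 2) + 572 * r ^ 2 * (1 + t + t ^ 2 + t ^ 3)) + 2 * (-188 * (1 + t + t ^ 2 + t ^ 3) + 307 * r * (1 + t + t ^ 2 + t ^ 3 + t ^ 4)) := by
  have hx : 0 ≤ r - (-13 / 32) := by linarith
  have hy : 0 ≤ (-5 / 16) - r := by linarith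
  have hz : 0 ≤ 1 - t := by linarith
  have key : 0 ≤ (27762520 / 27) * ((r - (-13 / 32)) ^ 0 * ((-5 / 16) - r) ^ 3 * (t ^ 0 * (1 - t) ^ 4)) +
      (138812600 / 27) * ((r - (-13 / 32)) ^ 0 * ((-5 / 16) - r) ^ 3 * (t ^ 1 * (1 - t) ^ 3)) +
      (70845904 / 9) * ((r - (-13 / 32)) ^ 0 * ((-5 / 16) - r) ^ 3 * (t ^ 2 * (1 - t) ^ 2)) +
      (110986864 / 27) * ((r - (-13 / 32)) ^ 0 * ((-5 / 16) - r) ^ 3 * (t ^ 3 * (1 - t) ^ 1)) +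
      (147296 / 3) * ((r - (-13 / 32)) ^ 0 * ((-5 / 16) - r) ^ 3 * (t ^ 4 * (1 - t) ^ 0)) +
      (27987632 / 9) * ((r - (-13 / 32)) ^ 1 * ((-5 / 16) - r) ^ 2 * (t ^ 0 * (1 - t) ^ 4)) +
      (139938160 / 9) * ((r - (-13 / 32)) ^ 1 * ((-5 / 16) - r) ^ 2 * (t ^ 1 * (1 - t) ^ 3)) +
      (215855840 / 9) * ((r - (-13 / 32)) ^ 1 * ((-5 / 16) - r) ^ 2 * (t ^ 2 * (1 - t) ^ 2)) +
      (113767904 / 9) * ((r - (-13 / 32)) ^ 1 * ((-5 / 16) - r) ^ 2 * (t ^ 3 * (1 - t) ^ 1)) +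
      (2317760 / 9) * ((r - (-13 / 32)) ^ 1 * ((-5 / 16) - r) ^ 2 * (t ^ 4 * (1 - t) ^ 0)) +
      (9467680 / 3) * ((r - (-13 / 32)) ^ 2 * ((-5 / 16) - r) ^ 1 * (t ^ 0 * (1 - t) ^ 4)) +
      (47338400 / 3) * ((r - (-13 / 32)) ^ 2 * ((-5 / 16) - r) ^ 1 * (t ^ 1 * (1 - t) ^ 3)) +
      (221076928 / 9) * ((r - (-13 / 32)) ^ 2 * ((-5 / 16) - r) ^ 1 * (t ^ 2 * (1 - t) ^ 2)) +
      (39520064 / 3) * ((r - (-13 / 32)) ^ 2 * ((-5 / 16) - r) ^ 1 * (t ^ 3 * (1 - t) ^ 1)) +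
      (4179328 / 9) * ((r - (-13 / 32)) ^ 2 * ((-5 / 16) - r) ^ 1 * (t ^ 4 * (1 - t) ^ 0)) +
      (28977856 / 27) * ((r - (-13 / 32)) ^ 3 * ((-5 / 16) - r) ^ 0 * (t ^ 0 * (1 - t) ^ 4)) +
      (144889280 / 27) * ((r - (-13 / 32)) ^ 3 * ((-5 / 16) - r) ^ 0 * (t ^ 1 * (1 - t) ^ 3)) +
      8440448 * ((r - (-13 / 32)) ^ 3 * ((-5 / 16) - r) ^ 0 * (t ^ 2 * (1 - t) ^ 2)) +
      (125054848 / 27) * ((r - (-13 / 32)) ^ 3 * ((-5 / 16) - r) ^ 0 * (t ^ 3 * (1 - t) ^ 1)) +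
      (2262272 / 9) * ((r - (-13 / 32)) ^ 3 * ((-5 / 16) - r) ^ 0 * (t ^ 4 * (1 - t) ^ 0)) := by positivity
  have e : (3 - 2 * r) * (521 * (1 + t) + 564 * r * (1 + t + t ^ 2) + 572 * r ^ 2 * (1 + t + t ^ 2 + t ^ 3)) + 2 * (-188 * (1 + t + t ^ 2 + t ^ 3) + 307 * r * (1 + t + t ^ 2 + t ^ 3 + t ^ 4)) = (27762520 / 27) * ((r - (-13 / 32)) ^ 0 * ((-5 / 16) - r) ^ 3 * (t ^ 0 * (1 - t) ^ 4)) +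
      (138812600 / 27) * ((r - (-13 / 32)) ^ 0 * ((-5 / 16) - r) ^ 3 * (t ^ 1 * (1 - t) ^ 3)) +
      (70845904 / 9) * ((r - (-13 / 32)) ^ 0 * ((-5 / 16) - r) ^ 3 * (t ^ 2 * (1 - t) ^ 2)) +
      (110986864 / 27) * ((r - (-13 / 32)) ^ 0 * ((-5 / 16) - r) ^ 3 * (t ^ 3 * (1 - t) ^ 1)) +
      (147296 / 3) * ((r - (-13 / 32)) ^ 0 * ((-5 / 16) - r) ^ 3 * (t ^ 4 * (1 - t) ^ 0)) +
      (27987632 / 9) * ((r - (-13 / 32)) ^ 1 * ((-5 / 16) - r) ^ 2 * (t ^ 0 * (1 - t) ^ 4)) +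
      (139938160 / 9) * ((r - (-13 / 32)) ^ 1 * ((-5 / 16) - r) ^ 2 * (t ^ 1 * (1 - t) ^ 3)) +
      (215855840 / 9) * ((r - (-13 / 32)) ^ 1 * ((-5 / 16) - r) ^ 2 * (t ^ 2 * (1 - t) ^ 2)) +
      (113767904 / 9) * ((r - (-13 / 32)) ^ 1 * ((-5 / 16) - r) ^ 2 * (t ^ 3 * (1 - t) ^ 1)) +
      (2317760 / 9) * ((r - (-13 / 32)) ^ 1 * ((-5 / 16) - r) ^ 2 * (t ^ 4 * (1 - t) ^ 0)) +
      (9467680 / 3) * ((r - (-13 / 32)) ^ 2 * ((-5 / 16) - r) ^ 1 * (t ^ 0 * (1 - t) ^ 4)) +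
      (47338400 / 3) * ((r - (-13 / 32)) ^ 2 * ((-5 / 16) - r) ^ 1 * (t ^ 1 * (1 - t) ^ 3)) +
      (221076928 / 9) * ((r - (-13 / 32)) ^ 2 * ((-5 / 16) - r) ^ 1 * (t ^ 2 * (1 - t) ^ 2)) +
      (39520064 / 3) * ((r - (-13 / 32)) ^ 2 * ((-5 / 16) - r) ^ 1 * (t ^ 3 * (1 - t) ^ 1)) +
      (4179328 / 9) * ((r - (-13 / 32)) ^ 2 * ((-5 / 16) - r) ^ 1 * (t ^ 4 * (1 - t) ^ 0)) +
      (28977856 / 27) * ((r - (-13 / 32)) ^ 3 * ((-5 / 16) - r) ^ 0 * (t ^ 0 * (1 - t) ^ 4)) +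
      (144889280 / 27) * ((r - (-13 / 32)) ^ 3 * ((-5 / 16) - r) ^ 0 * (t ^ 1 * (1 - t) ^ 3)) +
      8440448 * ((r - (-13 / 32)) ^ 3 * ((-5 / 16) - r) ^ 0 * (t ^ 2 * (1 - t) ^ 2)) +
      (125054848 / 27) * ((r - (-13 / 32)) ^ 3 * ((-5 / 16) - r) ^ 0 * (t ^ 3 * (1 - t) ^ 1)) +
      (2262272 / 9) * ((r - (-13 / 32)) ^ 3 * ((-5 / 16) - r) ^ 0 * (t ^ 4 * (1 - t) ^ 0)) := by ring
  rw [e]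
  exact key

theorem e2_2 (r t : ℝ) (ha : (-5 / 16) ≤ r) (hb : r ≤ (-1 / 8)) (h0 : 0 ≤ t) (h1 : t ≤ 1) :
    0 ≤ (3 - 2 * r) * (521 * (1 + t) + 564 * r * (1 + t + t ^ 2) + 572 * r ^ 2 * (1 + t + t ^ 2 + t ^ 3)) + 2 * (-188 * (1 + t + t ^ 2 + t ^ 3) + 307 * r * (1 + t + t ^ 2 + t ^ 3 + t ^ 4)) := by
  have hx : 0 ≤ r - (-5 / 16) := by linarith
  have hy : 0 ≤ (-1 / 8) - r := by linarith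
  have hz : 0 ≤ 1 - t := by linarith
  have key : 0 ≤ (3622232 / 27) * ((r - (-5 / 16)) ^ 0 * ((-1 / 8) - r) ^ 3 * (t ^ 0 * (1 - t) ^ 4)) +
      (18111160 / 27) * ((r - (-5 / 16)) ^ 0 * ((-1 / 8) - r) ^ 3 * (t ^ 1 * (1 - t) ^ 3)) +
      1055056 * ((r - (-5 / 16)) ^ 0 * ((-1 / 8) - r) ^ 3 * (t ^ 2 * (1 - t) ^ 2)) +
      (15631856 / 27) * ((r - (-5 / 16)) ^ 0 * ((-1 / 8) - r) ^ 3 * (t ^ 3 * (1 - t) ^ 1)) +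
      (282784 / 9) * ((r - (-5 / 16)) ^ 0 * ((-1 / 8) - r) ^ 3 * (t ^ 4 * (1 - t) ^ 0)) +
      (1255312 / 3) * ((r - (-5 / 16)) ^ 1 * ((-1 / 8) - r) ^ 2 * (t ^ 0 * (1 - t) ^ 4)) +
      (6276560 / 3) * ((r - (-5 / 16)) ^ 1 * ((-1 / 8) - r) ^ 2 * (t ^ 1 * (1 - t) ^ 3)) +
      (30190304 / 9) * ((r - (-5 / 16)) ^ 1 * ((-1 / 8) - r) ^ 2 * (t ^ 2 * (1 - t) ^ 2)) +
      1917280 * ((r - (-5 / 16)) ^ 1 * ((-1 / 8) - r) ^ 2 * (t ^ 3 * (1 - t) ^ 1)) +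
      (1500224 / 9) * ((r - (-5 / 16)) ^ 1 * ((-1 / 8) - r) ^ 2 * (t ^ 4 * (1 - t) ^ 0)) +
      (3989344 / 9) * ((r - (-5 / 16)) ^ 2 * ((-1 / 8) - r) ^ 1 * (t ^ 0 * (1 - t) ^ 4)) +
      (19946720 / 9) * ((r - (-5 / 16)) ^ 2 * ((-1 / 8) - r) ^ 1 * (t ^ 1 * (1 - t) ^ 3)) +
      (32691136 / 9) * ((r - (-5 / 16)) ^ 2 * ((-1 / 8) - r) ^ 1 * (t ^ 2 * (1 - t) ^ 2)) +
      (19730368 / 9) * ((r - (-5 / 16)) ^ 2 * ((-1 / 8) - r) ^ 1 * (t ^ 3 * (1 - t) ^ 1)) +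
      (2525056 / 9) * ((r - (-5 / 16)) ^ 2 * ((-1 / 8) - r) ^ 1 * (t ^ 4 * (1 - t) ^ 0)) +
      (4261568 / 27) * ((r - (-5 / 16)) ^ 3 * ((-1 / 8) - r) ^ 0 * (t ^ 0 * (1 - t) ^ 4)) +
      (21307840 / 27) * ((r - (-5 / 16)) ^ 3 * ((-1 / 8) - r) ^ 0 * (t ^ 1 * (1 - t) ^ 3)) +
      (11893376 / 9) * ((r - (-5 / 16)) ^ 3 * ((-1 / 8) - r) ^ 0 * (t ^ 2 * (1 - t) ^ 2)) +
      (22747520 / 27) * ((r - (-5 / 16)) ^ 3 * ((-1 / 8) - r) ^ 0 * (t ^ 3 * (1 - t) ^ 1)) +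
      (422144 / 3) * ((r - (-5 / 16)) ^ 3 * ((-1 / 8) - r) ^ 0 * (t ^ 4 * (1 - t) ^ 0)) := by positivity
  have e : (3 - 2 * r) * (521 * (1 + t) + 564 * r * (1 + t + t ^ 2) + 572 * r ^ 2 * (1 + t + t ^ 2 + t ^ 3)) + 2 * (-188 * (1 + t + t ^ 2 + t ^ 3) + 307 * r * (1 + t + t ^ 2 + t ^ 3 + t ^ 4)) = (3622232 / 27) * ((r - (-5 / 16)) ^ 0 * ((-1 / 8) - r) ^ 3 * (t ^ 0 * (1 - t) ^ 4)) +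
      (18111160 / 27) * ((r - (-5 / 16)) ^ 0 * ((-1 / 8) - r) ^ 3 * (t ^ 1 * (1 - t) ^ 3)) +
      1055056 * ((r - (-5 / 16)) ^ 0 * ((-1 / 8) - r) ^ 3 * (t ^ 2 * (1 - t) ^ 2)) +
      (15631856 / 27) * ((r - (-5 / 16)) ^ 0 * ((-1 / 8) - r) ^ 3 * (t ^ 3 * (1 - t) ^ 1)) +
      (282784 / 9) * ((r - (-5 / 16)) ^ 0 * ((-1 / 8) - r) ^ 3 * (t ^ 4 * (1 - t) ^ 0)) +
      (1255312 / 3) * ((r - (-5 / 16)) ^ 1 * ((-1 / 8) - r) ^ 2 * (t ^ 0 * (1 - t) ^ 4)) +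
      (6276560 / 3) * ((r - (-5 / 16)) ^ 1 * ((-1 / 8) - r) ^ 2 * (t ^ 1 * (1 - t) ^ 3)) +
      (30190304 / 9) * ((r - (-5 / 16)) ^ 1 * ((-1 / 8) - r) ^ 2 * (t ^ 2 * (1 - t) ^ 2)) +
      1917280 * ((r - (-5 / 16)) ^ 1 * ((-1 / 8) - r) ^ 2 * (t ^ 3 * (1 - t) ^ 1)) +
      (1500224 / 9) * ((r - (-5 / 16)) ^ 1 * ((-1 / 8) - r) ^ 2 * (t ^ 4 * (1 - t) ^ 0)) +
      (3989344 / 9) * ((r - (-5 / 16)) ^ 2 * ((-1 / 8) - r) ^ 1 * (t ^ 0 * (1 - t) ^ 4)) +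
      (19946720 / 9) * ((r - (-5 / 16)) ^ 2 * ((-1 / 8) - r) ^ 1 * (t ^ 1 * (1 - t) ^ 3)) +
      (32691136 / 9) * ((r - (-5 / 16)) ^ 2 * ((-1 / 8) - r) ^ 1 * (t ^ 2 * (1 - t) ^ 2)) +
      (19730368 / 9) * ((r - (-5 / 16)) ^ 2 * ((-1 / 8) - r) ^ 1 * (t ^ 3 * (1 - t) ^ 1)) +
      (2525056 / 9) * ((r - (-5 / 16)) ^ 2 * ((-1 / 8) - r) ^ 1 * (t ^ 4 * (1 - t) ^ 0)) +
      (4261568 / 27) * ((r - (-5 / 16)) ^ 3 * ((-1 / 8) - r) ^ 0 * (t ^ 0 * (1 - t) ^ 4)) +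
      (21307840 / 27) * ((r - (-5 / 16)) ^ 3 * ((-1 / 8) - r) ^ 0 * (t ^ 1 * (1 - t) ^ 3)) +
      (11893376 / 9) * ((r - (-5 / 16)) ^ 3 * ((-1 / 8) - r) ^ 0 * (t ^ 2 * (1 - t) ^ 2)) +
      (22747520 / 27) * ((r - (-5 / 16)) ^ 3 * ((-1 / 8) - r) ^ 0 * (t ^ 3 * (1 - t) ^ 1)) +
      (422144 / 3) * ((r - (-5 / 16)) ^ 3 * ((-1 / 8) - r) ^ 0 * (t ^ 4 * (1 - t) ^ 0)) := by ring
  rw [e]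
  exact key

theorem e2_3 (r t : ℝ) (ha : (-1 / 8) ≤ r) (hb : r ≤ (1 / 4)) (h0 : 0 ≤ t) (h1 : t ≤ 1) :
    0 ≤ (3 - 2 * r) * (521 * (1 + t) + 564 * r * (1 + t + t ^ 2) + 572 * r ^ 2 * (1 + t + t ^ 2 + t ^ 3)) + 2 * (-188 * (1 + t + t ^ 2 + t ^ 3) + 307 * r * (1 + t + t ^ 2 + t ^ 3 + t ^ 4)) := by
  have hx : 0 ≤ r - (-1 / 8) := by linarith
  have hy : 0 ≤ (1 / 4) - r := by linarith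
  have hz : 0 ≤ 1 - t := by linarith
  have key : 0 ≤ (532696 / 27) * ((r - (-1 / 8)) ^ 0 * ((1 / 4) - r) ^ 3 * (t ^ 0 * (1 - t) ^ 4)) +
      (2663480 / 27) * ((r - (-1 / 8)) ^ 0 * ((1 / 4) - r) ^ 3 * (t ^ 1 * (1 - t) ^ 3)) +
      (1486672 / 9) * ((r - (-1 / 8)) ^ 0 * ((1 / 4) - r) ^ 3 * (t ^ 2 * (1 - t) ^ 2)) +
      (2843440 / 27) * ((r - (-1 / 8)) ^ 0 * ((1 / 4) - r) ^ 3 * (t ^ 3 * (1 - t) ^ 1)) +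
      (52768 / 3) * ((r - (-1 / 8)) ^ 0 * ((1 / 4) - r) ^ 3 * (t ^ 4 * (1 - t) ^ 0)) +
      (600752 / 9) * ((r - (-1 / 8)) ^ 1 * ((1 / 4) - r) ^ 2 * (t ^ 0 * (1 - t) ^ 4)) +
      (3003760 / 9) * ((r - (-1 / 8)) ^ 1 * ((1 / 4) - r) ^ 2 * (t ^ 1 * (1 - t) ^ 3)) +
      (5207264 / 9) * ((r - (-1 / 8)) ^ 1 * ((1 / 4) - r) ^ 2 * (t ^ 2 * (1 - t) ^ 2)) +
      (3597728 / 9) * ((r - (-1 / 8)) ^ 1 * ((1 / 4) - r) ^ 2 * (t ^ 3 * (1 - t) ^ 1)) +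
      (793472 / 9) * ((r - (-1 / 8)) ^ 1 * ((1 / 4) - r) ^ 2 * (t ^ 4 * (1 - t) ^ 0)) +
      77024 * ((r - (-1 / 8)) ^ 2 * ((1 / 4) - r) ^ 1 * (t ^ 0 * (1 - t) ^ 4)) +
      385120 * ((r - (-1 / 8)) ^ 2 * ((1 / 4) - r) ^ 1 * (t ^ 1 * (1 - t) ^ 3)) +
      (6198592 / 9) * ((r - (-1 / 8)) ^ 2 * ((1 / 4) - r) ^ 1 * (t ^ 2 * (1 - t) ^ 2)) +
      (1541056 / 3) * ((r - (-1 / 8)) ^ 2 * ((1 / 4) - r) ^ 1 * (t ^ 3 * (1 - t) ^ 1)) +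
      (1236736 / 9) * ((r - (-1 / 8)) ^ 2 * ((1 / 4) - r) ^ 1 * (t ^ 4 * (1 - t) ^ 0)) +
      (779200 / 27) * ((r - (-1 / 8)) ^ 3 * ((1 / 4) - r) ^ 0 * (t ^ 0 * (1 - t) ^ 4)) +
      (3896000 / 27) * ((r - (-1 / 8)) ^ 3 * ((1 / 4) - r) ^ 0 * (t ^ 1 * (1 - t) ^ 3)) +
      (791680 / 3) * ((r - (-1 / 8)) ^ 3 * ((1 / 4) - r) ^ 0 * (t ^ 2 * (1 - t) ^ 2)) +
      (5610880 / 27) * ((r - (-1 / 8)) ^ 3 * ((1 / 4) - r) ^ 0 * (t ^ 3 * (1 - t) ^ 1)) +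
      (560384 / 9) * ((r - (-1 / 8)) ^ 3 * ((1 / 4) - r) ^ 0 * (t ^ 4 * (1 - t) ^ 0)) := by positivity
  have e : (3 - 2 * r) * (521 * (1 + t) + 564 * r * (1 + t + t ^ 2) + 572 * r ^ 2 * (1 + t + t ^ 2 + t ^ 3)) + 2 * (-188 * (1 + t + t ^ 2 + t ^ 3) + 307 * r * (1 + t + t ^ 2 + t ^ 3 + t ^ 4)) = (532696 / 27) * ((r - (-1 / 8)) ^ 0 * ((1 / 4) - r) ^ 3 * (t ^ 0 * (1 - t) ^ 4)) +
      (2663480 / 27) * ((r - (-1 / 8)) ^ 0 * ((1 / 4) - r) ^ 3 * (t ^ 1 * (1 - t) ^ 3)) +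
      (1486672 / 9) * ((r - (-1 / 8)) ^ 0 * ((1 / 4) - r) ^ 3 * (t ^ 2 * (1 - t) ^ 2)) +
      (2843440 / 27) * ((r - (-1 / 8)) ^ 0 * ((1 / 4) - r) ^ 3 * (t ^ 3 * (1 - t) ^ 1)) +
      (52768 / 3) * ((r - (-1 / 8)) ^ 0 * ((1 / 4) - r) ^ 3 * (t ^ 4 * (1 - t) ^ 0)) +
      (600752 / 9) * ((r - (-1 / 8)) ^ 1 * ((1 / 4) - r) ^ 2 * (t ^ 0 * (1 - t) ^ 4)) +
      (3003760 / 9) * ((r - (-1 / 8)) ^ 1 * ((1 / 4) - r) ^ 2 * (t ^ 1 * (1 - t) ^ 3)) +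
      (5207264 / 9) * ((r - (-1 / 8)) ^ 1 * ((1 / 4) - r) ^ 2 * (t ^ 2 * (1 - t) ^ 2)) +
      (3597728 / 9) * ((r - (-1 / 8)) ^ 1 * ((1 / 4) - r) ^ 2 * (t ^ 3 * (1 - t) ^ 1)) +
      (793472 / 9) * ((r - (-1 / 8)) ^ 1 * ((1 / 4) - r) ^ 2 * (t ^ 4 * (1 - t) ^ 0)) +
      77024 * ((r - (-1 / 8)) ^ 2 * ((1 / 4) - r) ^ 1 * (t ^ 0 * (1 - t) ^ 4)) +
      385120 * ((r - (-1 / 8)) ^ 2 * ((1 / 4) - r) ^ 1 * (t ^ 1 * (1 - t) ^ 3)) +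
      (6198592 / 9) * ((r - (-1 / 8)) ^ 2 * ((1 / 4) - r) ^ 1 * (t ^ 2 * (1 - t) ^ 2)) +
      (1541056 / 3) * ((r - (-1 / 8)) ^ 2 * ((1 / 4) - r) ^ 1 * (t ^ 3 * (1 - t) ^ 1)) +
      (1236736 / 9) * ((r - (-1 / 8)) ^ 2 * ((1 / 4) - r) ^ 1 * (t ^ 4 * (1 - t) ^ 0)) +
      (779200 / 27) * ((r - (-1 / 8)) ^ 3 * ((1 / 4) - r) ^ 0 * (t ^ 0 * (1 - t) ^ 4)) +
      (3896000 / 27) * ((r - (-1 / 8)) ^ 3 * ((1 / 4) - r) ^ 0 * (t ^ 1 * (1 - t) ^ 3)) +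
      (791680 / 3) * ((r - (-1 / 8)) ^ 3 * ((1 / 4) - r) ^ 0 * (t ^ 2 * (1 - t) ^ 2)) +
      (5610880 / 27) * ((r - (-1 / 8)) ^ 3 * ((1 / 4) - r) ^ 0 * (t ^ 3 * (1 - t) ^ 1)) +
      (560384 / 9) * ((r - (-1 / 8)) ^ 3 * ((1 / 4) - r) ^ 0 * (t ^ 4 * (1 - t) ^ 0)) := by ring
  rw [e]
  exact key

theorem e2_4 (r t : ℝ) (ha : (1 / 4) ≤ r) (hb : r ≤ 1) (h0 : 0 ≤ t) (h1 : t ≤ 1) :
    0 ≤ (3 - 2 * r) * (521 * (1 + t) + 564 * r * (1 + t + t ^ 2) + 572 * r ^ 2 * (1 + t + t ^ 2 + t ^ 3)) + 2 * (-188 * (1 + t + t ^ 2 + t ^ 3) + 307 * r * (1 + t + t ^ 2 + t ^ 3 + t ^ 4)) := by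
  have hx : 0 ≤ r - (1 / 4) := by linarith
  have hy : 0 ≤ 1 - r := by linarith
  have hz : 0 ≤ 1 - t := by linarith
  have key : 0 ≤ (97400 / 27) * ((r - (1 / 4)) ^ 0 * (1 - r) ^ 3 * (t ^ 0 * (1 - t) ^ 4)) +
      (487000 / 27) * ((r - (1 / 4)) ^ 0 * (1 - r) ^ 3 * (t ^ 1 * (1 - t) ^ 3)) +
      (98960 / 3) * ((r - (1 / 4)) ^ 0 * (1 - r) ^ 3 * (t ^ 2 * (1 - t) ^ 2)) +
      (701360 / 27) * ((r - (1 / 4)) ^ 0 * (1 - r) ^ 3 * (t ^ 3 * (1 - t) ^ 1)) +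
      (70048 / 9) * ((r - (1 / 4)) ^ 0 * (1 - r) ^ 3 * (t ^ 4 * (1 - t) ^ 0)) +
      (39632 / 3) * ((r - (1 / 4)) ^ 1 * (1 - r) ^ 2 * (t ^ 0 * (1 - t) ^ 4)) +
      (198160 / 3) * ((r - (1 / 4)) ^ 1 * (1 - r) ^ 2 * (t ^ 1 * (1 - t) ^ 3)) +
      (1122272 / 9) * ((r - (1 / 4)) ^ 1 * (1 - r) ^ 2 * (t ^ 2 * (1 - t) ^ 2)) +
      (316096 / 3) * ((r - (1 / 4)) ^ 1 * (1 - r) ^ 2 * (t ^ 3 * (1 - t) ^ 1)) +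
      (321248 / 9) * ((r - (1 / 4)) ^ 1 * (1 - r) ^ 2 * (t ^ 4 * (1 - t) ^ 0)) +
      (137152 / 9) * ((r - (1 / 4)) ^ 2 * (1 - r) ^ 1 * (t ^ 0 * (1 - t) ^ 4)) +
      (685760 / 9) * ((r - (1 / 4)) ^ 2 * (1 - r) ^ 1 * (t ^ 1 * (1 - t) ^ 3)) +
      (1321504 / 9) * ((r - (1 / 4)) ^ 2 * (1 - r) ^ 1 * (t ^ 2 * (1 - t) ^ 2)) +
      (1176352 / 9) * ((r - (1 / 4)) ^ 2 * (1 - r) ^ 1 * (t ^ 3 * (1 - t) ^ 1)) +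
      (432928 / 9) * ((r - (1 / 4)) ^ 2 * (1 - r) ^ 1 * (t ^ 4 * (1 - t) ^ 0)) +
      (121280 / 27) * ((r - (1 / 4)) ^ 3 * (1 - r) ^ 0 * (t ^ 0 * (1 - t) ^ 4)) +
      (606400 / 27) * ((r - (1 / 4)) ^ 3 * (1 - r) ^ 0 * (t ^ 1 * (1 - t) ^ 3)) +
      (393152 / 9) * ((r - (1 / 4)) ^ 3 * (1 - r) ^ 0 * (t ^ 2 * (1 - t) ^ 2)) +
      (1076672 / 27) * ((r - (1 / 4)) ^ 3 * (1 - r) ^ 0 * (t ^ 3 * (1 - t) ^ 1)) +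
      15616 * ((r - (1 / 4)) ^ 3 * (1 - r) ^ 0 * (t ^ 4 * (1 - t) ^ 0)) := by positivity
  have e : (3 - 2 * r) * (521 * (1 + t) + 564 * r * (1 + t + t ^ 2) + 572 * r ^ 2 * (1 + t + t ^ 2 + t ^ 3)) + 2 * (-188 * (1 + t + t ^ 2 + t ^ 3) + 307 * r * (1 + t + t ^ 2 + t ^ 3 + t ^ 4)) = (97400 / 27) * ((r - (1 / 4)) ^ 0 * (1 - r) ^ 3 * (t ^ 0 * (1 - t) ^ 4)) +
      (487000 / 27) * ((r - (1 / 4)) ^ 0 * (1 - r) ^ 3 * (t ^ 1 * (1 - t) ^ 3)) +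
      (98960 / 3) * ((r - (1 / 4)) ^ 0 * (1 - r) ^ 3 * (t ^ 2 * (1 - t) ^ 2)) +
      (701360 / 27) * ((r - (1 / 4)) ^ 0 * (1 - r) ^ 3 * (t ^ 3 * (1 - t) ^ 1)) +
      (70048 / 9) * ((r - (1 / 4)) ^ 0 * (1 - r) ^ 3 * (t ^ 4 * (1 - t) ^ 0)) +
      (39632 / 3) * ((r - (1 / 4)) ^ 1 * (1 - r) ^ 2 * (t ^ 0 * (1 - t) ^ 4)) +
      (198160 / 3) * ((r - (1 / 4)) ^ 1 * (1 - r) ^ 2 * (t ^ 1 * (1 - t) ^ 3)) +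
      (1122272 / 9) * ((r - (1 / 4)) ^ 1 * (1 - r) ^ 2 * (t ^ 2 * (1 - t) ^ 2)) +
      (316096 / 3) * ((r - (1 / 4)) ^ 1 * (1 - r) ^ 2 * (t ^ 3 * (1 - t) ^ 1)) +
      (321248 / 9) * ((r - (1 / 4)) ^ 1 * (1 - r) ^ 2 * (t ^ 4 * (1 - t) ^ 0)) +
      (137152 / 9) * ((r - (1 / 4)) ^ 2 * (1 - r) ^ 1 * (t ^ 0 * (1 - t) ^ 4)) +
      (685760 / 9) * ((r - (1 / 4)) ^ 2 * (1 - r) ^ 1 * (t ^ 1 * (1 - t) ^ 3)) +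
      (1321504 / 9) * ((r - (1 / 4)) ^ 2 * (1 - r) ^ 1 * (t ^ 2 * (1 - t) ^ 2)) +
      (1176352 / 9) * ((r - (1 / 4)) ^ 2 * (1 - r) ^ 1 * (t ^ 3 * (1 - t) ^ 1)) +
      (432928 / 9) * ((r - (1 / 4)) ^ 2 * (1 - r) ^ 1 * (t ^ 4 * (1 - t) ^ 0)) +
      (121280 / 27) * ((r - (1 / 4)) ^ 3 * (1 - r) ^ 0 * (t ^ 0 * (1 - t) ^ 4)) +
      (606400 / 27) * ((r - (1 / 4)) ^ 3 * (1 - r) ^ 0 * (t ^ 1 * (1 - t) ^ 3)) +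
      (393152 / 9) * ((r - (1 / 4)) ^ 3 * (1 - r) ^ 0 * (t ^ 2 * (1 - t) ^ 2)) +
      (1076672 / 27) * ((r - (1 / 4)) ^ 3 * (1 - r) ^ 0 * (t ^ 3 * (1 - t) ^ 1)) +
      15616 * ((r - (1 / 4)) ^ 3 * (1 - r) ^ 0 * (t ^ 4 * (1 - t) ^ 0)) := by ring
  rw [e]
  exact key

theorem e2 (r t : ℝ) (ha : (-1 / 2) ≤ r) (hb : r ≤ 1) (h0 : 0 ≤ t) (h1 : t ≤ 1) :
    0 ≤ (3 - 2 * r) * (521 * (1 + t) + 564 * r * (1 + t + t ^ 2) + 572 * r ^ 2 * (1 + t + t ^ 2 + t ^ 3)) + 2 * (-188 * (1 + t + t ^ 2 + t ^ 3) + 307 * r * (1 + t + t ^ 2 + t ^ 3 + t ^ 4)) := by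
  rcases le_total r (-13 / 32) with h | h
  · exact e2_0 r t (by linarith) (by linarith) h0 h1
  rcases le_total r (-5 / 16) with h | h
  · exact e2_1 r t (by linarith) (by linarith) h0 h1
  rcases le_total r (-1 / 8) with h | h
  · exact e2_2 r t (by linarith) (by linarith) h0 h1
  rcases le_total r (1 / 4) with h | h
  · exact e2_3 r t (by linarith) (by linarith) h0 h1
  exact e2_4 r t (by linarith) (by linarith) h0 h1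


theorem ctr : Ctr F5 := by
  intro b hb t h0 h1
  unfold F5
  rw [u_en, w_en]
  rcases (u_nonneg b).eq_or_lt with hu | hu
  · have hw := w_sq hb
    rw [← hu] at hw
    have hw0 : wFn b = 0 := by nlinarith [sq_nonneg (wFn b)]
    rw [← hu, hw0]
    norm_num
  · obtain ⟨r, hr, ha, hb1, hc, hd⟩ := slope hb hu
    rw [hr]
    set u := uFn 3 b
    have k1 := core (521 * (1 + t) + 564 * r * (1 + t + t ^ 2) + 572 * r ^ 2 * (1 + t + t ^ 2 + t ^ 3)) (-188 * (1 + t + t ^ 2 + t ^ 3) + 307 * r * (1 + t + t ^ 2 + t ^ 3 + t ^ 4)) r u hc hd hb1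
      (e1 r t ha hb1 h0 h1) (e2 r t ha hb1 h0 h1)
    have k2 : 0 ≤ (521 * (1 + t) + 564 * r * (1 + t + t ^ 2) + 572 * r ^ 2 * (1 + t + t ^ 2 + t ^ 3)) + u * (-188 * (1 + t + t ^ 2 + t ^ 3) + 307 * r * (1 + t + t ^ 2 + t ^ 3 + t ^ 4)) + 0 := by
      have : 0 ≤ 0 := by positivity
      linarith
    have k3 : 0 ≤ (1 - t) * (t ^ 2 * u ^ 2) * ((521 * (1 + t) + 564 * r * (1 + t + t ^ 2) + 572 * r ^ 2 * (1 + t + t ^ 2 + t ^ 3)) + u * (-188 * (1 + t + t ^ 2 + t ^ 3) + 307 * r * (1 + t + t ^ 2 + t ^ 3 + t ^ 4)) + 0) :=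
      mul_nonneg (mul_nonneg (by linarith) (by positivity)) k2
    nlinarith [k3]

theorem rng : Rng F5 ((69 / 125) / (-17 / 38) ^ 2) := by
  refine ⟨⟨1 / 2, by norm_num, ?_⟩, ?_⟩
  · intro b hb
    rcases (u_nonneg b).eq_or_lt with hu | hu
    · have hw := w_sq hb
      rw [← hu] at hw
      have hw0 : wFn b = 0 := by nlinarith [sq_nonneg (wFn b)]
      unfold F5
      rw [← hu, hw0]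
      norm_num
    · obtain ⟨r, hr, ha, hb1, hc, hd⟩ := slope hb hu
      have h2 := u_le hb
      unfold F5
      rw [hr]
      set u := uFn 3 b
      have key : 0 ≤ 1 / 2 + 521 / 10000 * u + 564 / 10000 * (r * u) - 188 / 10000 * u ^ 2 +
          572 / 10000 * (r ^ 2 * u) + 307 / 10000 * (r * u ^ 2) := by
        have q1 : -(u / 2) ≤ r * u := by nlinarith
        have q2 : 0 ≤ r ^ 2 * u := by positivity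
        have q3 : -(u ^ 2 / 2) ≤ r * u ^ 2 := by nlinarith
        nlinarith
      nlinarith [mul_nonneg hu.le key]
  · intro b hb
    have hu := u_nonneg b
    have h2 := u_le hb
    have h3 := w_sq hb
    unfold F5
    set u := uFn 3 b
    set w := wFn b
    have hw1 : w ^ 2 ≤ u ^ 2 := by nlinarith [mul_nonneg (sq_nonneg u) (sub_nonneg.2 h2)]
    have hw : w ≤ u := abs_le_of_sq_le_sq' hw1 hu |>.2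
    have q1 : u * w ≤ u ^ 2 := by nlinarith
    have q2 : u ^ 2 * w ≤ u ^ 3 := by nlinarith [mul_nonneg (sq_nonneg u) (sub_nonneg.2 hw)]
    have q3 : u ^ 2 ≤ 4 := by nlinarith
    have q4 : u ^ 3 ≤ 8 := by nlinarith
    nlinarith

end Vale.Agent.P154.AF.CTR5

namespace Vale.Agent.P154.AF

theorem ctr5 : StmtCtr5 := ⟨CTR5.ctr, CTR5.rng⟩

end Vale.Agent.P154.AF
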