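import Vale.Agent.P154AF.CtrLib

/-! Contraction and range of the potential `FP`. -/

namespace Vale.Agent.P154.AF.CTRP

open CtrLib

theorem e1_0 (r t : ℝ) (ha : (-1 / 2) ≤ r) (hb : r ≤ (1 / 4)) (h0 : 0 ≤ t) (h1 : t ≤ 1) :
    0 ≤ (243 * (1 + t) + 595 * r * (1 + t + t ^ 2) + 855 * r ^ 2 * (1 + t + t ^ 2 + t ^ 3)) + 2 * r ^ 2 * (55 * (1 + t + t ^ 2 + t ^ 3) + 129 * r * (1 + t + t ^ 2 + t ^ 3 + t ^ 4)) := by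
  have hx : 0 ≤ r - (-1 / 2) := by linarith
  have hy : 0 ≤ (1 / 4) - r := by linarith
  have hz : 0 ≤ 1 - t := by linarith
  have key : 0 ≤ (3296 / 9) * ((r - (-1 / 2)) ^ 0 * ((1 / 4) - r) ^ 3 * (t ^ 0 * (1 - t) ^ 4)) +
      (16480 / 9) * ((r - (-1 / 2)) ^ 0 * ((1 / 4) - r) ^ 3 * (t ^ 1 * (1 - t) ^ 3)) +
      (27776 / 9) * ((r - (-1 / 2)) ^ 0 * ((1 / 4) - r) ^ 3 * (t ^ 2 * (1 - t) ^ 2)) +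
      (71264 / 27) * ((r - (-1 / 2)) ^ 0 * ((1 / 4) - r) ^ 3 * (t ^ 3 * (1 - t) ^ 1)) +
      (25424 / 27) * ((r - (-1 / 2)) ^ 0 * ((1 / 4) - r) ^ 3 * (t ^ 4 * (1 - t) ^ 0)) +
      (7064 / 9) * ((r - (-1 / 2)) ^ 1 * ((1 / 4) - r) ^ 2 * (t ^ 0 * (1 - t) ^ 4)) +
      (35320 / 9) * ((r - (-1 / 2)) ^ 1 * ((1 / 4) - r) ^ 2 * (t ^ 1 * (1 - t) ^ 3)) +
      (55088 / 9) * ((r - (-1 / 2)) ^ 1 * ((1 / 4) - r) ^ 2 * (t ^ 2 * (1 - t) ^ 2)) +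
      (11168 / 3) * ((r - (-1 / 2)) ^ 1 * ((1 / 4) - r) ^ 2 * (t ^ 3 * (1 - t) ^ 1)) +
      856 * ((r - (-1 / 2)) ^ 1 * ((1 / 4) - r) ^ 2 * (t ^ 4 * (1 - t) ^ 0)) +
      (11176 / 9) * ((r - (-1 / 2)) ^ 2 * ((1 / 4) - r) ^ 1 * (t ^ 0 * (1 - t) ^ 4)) +
      (55880 / 9) * ((r - (-1 / 2)) ^ 2 * ((1 / 4) - r) ^ 1 * (t ^ 1 * (1 - t) ^ 3)) +
      (96208 / 9) * ((r - (-1 / 2)) ^ 2 * ((1 / 4) - r) ^ 1 * (t ^ 2 * (1 - t) ^ 2)) +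
      (65104 / 9) * ((r - (-1 / 2)) ^ 2 * ((1 / 4) - r) ^ 1 * (t ^ 3 * (1 - t) ^ 1)) +
      (13084 / 9) * ((r - (-1 / 2)) ^ 2 * ((1 / 4) - r) ^ 1 * (t ^ 4 * (1 - t) ^ 0)) +
      (9730 / 9) * ((r - (-1 / 2)) ^ 3 * ((1 / 4) - r) ^ 0 * (t ^ 0 * (1 - t) ^ 4)) +
      (48650 / 9) * ((r - (-1 / 2)) ^ 3 * ((1 / 4) - r) ^ 0 * (t ^ 1 * (1 - t) ^ 3)) +
      (92116 / 9) * ((r - (-1 / 2)) ^ 3 * ((1 / 4) - r) ^ 0 * (t ^ 2 * (1 - t) ^ 2)) +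
      (235724 / 27) * ((r - (-1 / 2)) ^ 3 * ((1 / 4) - r) ^ 0 * (t ^ 3 * (1 - t) ^ 1)) +
      (76394 / 27) * ((r - (-1 / 2)) ^ 3 * ((1 / 4) - r) ^ 0 * (t ^ 4 * (1 - t) ^ 0)) := by positivity
  have e : (243 * (1 + t) + 595 * r * (1 + t + t ^ 2) + 855 * r ^ 2 * (1 + t + t ^ 2 + t ^ 3)) + 2 * r ^ 2 * (55 * (1 + t + t ^ 2 + t ^ 3) + 129 * r * (1 + t + t ^ 2 + t ^ 3 + t ^ 4)) = (3296 / 9) * ((r - (-1 / 2)) ^ 0 * ((1 / 4) - r) ^ 3 * (t ^ 0 * (1 - t) ^ 4)) +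
      (16480 / 9) * ((r - (-1 / 2)) ^ 0 * ((1 / 4) - r) ^ 3 * (t ^ 1 * (1 - t) ^ 3)) +
      (27776 / 9) * ((r - (-1 / 2)) ^ 0 * ((1 / 4) - r) ^ 3 * (t ^ 2 * (1 - t) ^ 2)) +
      (71264 / 27) * ((r - (-1 / 2)) ^ 0 * ((1 / 4) - r) ^ 3 * (t ^ 3 * (1 - t) ^ 1)) +
      (25424 / 27) * ((r - (-1 / 2)) ^ 0 * ((1 / 4) - r) ^ 3 * (t ^ 4 * (1 - t) ^ 0)) +
      (7064 / 9) * ((r - (-1 / 2)) ^ 1 * ((1 / 4) - r) ^ 2 * (t ^ 0 * (1 - t) ^ 4)) +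
      (35320 / 9) * ((r - (-1 / 2)) ^ 1 * ((1 / 4) - r) ^ 2 * (t ^ 1 * (1 - t) ^ 3)) +
      (55088 / 9) * ((r - (-1 / 2)) ^ 1 * ((1 / 4) - r) ^ 2 * (t ^ 2 * (1 - t) ^ 2)) +
      (11168 / 3) * ((r - (-1 / 2)) ^ 1 * ((1 / 4) - r) ^ 2 * (t ^ 3 * (1 - t) ^ 1)) +
      856 * ((r - (-1 / 2)) ^ 1 * ((1 / 4) - r) ^ 2 * (t ^ 4 * (1 - t) ^ 0)) +
      (11176 / 9) * ((r - (-1 / 2)) ^ 2 * ((1 / 4) - r) ^ 1 * (t ^ 0 * (1 - t) ^ 4)) +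
      (55880 / 9) * ((r - (-1 / 2)) ^ 2 * ((1 / 4) - r) ^ 1 * (t ^ 1 * (1 - t) ^ 3)) +
      (96208 / 9) * ((r - (-1 / 2)) ^ 2 * ((1 / 4) - r) ^ 1 * (t ^ 2 * (1 - t) ^ 2)) +
      (65104 / 9) * ((r - (-1 / 2)) ^ 2 * ((1 / 4) - r) ^ 1 * (t ^ 3 * (1 - t) ^ 1)) +
      (13084 / 9) * ((r - (-1 / 2)) ^ 2 * ((1 / 4) - r) ^ 1 * (t ^ 4 * (1 - t) ^ 0)) +
      (9730 / 9) * ((r - (-1 / 2)) ^ 3 * ((1 / 4) - r) ^ 0 * (t ^ 0 * (1 - t) ^ 4)) +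
      (48650 / 9) * ((r - (-1 / 2)) ^ 3 * ((1 / 4) - r) ^ 0 * (t ^ 1 * (1 - t) ^ 3)) +
      (92116 / 9) * ((r - (-1 / 2)) ^ 3 * ((1 / 4) - r) ^ 0 * (t ^ 2 * (1 - t) ^ 2)) +
      (235724 / 27) * ((r - (-1 / 2)) ^ 3 * ((1 / 4) - r) ^ 0 * (t ^ 3 * (1 - t) ^ 1)) +
      (76394 / 27) * ((r - (-1 / 2)) ^ 3 * ((1 / 4) - r) ^ 0 * (t ^ 4 * (1 - t) ^ 0)) := by ring
  rw [e]
  exact key

theorem e1_1 (r t : ℝ) (ha : (1 / 4) ≤ r) (hb : r ≤ 1) (h0 : 0 ≤ t) (h1 : t ≤ 1) :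
    0 ≤ (243 * (1 + t) + 595 * r * (1 + t + t ^ 2) + 855 * r ^ 2 * (1 + t + t ^ 2 + t ^ 3)) + 2 * r ^ 2 * (55 * (1 + t + t ^ 2 + t ^ 3) + 129 * r * (1 + t + t ^ 2 + t ^ 3 + t ^ 4)) := by
  have hx : 0 ≤ r - (1 / 4) := by linarith
  have hy : 0 ≤ 1 - r := by linarith
  have hz : 0 ≤ 1 - t := by linarith
  have key : 0 ≤ (9730 / 9) * ((r - (1 / 4)) ^ 0 * (1 - r) ^ 3 * (t ^ 0 * (1 - t) ^ 4)) +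
      (48650 / 9) * ((r - (1 / 4)) ^ 0 * (1 - r) ^ 3 * (t ^ 1 * (1 - t) ^ 3)) +
      (92116 / 9) * ((r - (1 / 4)) ^ 0 * (1 - r) ^ 3 * (t ^ 2 * (1 - t) ^ 2)) +
      (235724 / 27) * ((r - (1 / 4)) ^ 0 * (1 - r) ^ 3 * (t ^ 3 * (1 - t) ^ 1)) +
      (76394 / 27) * ((r - (1 / 4)) ^ 0 * (1 - r) ^ 3 * (t ^ 4 * (1 - t) ^ 0)) +
      (47204 / 9) * ((r - (1 / 4)) ^ 1 * (1 - r) ^ 2 * (t ^ 0 * (1 - t) ^ 4)) +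
      (236020 / 9) * ((r - (1 / 4)) ^ 1 * (1 - r) ^ 2 * (t ^ 1 * (1 - t) ^ 3)) +
      (456488 / 9) * ((r - (1 / 4)) ^ 1 * (1 - r) ^ 2 * (t ^ 2 * (1 - t) ^ 2)) +
      (135448 / 3) * ((r - (1 / 4)) ^ 1 * (1 - r) ^ 2 * (t ^ 3 * (1 - t) ^ 1)) +
      (46568 / 3) * ((r - (1 / 4)) ^ 1 * (1 - r) ^ 2 * (t ^ 4 * (1 - t) ^ 0)) +
      (79120 / 9) * ((r - (1 / 4)) ^ 2 * (1 - r) ^ 1 * (t ^ 0 * (1 - t) ^ 4)) +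
      (395600 / 9) * ((r - (1 / 4)) ^ 2 * (1 - r) ^ 1 * (t ^ 1 * (1 - t) ^ 3)) +
      (775648 / 9) * ((r - (1 / 4)) ^ 2 * (1 - r) ^ 1 * (t ^ 2 * (1 - t) ^ 2)) +
      (715984 / 9) * ((r - (1 / 4)) ^ 2 * (1 - r) ^ 1 * (t ^ 3 * (1 - t) ^ 1)) +
      (260944 / 9) * ((r - (1 / 4)) ^ 2 * (1 - r) ^ 1 * (t ^ 4 * (1 - t) ^ 0)) +
      (14656 / 3) * ((r - (1 / 4)) ^ 3 * (1 - r) ^ 0 * (t ^ 0 * (1 - t) ^ 4)) +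
      (73280 / 3) * ((r - (1 / 4)) ^ 3 * (1 - r) ^ 0 * (t ^ 1 * (1 - t) ^ 3)) +
      (144832 / 3) * ((r - (1 / 4)) ^ 3 * (1 - r) ^ 0 * (t ^ 2 * (1 - t) ^ 2)) +
      (1234304 / 27) * ((r - (1 / 4)) ^ 3 * (1 - r) ^ 0 * (t ^ 3 * (1 - t) ^ 1)) +
      (474944 / 27) * ((r - (1 / 4)) ^ 3 * (1 - r) ^ 0 * (t ^ 4 * (1 - t) ^ 0)) := by positivity
  have e : (243 * (1 + t) + 595 * r * (1 + t + t ^ 2) + 855 * r ^ 2 * (1 + t + t ^ 2 + t ^ 3)) + 2 * r ^ 2 * (55 * (1 + t + t ^ 2 + t ^ 3) + 129 * r * (1 + t + t ^ 2 + t ^ 3 + t ^ 4)) = (9730 / 9) * ((r - (1 / 4)) ^ 0 * (1 - r) ^ 3 * (t ^ 0 * (1 - t) ^ 4)) +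
      (48650 / 9) * ((r - (1 / 4)) ^ 0 * (1 - r) ^ 3 * (t ^ 1 * (1 - t) ^ 3)) +
      (92116 / 9) * ((r - (1 / 4)) ^ 0 * (1 - r) ^ 3 * (t ^ 2 * (1 - t) ^ 2)) +
      (235724 / 27) * ((r - (1 / 4)) ^ 0 * (1 - r) ^ 3 * (t ^ 3 * (1 - t) ^ 1)) +
      (76394 / 27) * ((r - (1 / 4)) ^ 0 * (1 - r) ^ 3 * (t ^ 4 * (1 - t) ^ 0)) +
      (47204 / 9) * ((r - (1 / 4)) ^ 1 * (1 - r) ^ 2 * (t ^ 0 * (1 - t) ^ 4)) +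
      (236020 / 9) * ((r - (1 / 4)) ^ 1 * (1 - r) ^ 2 * (t ^ 1 * (1 - t) ^ 3)) +
      (456488 / 9) * ((r - (1 / 4)) ^ 1 * (1 - r) ^ 2 * (t ^ 2 * (1 - t) ^ 2)) +
      (135448 / 3) * ((r - (1 / 4)) ^ 1 * (1 - r) ^ 2 * (t ^ 3 * (1 - t) ^ 1)) +
      (46568 / 3) * ((r - (1 / 4)) ^ 1 * (1 - r) ^ 2 * (t ^ 4 * (1 - t) ^ 0)) +
      (79120 / 9) * ((r - (1 / 4)) ^ 2 * (1 - r) ^ 1 * (t ^ 0 * (1 - t) ^ 4)) +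
      (395600 / 9) * ((r - (1 / 4)) ^ 2 * (1 - r) ^ 1 * (t ^ 1 * (1 - t) ^ 3)) +
      (775648 / 9) * ((r - (1 / 4)) ^ 2 * (1 - r) ^ 1 * (t ^ 2 * (1 - t) ^ 2)) +
      (715984 / 9) * ((r - (1 / 4)) ^ 2 * (1 - r) ^ 1 * (t ^ 3 * (1 - t) ^ 1)) +
      (260944 / 9) * ((r - (1 / 4)) ^ 2 * (1 - r) ^ 1 * (t ^ 4 * (1 - t) ^ 0)) +
      (14656 / 3) * ((r - (1 / 4)) ^ 3 * (1 - r) ^ 0 * (t ^ 0 * (1 - t) ^ 4)) +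
      (73280 / 3) * ((r - (1 / 4)) ^ 3 * (1 - r) ^ 0 * (t ^ 1 * (1 - t) ^ 3)) +
      (144832 / 3) * ((r - (1 / 4)) ^ 3 * (1 - r) ^ 0 * (t ^ 2 * (1 - t) ^ 2)) +
      (1234304 / 27) * ((r - (1 / 4)) ^ 3 * (1 - r) ^ 0 * (t ^ 3 * (1 - t) ^ 1)) +
      (474944 / 27) * ((r - (1 / 4)) ^ 3 * (1 - r) ^ 0 * (t ^ 4 * (1 - t) ^ 0)) := by ring
  rw [e]
  exact key

theorem e1 (r t : ℝ) (ha : (-1 / 2) ≤ r) (hb : r ≤ 1) (h0 : 0 ≤ t) (h1 : t ≤ 1) :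
    0 ≤ (243 * (1 + t) + 595 * r * (1 + t + t ^ 2) + 855 * r ^ 2 * (1 + t + t ^ 2 + t ^ 3)) + 2 * r ^ 2 * (55 * (1 + t + t ^ 2 + t ^ 3) + 129 * r * (1 + t + t ^ 2 + t ^ 3 + t ^ 4)) := by
  rcases le_total r (1 / 4) with h | h
  · exact e1_0 r t (by linarith) (by linarith) h0 h1
  exact e1_1 r t (by linarith) (by linarith) h0 h1

theorem e2_0 (r t : ℝ) (ha : (-1 / 2) ≤ r) (hb : r ≤ (1 / 4)) (h0 : 0 ≤ t) (h1 : t ≤ 1) :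
    0 ≤ (3 - 2 * r) * (243 * (1 + t) + 595 * r * (1 + t + t ^ 2) + 855 * r ^ 2 * (1 + t + t ^ 2 + t ^ 3)) + 2 * (55 * (1 + t + t ^ 2 + t ^ 3) + 129 * r * (1 + t + t ^ 2 + t ^ 3 + t ^ 4)) := by
  have hx : 0 ≤ r - (-1 / 2) := by linarith
  have hy : 0 ≤ (1 / 4) - r := by linarith
  have hz : 0 ≤ 1 - t := by linarith
  have key : 0 ≤ (13184 / 9) * ((r - (-1 / 2)) ^ 0 * ((1 / 4) - r) ^ 3 * (t ^ 0 * (1 - t) ^ 4)) +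
      (65920 / 9) * ((r - (-1 / 2)) ^ 0 * ((1 / 4) - r) ^ 3 * (t ^ 1 * (1 - t) ^ 3)) +
      (111104 / 9) * ((r - (-1 / 2)) ^ 0 * ((1 / 4) - r) ^ 3 * (t ^ 2 * (1 - t) ^ 2)) +
      (285056 / 27) * ((r - (-1 / 2)) ^ 0 * ((1 / 4) - r) ^ 3 * (t ^ 3 * (1 - t) ^ 1)) +
      (101696 / 27) * ((r - (-1 / 2)) ^ 0 * ((1 / 4) - r) ^ 3 * (t ^ 4 * (1 - t) ^ 0)) +
      (21944 / 9) * ((r - (-1 / 2)) ^ 1 * ((1 / 4) - r) ^ 2 * (t ^ 0 * (1 - t) ^ 4)) +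
      (109720 / 9) * ((r - (-1 / 2)) ^ 1 * ((1 / 4) - r) ^ 2 * (t ^ 1 * (1 - t) ^ 3)) +
      (165008 / 9) * ((r - (-1 / 2)) ^ 1 * ((1 / 4) - r) ^ 2 * (t ^ 2 * (1 - t) ^ 2)) +
      (84704 / 9) * ((r - (-1 / 2)) ^ 1 * ((1 / 4) - r) ^ 2 * (t ^ 3 * (1 - t) ^ 1)) +
      (3344 / 9) * ((r - (-1 / 2)) ^ 1 * ((1 / 4) - r) ^ 2 * (t ^ 4 * (1 - t) ^ 0)) +
      (51616 / 9) * ((r - (-1 / 2)) ^ 2 * ((1 / 4) - r) ^ 1 * (t ^ 0 * (1 - t) ^ 4)) +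
      (258080 / 9) * ((r - (-1 / 2)) ^ 2 * ((1 / 4) - r) ^ 1 * (t ^ 1 * (1 - t) ^ 3)) +
      (469504 / 9) * ((r - (-1 / 2)) ^ 2 * ((1 / 4) - r) ^ 1 * (t ^ 2 * (1 - t) ^ 2)) +
      (371432 / 9) * ((r - (-1 / 2)) ^ 2 * ((1 / 4) - r) ^ 1 * (t ^ 3 * (1 - t) ^ 1)) +
      (108392 / 9) * ((r - (-1 / 2)) ^ 2 * ((1 / 4) - r) ^ 1 * (t ^ 4 * (1 - t) ^ 0)) +
      (27466 / 9) * ((r - (-1 / 2)) ^ 3 * ((1 / 4) - r) ^ 0 * (t ^ 0 * (1 - t) ^ 4)) +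
      (137330 / 9) * ((r - (-1 / 2)) ^ 3 * ((1 / 4) - r) ^ 0 * (t ^ 1 * (1 - t) ^ 3)) +
      (261700 / 9) * ((r - (-1 / 2)) ^ 3 * ((1 / 4) - r) ^ 0 * (t ^ 2 * (1 - t) ^ 2)) +
      (683540 / 27) * ((r - (-1 / 2)) ^ 3 * ((1 / 4) - r) ^ 0 * (t ^ 3 * (1 - t) ^ 1)) +
      (232160 / 27) * ((r - (-1 / 2)) ^ 3 * ((1 / 4) - r) ^ 0 * (t ^ 4 * (1 - t) ^ 0)) := by positivity
  have e : (3 - 2 * r) * (243 * (1 + t) + 595 * r * (1 + t + t ^ 2) + 855 * r ^ 2 * (1 + t + t ^ 2 + t ^ 3)) + 2 * (55 * (1 + t + t ^ 2 + t ^ 3) + 129 * r * (1 + t + t ^ 2 + t ^ 3 + t ^ 4)) = (13184 / 9) * ((r - (-1 / 2)) ^ 0 * ((1 / 4) - r) ^ 3 * (t ^ 0 * (1 - t) ^ 4)) +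
      (65920 / 9) * ((r - (-1 / 2)) ^ 0 * ((1 / 4) - r) ^ 3 * (t ^ 1 * (1 - t) ^ 3)) +
      (111104 / 9) * ((r - (-1 / 2)) ^ 0 * ((1 / 4) - r) ^ 3 * (t ^ 2 * (1 - t) ^ 2)) +
      (285056 / 27) * ((r - (-1 / 2)) ^ 0 * ((1 / 4) - r) ^ 3 * (t ^ 3 * (1 - t) ^ 1)) +
      (101696 / 27) * ((r - (-1 / 2)) ^ 0 * ((1 / 4) - r) ^ 3 * (t ^ 4 * (1 - t) ^ 0)) +
      (21944 / 9) * ((r - (-1 / 2)) ^ 1 * ((1 / 4) - r) ^ 2 * (t ^ 0 * (1 - t) ^ 4)) +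
      (109720 / 9) * ((r - (-1 / 2)) ^ 1 * ((1 / 4) - r) ^ 2 * (t ^ 1 * (1 - t) ^ 3)) +
      (165008 / 9) * ((r - (-1 / 2)) ^ 1 * ((1 / 4) - r) ^ 2 * (t ^ 2 * (1 - t) ^ 2)) +
      (84704 / 9) * ((r - (-1 / 2)) ^ 1 * ((1 / 4) - r) ^ 2 * (t ^ 3 * (1 - t) ^ 1)) +
      (3344 / 9) * ((r - (-1 / 2)) ^ 1 * ((1 / 4) - r) ^ 2 * (t ^ 4 * (1 - t) ^ 0)) +
      (51616 / 9) * ((r - (-1 / 2)) ^ 2 * ((1 / 4) - r) ^ 1 * (t ^ 0 * (1 - t) ^ 4)) +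
      (258080 / 9) * ((r - (-1 / 2)) ^ 2 * ((1 / 4) - r) ^ 1 * (t ^ 1 * (1 - t) ^ 3)) +
      (469504 / 9) * ((r - (-1 / 2)) ^ 2 * ((1 / 4) - r) ^ 1 * (t ^ 2 * (1 - t) ^ 2)) +
      (371432 / 9) * ((r - (-1 / 2)) ^ 2 * ((1 / 4) - r) ^ 1 * (t ^ 3 * (1 - t) ^ 1)) +
      (108392 / 9) * ((r - (-1 / 2)) ^ 2 * ((1 / 4) - r) ^ 1 * (t ^ 4 * (1 - t) ^ 0)) +
      (27466 / 9) * ((r - (-1 / 2)) ^ 3 * ((1 / 4) - r) ^ 0 * (t ^ 0 * (1 - t) ^ 4)) +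
      (137330 / 9) * ((r - (-1 / 2)) ^ 3 * ((1 / 4) - r) ^ 0 * (t ^ 1 * (1 - t) ^ 3)) +
      (261700 / 9) * ((r - (-1 / 2)) ^ 3 * ((1 / 4) - r) ^ 0 * (t ^ 2 * (1 - t) ^ 2)) +
      (683540 / 27) * ((r - (-1 / 2)) ^ 3 * ((1 / 4) - r) ^ 0 * (t ^ 3 * (1 - t) ^ 1)) +
      (232160 / 27) * ((r - (-1 / 2)) ^ 3 * ((1 / 4) - r) ^ 0 * (t ^ 4 * (1 - t) ^ 0)) := by ring
  rw [e]
  exact key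

theorem e2_1 (r t : ℝ) (ha : (1 / 4) ≤ r) (hb : r ≤ 1) (h0 : 0 ≤ t) (h1 : t ≤ 1) :
    0 ≤ (3 - 2 * r) * (243 * (1 + t) + 595 * r * (1 + t + t ^ 2) + 855 * r ^ 2 * (1 + t + t ^ 2 + t ^ 3)) + 2 * (55 * (1 + t + t ^ 2 + t ^ 3) + 129 * r * (1 + t + t ^ 2 + t ^ 3 + t ^ 4)) := by
  have hx : 0 ≤ r - (1 / 4) := by linarith
  have hy : 0 ≤ 1 - r := by linarith
  have hz : 0 ≤ 1 - t := by linarith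
  have key : 0 ≤ (27466 / 9) * ((r - (1 / 4)) ^ 0 * (1 - r) ^ 3 * (t ^ 0 * (1 - t) ^ 4)) +
      (137330 / 9) * ((r - (1 / 4)) ^ 0 * (1 - r) ^ 3 * (t ^ 1 * (1 - t) ^ 3)) +
      (261700 / 9) * ((r - (1 / 4)) ^ 0 * (1 - r) ^ 3 * (t ^ 2 * (1 - t) ^ 2)) +
      (683540 / 27) * ((r - (1 / 4)) ^ 0 * (1 - r) ^ 3 * (t ^ 3 * (1 - t) ^ 1)) +
      (232160 / 27) * ((r - (1 / 4)) ^ 0 * (1 - r) ^ 3 * (t ^ 4 * (1 - t) ^ 0)) +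
      (113180 / 9) * ((r - (1 / 4)) ^ 1 * (1 - r) ^ 2 * (t ^ 0 * (1 - t) ^ 4)) +
      (565900 / 9) * ((r - (1 / 4)) ^ 1 * (1 - r) ^ 2 * (t ^ 1 * (1 - t) ^ 3)) +
      (1100696 / 9) * ((r - (1 / 4)) ^ 1 * (1 - r) ^ 2 * (t ^ 2 * (1 - t) ^ 2)) +
      (995648 / 9) * ((r - (1 / 4)) ^ 1 * (1 - r) ^ 2 * (t ^ 3 * (1 - t) ^ 1)) +
      (355928 / 9) * ((r - (1 / 4)) ^ 1 * (1 - r) ^ 2 * (t ^ 4 * (1 - t) ^ 0)) +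
      (145072 / 9) * ((r - (1 / 4)) ^ 2 * (1 - r) ^ 1 * (t ^ 0 * (1 - t) ^ 4)) +
      (725360 / 9) * ((r - (1 / 4)) ^ 2 * (1 - r) ^ 1 * (t ^ 1 * (1 - t) ^ 3)) +
      (1427392 / 9) * ((r - (1 / 4)) ^ 2 * (1 - r) ^ 1 * (t ^ 2 * (1 - t) ^ 2)) +
      (1333136 / 9) * ((r - (1 / 4)) ^ 2 * (1 - r) ^ 1 * (t ^ 3 * (1 - t) ^ 1)) +
      (498416 / 9) * ((r - (1 / 4)) ^ 2 * (1 - r) ^ 1 * (t ^ 4 * (1 - t) ^ 0)) +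
      (14656 / 3) * ((r - (1 / 4)) ^ 3 * (1 - r) ^ 0 * (t ^ 0 * (1 - t) ^ 4)) +
      (73280 / 3) * ((r - (1 / 4)) ^ 3 * (1 - r) ^ 0 * (t ^ 1 * (1 - t) ^ 3)) +
      (144832 / 3) * ((r - (1 / 4)) ^ 3 * (1 - r) ^ 0 * (t ^ 2 * (1 - t) ^ 2)) +
      (1234304 / 27) * ((r - (1 / 4)) ^ 3 * (1 - r) ^ 0 * (t ^ 3 * (1 - t) ^ 1)) +
      (474944 / 27) * ((r - (1 / 4)) ^ 3 * (1 - r) ^ 0 * (t ^ 4 * (1 - t) ^ 0)) := by positivity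
  have e : (3 - 2 * r) * (243 * (1 + t) + 595 * r * (1 + t + t ^ 2) + 855 * r ^ 2 * (1 + t + t ^ 2 + t ^ 3)) + 2 * (55 * (1 + t + t ^ 2 + t ^ 3) + 129 * r * (1 + t + t ^ 2 + t ^ 3 + t ^ 4)) = (27466 / 9) * ((r - (1 / 4)) ^ 0 * (1 - r) ^ 3 * (t ^ 0 * (1 - t) ^ 4)) +
      (137330 / 9) * ((r - (1 / 4)) ^ 0 * (1 - r) ^ 3 * (t ^ 1 * (1 - t) ^ 3)) +
      (261700 / 9) * ((r - (1 / 4)) ^ 0 * (1 - r) ^ 3 * (t ^ 2 * (1 - t) ^ 2)) +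
      (683540 / 27) * ((r - (1 / 4)) ^ 0 * (1 - r) ^ 3 * (t ^ 3 * (1 - t) ^ 1)) +
      (232160 / 27) * ((r - (1 / 4)) ^ 0 * (1 - r) ^ 3 * (t ^ 4 * (1 - t) ^ 0)) +
      (113180 / 9) * ((r - (1 / 4)) ^ 1 * (1 - r) ^ 2 * (t ^ 0 * (1 - t) ^ 4)) +
      (565900 / 9) * ((r - (1 / 4)) ^ 1 * (1 - r) ^ 2 * (t ^ 1 * (1 - t) ^ 3)) +
      (1100696 / 9) * ((r - (1 / 4)) ^ 1 * (1 - r) ^ 2 * (t ^ 2 * (1 - t) ^ 2)) +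
      (995648 / 9) * ((r - (1 / 4)) ^ 1 * (1 - r) ^ 2 * (t ^ 3 * (1 - t) ^ 1)) +
      (355928 / 9) * ((r - (1 / 4)) ^ 1 * (1 - r) ^ 2 * (t ^ 4 * (1 - t) ^ 0)) +
      (145072 / 9) * ((r - (1 / 4)) ^ 2 * (1 - r) ^ 1 * (t ^ 0 * (1 - t) ^ 4)) +
      (725360 / 9) * ((r - (1 / 4)) ^ 2 * (1 - r) ^ 1 * (t ^ 1 * (1 - t) ^ 3)) +
      (1427392 / 9) * ((r - (1 / 4)) ^ 2 * (1 - r) ^ 1 * (t ^ 2 * (1 - t) ^ 2)) +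
      (1333136 / 9) * ((r - (1 / 4)) ^ 2 * (1 - r) ^ 1 * (t ^ 3 * (1 - t) ^ 1)) +
      (498416 / 9) * ((r - (1 / 4)) ^ 2 * (1 - r) ^ 1 * (t ^ 4 * (1 - t) ^ 0)) +
      (14656 / 3) * ((r - (1 / 4)) ^ 3 * (1 - r) ^ 0 * (t ^ 0 * (1 - t) ^ 4)) +
      (73280 / 3) * ((r - (1 / 4)) ^ 3 * (1 - r) ^ 0 * (t ^ 1 * (1 - t) ^ 3)) +
      (144832 / 3) * ((r - (1 / 4)) ^ 3 * (1 - r) ^ 0 * (t ^ 2 * (1 - t) ^ 2)) +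
      (1234304 / 27) * ((r - (1 / 4)) ^ 3 * (1 - r) ^ 0 * (t ^ 3 * (1 - t) ^ 1)) +
      (474944 / 27) * ((r - (1 / 4)) ^ 3 * (1 - r) ^ 0 * (t ^ 4 * (1 - t) ^ 0)) := by ring
  rw [e]
  exact key

theorem e2 (r t : ℝ) (ha : (-1 / 2) ≤ r) (hb : r ≤ 1) (h0 : 0 ≤ t) (h1 : t ≤ 1) :
    0 ≤ (3 - 2 * r) * (243 * (1 + t) + 595 * r * (1 + t + t ^ 2) + 855 * r ^ 2 * (1 + t + t ^ 2 + t ^ 3)) + 2 * (55 * (1 + t + t ^ 2 + t ^ 3) + 129 * r * (1 + t + t ^ 2 + t ^ 3 + t ^ 4)) := by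
  rcases le_total r (1 / 4) with h | h
  · exact e2_0 r t (by linarith) (by linarith) h0 h1
  exact e2_1 r t (by linarith) (by linarith) h0 h1


theorem ctr : Ctr FP := by
  intro b hb t h0 h1
  unfold FP
  rw [u_en, w_en]
  rcases (u_nonneg b).eq_or_lt with hu | hu
  · have hw := w_sq hb
    rw [← hu] at hw
    have hw0 : wFn b = 0 := by nlinarith [sq_nonneg (wFn b)]
    rw [← hu, hw0]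
    norm_num
  · obtain ⟨r, hr, ha, hb1, hc, hd⟩ := slope hb hu
    rw [hr]
    set u := uFn 3 b
    have k1 := core (243 * (1 + t) + 595 * r * (1 + t + t ^ 2) + 855 * r ^ 2 * (1 + t + t ^ 2 + t ^ 3)) (55 * (1 + t + t ^ 2 + t ^ 3) + 129 * r * (1 + t + t ^ 2 + t ^ 3 + t ^ 4)) r u hc hd hb1
      (e1 r t ha hb1 h0 h1) (e2 r t ha hb1 h0 h1)
    have k2 : 0 ≤ (243 * (1 + t) + 595 * r * (1 + t + t ^ 2) + 855 * r ^ 2 * (1 + t + t ^ 2 + t ^ 3)) + u * (55 * (1 + t + t ^ 2 + t ^ 3) + 129 * r * (1 + t + t ^ 2 + t ^ 3 + t ^ 4)) + 32 * u ^ 2 * (1 + t + t ^ 2 + t ^ 3 + t ^ 4 + t ^ 5) := by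
      have : 0 ≤ 32 * u ^ 2 * (1 + t + t ^ 2 + t ^ 3 + t ^ 4 + t ^ 5) := by positivity
      linarith
    have k3 : 0 ≤ (1 - t) * (t ^ 2 * u ^ 2) * ((243 * (1 + t) + 595 * r * (1 + t + t ^ 2) + 855 * r ^ 2 * (1 + t + t ^ 2 + t ^ 3)) + u * (55 * (1 + t + t ^ 2 + t ^ 3) + 129 * r * (1 + t + t ^ 2 + t ^ 3 + t ^ 4)) + 32 * u ^ 2 * (1 + t + t ^ 2 + t ^ 3 + t ^ 4 + t ^ 5)) :=
      mul_nonneg (mul_nonneg (by linarith) (by positivity)) k2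
    nlinarith [k3]

theorem rng : Rng FP (288 / 100) := by
  refine ⟨⟨1 / 2, by norm_num, ?_⟩, ?_⟩
  · intro b hb
    rcases (u_nonneg b).eq_or_lt with hu | hu
    · have hw := w_sq hb
      rw [← hu] at hw
      have hw0 : wFn b = 0 := by nlinarith [sq_nonneg (wFn b)]
      unfold FP
      rw [← hu, hw0]
      norm_num
    · obtain ⟨r, hr, ha, hb1, hc, hd⟩ := slope hb hu
      have h2 := u_le hb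
      unfold FP
      rw [hr]
      set u := uFn 3 b
      have key : 0 ≤ 1 / 2 + 243 / 10000 * u + 595 / 10000 * (r * u) + 55 / 10000 * u ^ 2 +
          855 / 10000 * (r ^ 2 * u) + 129 / 10000 * (r * u ^ 2) + 32 / 10000 * u ^ 3 := by
        have q1 : -(u / 2) ≤ r * u := by nlinarith
        have q2 : 0 ≤ r ^ 2 * u := by positivity
        have q3 : -(u ^ 2 / 2) ≤ r * u ^ 2 := by nlinarith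
        nlinarith [pow_nonneg hu.le 3]
      nlinarith [mul_nonneg hu.le key]
  · intro b hb
    have hu := u_nonneg b
    have h2 := u_le hb
    have h3 := w_sq hb
    unfold FP
    set u := uFn 3 b
    set w := wFn b
    have hw1 : w ^ 2 ≤ u ^ 2 := by nlinarith [mul_nonneg (sq_nonneg u) (sub_nonneg.2 h2)]
    have hw : w ≤ u := abs_le_of_sq_le_sq' hw1 hu |>.2
    have q1 : u * w ≤ u ^ 2 := by nlinarith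
    have q2 : u ^ 2 * w ≤ u ^ 3 := by nlinarith [mul_nonneg (sq_nonneg u) (sub_nonneg.2 hw)]
    have q3 : u ^ 2 ≤ 4 := by nlinarith
    have q4 : u ^ 3 ≤ 8 := by nlinarith
    have q5 : u ^ 4 ≤ 16 := by nlinarith
    nlinarith

end Vale.Agent.P154.AF.CTRP

namespace Vale.Agent.P154.AF

theorem ctrP : StmtCtrP := ⟨CTRP.ctr, CTRP.rng⟩

end Vale.Agent.P154.AF
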