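import Vale.Agent.P154AF.Core

/-! Piecewise cubic Poisson certificate (helper file). -/

namespace Vale.Agent.P154.AF

open Finset Filter Topology

/-- cubic Bernstein form -/
noncomputable def B3 (f0 f1 f2 f3 z : ℝ) : ℝ :=
  (1 - z) ^ 3 * f0 + 3 * z * (1 - z) ^ 2 * f1 + 3 * z ^ 2 * (1 - z) * f2 + z ^ 3 * f3

/-- certificate for Poisson trees, piecewise cubic in `s`: on `[br j, br (j+1)]` the function is
the Bernstein form of `f (3 j), ..., f (3 j + 3)` -/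
structure CertPW (S : ℝ) (J : ℕ) (br : ℕ → ℝ) (f : ℕ → V3 → ℝ) (c : ℝ) : Prop where
  br0 : br 0 = 0
  brS : br J = S
  brm : ∀ j < J, br j < br (j + 1)
  rng : Rng (f 0) S
  ctr : Ctr (f 0)
  bdd : ∃ C : ℝ, ∀ i ≤ 3 * J, ∀ A, Norm 3 A → |f i A| ≤ C
  u0 : ∀ j < J, Stp (-1/2) (f 0) (f (3 * j))
    (fun A => 3 * (f (3 * j + 1) A - f (3 * j) A) / (br (j + 1) - br j))
  u1 : ∀ j < J, Stp (-1/2) (f 0) (f (3 * j + 1))
    (fun A => (2 * f (3 * j + 2) A - f (3 * j + 1) A - f (3 * j) A) / (br (j + 1) - br j))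
  u2 : ∀ j < J, Stp (-1/2) (f 0) (f (3 * j + 2))
    (fun A => (f (3 * j + 3) A + f (3 * j + 2) A - 2 * f (3 * j + 1) A) / (br (j + 1) - br j))
  u3 : ∀ j < J, Stp (-1/2) (f 0) (f (3 * j + 3))
    (fun A => 3 * (f (3 * j + 3) A - f (3 * j + 2) A) / (br (j + 1) - br j))
  c_pos : 0 < c
  cS : 2 * c * S ≤ 1
  damp : ∀ j < J, ∀ z : ℝ, 0 ≤ z → z ≤ 1 →
    B3 (f (3 * j) one3) (f (3 * j + 1) one3) (f (3 * j + 2) one3) (f (3 * j + 3) one3) z ≤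
      (br j + z * (br (j + 1) - br j)) - c * (br j + z * (br (j + 1) - br j)) ^ 2

def StmtPoiPW : Prop :=
  ∀ (S : ℝ) (J : ℕ) (br : ℕ → ℝ) (f : ℕ → V3 → ℝ) (c : ℝ), CertPW S J br f c →
    ∀ (d lam : ℝ), 0 < d → -1/2 ≤ lam → lam < 0 → d * lam ^ 2 ≤ 1 →
      Tendsto (KG (f 0) d lam) atTop (𝓝 0)

end Vale.Agent.P154.AF
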