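import Vale.Agent.P154.Reduce

/-! Definitions and fixed statements for the antiferromagnetic three-state case
(`-1/2 ≤ lam < 0`).  Every `Stmt...` below is a proposition proved in its own module. -/

namespace Vale.Agent.P154.AF

open Finset Filter Topology

abbrev V3 := Fin 3 → ℝ

/-- one edge with parameter `lam` acting on a normalised vector -/
noncomputable def en (lam : ℝ) (b : V3) : V3 := fun i => 1 + lam * (b i - 1)

/-- the all-ones vector -/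
def one3 : V3 := fun _ => 1

/-- third symmetric function of `A - 1` -/
noncomputable def wFn (A : V3) : ℝ := (A 0 - 1) * (A 1 - 1) * (A 2 - 1)

/-- one certificate step -/
def Stp (lam1 : ℝ) (F H e : V3 → ℝ) : Prop :=
  ∀ A b, Norm 3 A → Norm 3 b → kern 3 H A (en lam1 b) ≤ H A + lam1 ^ 2 * F b * e A

/-- contraction of the potential under an edge -/
def Ctr (F : V3 → ℝ) : Prop :=
  ∀ b, Norm 3 b → ∀ t : ℝ, 0 ≤ t → t ≤ 1 → F (en t b) ≤ t ^ 2 * F b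

/-- the potential dominates a multiple of the chi-square function and is at most `M` -/
def Rng (F : V3 → ℝ) (M : ℝ) : Prop :=
  (∃ c : ℝ, 0 < c ∧ ∀ b, Norm 3 b → c * uFn 3 b ≤ F b) ∧ ∀ b, Norm 3 b → F b ≤ M

/-- binomial recursion -/
noncomputable def PB (h : ℕ → ℝ) (θ : ℝ) : ℕ → ℕ → ℝ
  | 0, k => h k
  | j + 1, k => (1 - θ) * PB h θ j k + θ * PB h θ j (k + 1)

/-- expected potential at the root of the `d`-ary tree of depth `n` -/
noncomputable def KF (F : V3 → ℝ) (d : ℕ) (lam : ℝ) (n : ℕ) : ℝ :=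
  ev F (tch 3 lam n (dary d n))

/-- expected potential at the root of the Poisson(`d`) tree of depth `n` -/
noncomputable def KG (F : V3 → ℝ) (d lam : ℝ) (n : ℕ) : ℝ :=
  ∑' T : Tree n, gwProb d n T * ev F (tch 3 lam n T)

/-- kernel averaged over a channel (the law of one child, after the edge) -/
noncomputable def TO {S : Type} [Fintype S] (M : S → V3) (phi : V3 → ℝ) : V3 → ℝ :=
  fun A => ∑ y, kern 3 phi A (M y)

/-- kernel averaged over one child of the Poisson tree -/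
noncomputable def TG (d lam : ℝ) (n : ℕ) (phi : V3 → ℝ) : V3 → ℝ :=
  fun A => ∑' T : Tree n, gwProb d n T *
    TO (fun s : Bdry 3 n T => edge 3 lam (tch 3 lam n T s)) phi A

/-! ### CH: channels for negative parameters -/

def StmtChEdge : Prop :=
  ∀ lam : ℝ, -1/2 ≤ lam → lam ≤ 1 → ∀ (S : Type) [Fintype S] (L : S → V3), Chan L →
    Chan (fun s => edge 3 lam (L s))

def StmtChTree : Prop :=
  ∀ lam : ℝ, -1/2 ≤ lam → lam ≤ 1 → ∀ (n : ℕ) (T : Tree n), Chan (tch 3 lam n T)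

def StmtAdv : Prop :=
  ∀ lam : ℝ, -1/2 ≤ lam → lam ≤ 1 → ∀ (n : ℕ) (T : Tree n) (eta : ℝ), 0 < eta →
    adv 3 lam n T ≤ eta / 4 + 1 / (4 * eta) * ev (uFn 3) (tch 3 lam n T)

/-! ### OP: the kernel operator -/

/-- expected value at the root of a tree as an iterated kernel operator -/
def StmtOpReg : Prop :=
  ∀ lam : ℝ, -1/2 ≤ lam → lam ≤ 1 → ∀ (phi : V3 → ℝ) (d n : ℕ),
    KF phi d lam (n + 1) =
      ((TO (fun s => edge 3 lam (tch 3 lam n (dary d n) s)))^[d] phi) one3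

/-- monotone on normalised vectors -/
def StmtOpMono : Prop :=
  ∀ (S : Type) [Fintype S] (M : S → V3), Chan M → ∀ phi psi : V3 → ℝ,
    (∀ A, Norm 3 A → phi A ≤ psi A) → ∀ A, Norm 3 A → TO M phi A ≤ TO M psi A

/-- a step inequality integrated over a channel: here `M = edge (t lam1) L` -/
def StmtOpStep : Prop :=
  ∀ (lam1 t : ℝ), -1/2 ≤ lam1 → lam1 ≤ 0 → 0 ≤ t → t ≤ 1 →
  ∀ (S : Type) [Fintype S] (L : S → V3), Chan L →
  ∀ F H e : V3 → ℝ, Stp lam1 F H e → ∀ A, Norm 3 A →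
    TO (fun s => edge 3 (t * lam1) (L s)) H A ≤
      H A + lam1 ^ 2 * ev F (fun s => edge 3 t (L s)) * e A

/-- the same at the single vector `one3` (only the inequality at `A = one3` is assumed) -/
def StmtOpStepOne : Prop :=
  ∀ (lam1 t : ℝ), -1/2 ≤ lam1 → lam1 ≤ 0 → 0 ≤ t → t ≤ 1 →
  ∀ (S : Type) [Fintype S] (L : S → V3), Chan L →
  ∀ (F H : V3 → ℝ) (c : ℝ),
    (∀ b, Norm 3 b → kern 3 H one3 (en lam1 b) ≤ H one3 + lam1 ^ 2 * F b * c) →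
    TO (fun s => edge 3 (t * lam1) (L s)) H one3 ≤
      H one3 + lam1 ^ 2 * ev F (fun s => edge 3 t (L s)) * c

/-- contraction integrated -/
def StmtOpCtr : Prop :=
  ∀ (S : Type) [Fintype S] (L : S → V3), Chan L → ∀ F : V3 → ℝ, Ctr F →
    ∀ t : ℝ, 0 ≤ t → t ≤ 1 → ev F (fun s => edge 3 t (L s)) ≤ t ^ 2 * ev F L

/-! ### REG: one generation of the regular tree -/

def StmtReg : Prop :=
  ∀ (lam1 g : ℝ), -1/2 ≤ lam1 → lam1 ≤ 0 → 0 < g →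
  ∀ (F : V3 → ℝ) (H : ℕ → V3 → ℝ) (h : ℕ → ℝ) (d : ℕ), 1 ≤ d →
    H 0 = F → Ctr F → (∀ b, Norm 3 b → 0 ≤ F b) →
    (∀ k, k < d → h k = H k one3) →
    (∀ k, k + 1 < d → Stp lam1 F (H k) (fun A => (H (k + 1) A - H k A) / g)) →
    (∀ b, Norm 3 b → kern 3 (H (d - 1)) one3 (en lam1 b) ≤
      h (d - 1) + lam1 ^ 2 * F b * ((h d - h (d - 1)) / g)) →
    ∀ (t : ℝ), 0 ≤ t → t ≤ 1 → ∀ n : ℕ,
      ∃ κ : ℝ, 0 ≤ κ ∧ κ ≤ (t * lam1) ^ 2 * KF F d (t * lam1) n ∧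
        (κ ≤ g → KF F d (t * lam1) (n + 1) ≤ PB h (κ / g) d 0)

/-! ### FIN: conclusion -/

def StmtFinReg : Prop :=
  ∀ (F : V3 → ℝ) (M : ℝ), Rng F M → ∀ (d : ℕ) (lam : ℝ), -1/2 ≤ lam → lam ≤ 1 →
    Tendsto (KF F d lam) atTop (𝓝 0) → Nonreconstruction (aReg 3 d lam)

def StmtFinGW : Prop :=
  ∀ (F : V3 → ℝ) (M : ℝ), Rng F M → ∀ (d lam : ℝ), 0 < d → -1/2 ≤ lam → lam ≤ 1 →
    Tendsto (KG F d lam) atTop (𝓝 0) → Nonreconstruction (aGW 3 d lam)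

/-- bounds and nonnegativity of the expected potential -/
def StmtKBound : Prop :=
  ∀ (F : V3 → ℝ) (M : ℝ), Rng F M → ∀ lam : ℝ, -1/2 ≤ lam → lam ≤ 1 →
    (∀ (d n : ℕ), 0 ≤ KF F d lam n ∧ KF F d lam n ≤ M) ∧
    (∀ (d : ℝ) (n : ℕ), 0 < d → 0 ≤ KG F d lam n ∧ KG F d lam n ≤ M)

/-! ### Large degree: the one-step chain with closure -/

/-- certificate for regular trees of degree at least five -/
structure CertBig (lam1 g c : ℝ) (F H1 : V3 → ℝ) : Prop where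
  rng : Rng F (g / lam1 ^ 2)
  ctr : Ctr F
  F_one : F one3 = 0
  H_one : H1 one3 = g
  s0 : Stp lam1 F F (fun A => (H1 A - F A) / g)
  s1 : Stp lam1 F H1 (fun _ => c / g)
  c_pos : 0 < c
  c_lt : c < g

def StmtBig : Prop :=
  ∀ (lam1 g c : ℝ) (F H1 : V3 → ℝ), -1/2 ≤ lam1 → lam1 < 0 → 0 < g →
    CertBig lam1 g c F H1 → ∀ (d : ℕ) (lam : ℝ), 2 ≤ d → lam1 ≤ lam → lam < 0 →
      (d : ℝ) * lam ^ 2 ≤ 1 → Tendsto (KF F d lam) atTop (𝓝 0)

/-! ### Degree at most four: a chain with three steps -/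

/-- certificate for degree at most four; `K0 = 4 g` -/
structure CertFour (g : ℝ) (F H1 H2 H3 : V3 → ℝ) (h2 h3 h4 : ℝ) : Prop where
  rng : ∃ M, Rng F M
  ctr : Ctr F
  F_one : F one3 = 0
  H1_one : H1 one3 = g
  H2_one : H2 one3 = h2
  H3_one : H3 one3 = h3
  s0 : Stp (-1/2) F F (fun A => (H1 A - F A) / g)
  s1 : Stp (-1/2) F H1 (fun A => (H2 A - H1 A) / g)
  s2 : Stp (-1/2) F H2 (fun A => (H3 A - H2 A) / g)
  s3 : ∀ b, Norm 3 b → kern 3 H3 one3 (en (-1/2) b) ≤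
    h3 + (-1/2) ^ 2 * F b * ((h4 - h3) / g)
  m1 : 0 ≤ g
  m2 : g ≤ h2
  m3 : h2 ≤ h3
  m4 : h3 ≤ h4
  /-- the binomial average is below the identity with quadratic damping -/
  damp : ∃ c : ℝ, 0 < c ∧ ∀ θ : ℝ, 0 ≤ θ → θ ≤ 1 →
    4 * θ * (1 - θ) ^ 3 * g + 6 * θ ^ 2 * (1 - θ) ^ 2 * h2 + 4 * θ ^ 3 * (1 - θ) * h3 +
      θ ^ 4 * h4 ≤ 4 * g * θ - c * θ ^ 2

def StmtFour : Prop :=
  ∀ (g : ℝ) (F H1 H2 H3 : V3 → ℝ) (h2 h3 h4 : ℝ), 0 < g → CertFour g F H1 H2 H3 h2 h3 h4 →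
    ∀ (d : ℕ) (lam : ℝ), 2 ≤ d → d ≤ 4 → -1/2 ≤ lam → lam < 0 →
      (∃ n, KF F d lam n ≤ 4 * g) → Tendsto (KF F d lam) atTop (𝓝 0)

/-! ### Poisson trees -/

/-- certificate for Poisson trees: `Φ(s, A) = ∑ i ≤ m, s ^ i * Φ i A` on `0 ≤ s ≤ S` -/
structure CertPoi (S : ℝ) (m : ℕ) (Phi : ℕ → V3 → ℝ) : Prop where
  S_pos : 0 < S
  rng : Rng (Phi 0) S
  ctr : Ctr (Phi 0)
  bdd : ∃ C : ℝ, ∀ i ≤ m, ∀ A, Norm 3 A → |Phi i A| ≤ C
  step : ∀ s : ℝ, 0 ≤ s → s ≤ S →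
    Stp (-1/2) (Phi 0) (fun A => ∑ i ∈ range (m + 1), s ^ i * Phi i A)
      (fun A => ∑ i ∈ range (m + 1), i * s ^ (i - 1) * Phi i A)
  damp : ∃ c : ℝ, 0 < c ∧ 2 * c * S ≤ 1 ∧ ∀ s : ℝ, 0 ≤ s → s ≤ S →
    ∑ i ∈ range (m + 1), s ^ i * Phi i one3 ≤ s - c * s ^ 2

/-- the analytic lemma -/
def StmtSeq : Prop :=
  ∀ (m : ℕ) (a : ℕ → ℕ → ℝ) (C S κ d : ℝ), 0 ≤ κ → 0 ≤ d → d * κ ≤ S →
    (∀ i ≤ m, ∀ k, |a i k| ≤ C) →
    (∀ s : ℝ, 0 ≤ s → s ≤ S → ∀ k, ∑ i ∈ range (m + 1), s ^ i * (a i (k + 1) - a i k) ≤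
      κ * ∑ i ∈ range (m + 1), (i : ℝ) * s ^ (i - 1) * a i k) →
    ∑' k : ℕ, Real.exp (-d) * d ^ k / k.factorial * a 0 k ≤
      ∑ i ∈ range (m + 1), (d * κ) ^ i * a i 0

/-- Poisson recursion: root value as a Poisson mixture of iterated operators.
`phi` bounded on normalised vectors. -/
def StmtGW1 : Prop :=
  ∀ (lam : ℝ), -1/2 ≤ lam → lam ≤ 1 → ∀ (phi : V3 → ℝ) (C : ℝ),
    (∀ A, Norm 3 A → |phi A| ≤ C) → ∀ (d : ℝ), 0 < d → ∀ n : ℕ,
      KG phi d lam (n + 1) =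
        ∑' k : ℕ, Real.exp (-d) * d ^ k / k.factorial * ((TG d lam n)^[k] phi) one3

/-- bounds, monotonicity and linearity of the Poisson operator on normalised vectors -/
def StmtGW2 : Prop :=
  ∀ (lam : ℝ), -1/2 ≤ lam → lam ≤ 1 → ∀ (d : ℝ), 0 < d → ∀ (n : ℕ) (C : ℝ)
    (phi psi : V3 → ℝ), (∀ A, Norm 3 A → |phi A| ≤ C) → (∀ A, Norm 3 A → |psi A| ≤ C) →
    (∀ A, Norm 3 A → |TG d lam n phi A| ≤ C) ∧
    ((∀ A, Norm 3 A → phi A ≤ psi A) → ∀ A, Norm 3 A → TG d lam n phi A ≤ TG d lam n psi A) ∧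
    (∀ x y : ℝ, ∀ A, Norm 3 A → TG d lam n (fun B => x * phi B + y * psi B) A =
      x * TG d lam n phi A + y * TG d lam n psi A)

/-- the averaged potential of one child of the Poisson tree -/
noncomputable def kapG (F : V3 → ℝ) (d lam1 t : ℝ) (n : ℕ) : ℝ :=
  lam1 ^ 2 * ∑' T : Tree n, gwProb d n T *
    ev F (fun s : Bdry 3 n T => edge 3 t (tch 3 (t * lam1) n T s))

/-- a step inequality integrated over the Poisson tree -/
def StmtGW3 : Prop :=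
  ∀ (lam1 t : ℝ), -1/2 ≤ lam1 → lam1 ≤ 0 → 0 ≤ t → t ≤ 1 → ∀ (d : ℝ), 0 < d → ∀ (n : ℕ)
    (F : V3 → ℝ) (C : ℝ), Ctr F → (∀ A, Norm 3 A → 0 ≤ F A) → (∀ A, Norm 3 A → |F A| ≤ C) →
    0 ≤ kapG F d lam1 t n ∧ kapG F d lam1 t n ≤ (t * lam1) ^ 2 * KG F d (t * lam1) n ∧
      ∀ H e : V3 → ℝ, (∀ A, Norm 3 A → |H A| ≤ C) → Stp lam1 F H e →
        ∀ A, Norm 3 A → TG d (t * lam1) n H A ≤ H A + kapG F d lam1 t n * e A

def StmtPoi : Prop :=
  ∀ (S : ℝ) (m : ℕ) (Phi : ℕ → V3 → ℝ), CertPoi S m Phi →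
    ∀ (d lam : ℝ), 0 < d → -1/2 ≤ lam → lam < 0 → d * lam ^ 2 ≤ 1 →
      Tendsto (KG (Phi 0) d lam) atTop (𝓝 0)

/-! ### Convex order on regular trees of degree at most four -/

/-- positively homogeneous and subadditive functions on the nonnegative orthant -/
structure SL (Phi : V3 → ℝ) : Prop where
  hom : ∀ c : ℝ, 0 ≤ c → ∀ v : V3, (∀ i, 0 ≤ v i) → Phi (fun i => c * v i) = c * Phi v
  sub : ∀ v w : V3, (∀ i, 0 ≤ v i) → (∀ i, 0 ≤ w i) → Phi (fun i => v i + w i) ≤ Phi v + Phi w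

/-- symmetrised value -/
noncomputable def sy (Phi : V3 → ℝ) (v : V3) : ℝ :=
  (1 / 6) * ∑ p : Equiv.Perm (Fin 3), Phi (fun i => v (p i))

/-- `L` is dominated in the sublinear order by the symmetric measure with
weights `W i` at the points `pt i` -/
def Dom {S I : Type} [Fintype S] [Fintype I] (L : S → V3) (pt : I → V3) (W : I → ℝ) : Prop :=
  ∀ Phi : V3 → ℝ, SL Phi → ∑ s, Phi (L s) ≤ ∑ i, W i * sy Phi (pt i)

/-- the vertex `(3, 0, 0)` -/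
def vtx : V3 := ![3, 0, 0]

/-- base case: the root channel of depth zero -/
def StmtDomZero : Prop :=
  ∀ (lam : ℝ) (T : Tree 0), Dom (tch 3 lam 0 T) (fun _ : Unit => vtx) (fun _ => 1)

/-- one edge: domination by the edge image with parameter `-1/2` -/
def StmtDomEdge : Prop :=
  ∀ (lam : ℝ), -1/2 ≤ lam → lam ≤ 0 → ∀ (S I : Type) [Fintype S] [Fintype I] (L : S → V3)
    (pt : I → V3) (W : I → ℝ), Chan L → Dom L pt W →
    Dom (fun s => edge 3 lam (L s)) (fun i => edge 3 (-1/2) (pt i)) W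

/-- product of two channels -/
def StmtDomProd : Prop :=
  ∀ (S S' I I' : Type) [Fintype S] [Fintype S'] [Fintype I] [Fintype I'] (L : S → V3)
    (L' : S' → V3) (pt : I → V3) (pt' : I' → V3) (W : I → ℝ) (W' : I' → ℝ),
    Chan L → Chan L' → (∀ i a, 0 ≤ pt i a) → (∀ i a, 0 ≤ pt' i a) → (∀ i, 0 ≤ W i) →
    (∀ i, 0 ≤ W' i) →
    Dom L pt W → Dom L' pt' W' →
    ∀ Phi : V3 → ℝ, SL Phi → ∑ s : S × S', Phi (fun a => L s.1 a * L' s.2 a) ≤
      ∑ i, ∑ j, W i * W' j *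
        ((1 / 6) * ∑ p : Equiv.Perm (Fin 3), sy Phi (fun a => pt i a * pt' j (p a)))

/-- a regular tree with at most four children is dominated by the product of four children;
`M` is the channel of one child (after the edge) -/
def StmtDomTree : Prop :=
  ∀ (lam : ℝ), -1/2 ≤ lam → lam ≤ 1 → ∀ (d n : ℕ), d ≤ 4 → ∀ Phi : V3 → ℝ, SL Phi →
    ∑ s, Phi (tch 3 lam (n + 1) (dary d (n + 1)) s) ≤
      ∑ s : ((Bdry 3 n (dary d n) × Bdry 3 n (dary d n)) ×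
          (Bdry 3 n (dary d n) × Bdry 3 n (dary d n))),
        Phi (fun a => (edge 3 lam (tch 3 lam n (dary d n) s.1.1) a *
            edge 3 lam (tch 3 lam n (dary d n) s.1.2) a) *
          (edge 3 lam (tch 3 lam n (dary d n) s.2.1) a *
            edge 3 lam (tch 3 lam n (dary d n) s.2.2) a))

/-- a vector of mass one is dominated by the vertex -/
def StmtDomVtx : Prop :=
  ∀ Phi : V3 → ℝ, SL Phi → ∀ v : V3, (∀ i, 0 ≤ v i) → v 0 + v 1 + v 2 = 3 →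
    sy Phi v ≤ sy Phi vtx

/-- the homogeneous extension of a convex function is sublinear -/
def StmtSLHom : Prop :=
  ∀ phi : V3 → ℝ, ConvexOn ℝ {A : V3 | Norm 3 A} phi → SL (hom 3 phi)

/-- powers of the chi-square function are convex on normalised vectors -/
def StmtUPow : Prop :=
  ∀ k : ℕ, 1 ≤ k → ConvexOn ℝ {A : V3 | Norm 3 A} (fun A => uFn 3 A ^ k)

end Vale.Agent.P154.AF
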