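import Vale.Agent.P154AF.REG
import Vale.Agent.P154.MSym

/-! Regular trees of large degree (module BIG). -/

namespace Vale.Agent.P154.AF

open Finset Filter Topology

/-- quadratic damping forces convergence to zero -/
theorem tendsto_of_damping2 {x : ℕ → ℝ} (h0 : ∀ n, 0 ≤ x n) {c : ℝ} (hc : 0 < c)
    (h : ∀ n, x (n + 1) ≤ x n - c * x n ^ 2) : Tendsto x atTop (𝓝 0) := by
  have hanti : Antitone x := by
    apply antitone_nat_of_succ_le
    intro n
    have := h n
    have h2 := mul_nonneg hc.le (pow_nonneg (h0 n) 2)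
    linarith
  have hlim : Tendsto x atTop (𝓝 (⨅ n, x n)) :=
    tendsto_atTop_ciInf hanti ⟨0, by rintro _ ⟨n, rfl⟩; exact h0 n⟩
  set L := ⨅ n, x n with hL
  have hL0 : 0 ≤ L := ge_of_tendsto' hlim h0
  have h1 : Tendsto (fun n => x (n + 1)) atTop (𝓝 L) := hlim.comp (tendsto_add_atTop_nat 1)
  have h2 : Tendsto (fun n => x n - c * x n ^ 2) atTop (𝓝 (L - c * L ^ 2)) :=
    hlim.sub ((hlim.pow 2).const_mul c)
  have h3 : L ≤ L - c * L ^ 2 := le_of_tendsto_of_tendsto' h1 h2 h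
  have h4 : L = 0 := by
    by_contra hne
    have : 0 < L := lt_of_le_of_ne hL0 (Ne.symm hne)
    have := mul_pos hc (pow_pos this 2)
    linarith
  rw [h4] at hlim
  exact hlim

theorem ms_norm {A : V3} (hA : Norm 3 A) : ms 3 A = 1 := by
  unfold ms
  rw [hA.2]
  norm_num

/-- the kernel of a constant -/
theorem kern_const (x : ℝ) {A B : V3} (hA : Norm 3 A) (hB : Norm 3 B) :
    kern 3 (fun _ => x) A B = x := by
  have hA2 := hA.2
  have hB2 := hB.2
  rw [Fin.sum_univ_three] at hA2 hB2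
  rw [kern_eq]
  simp_rw [hom_eq]
  unfold ms
  simp_rw [Fin.sum_univ_three]
  have h := sum_perm3 (fun i j k => 1 / ((3 : ℕ) : ℝ) * (A 0 * B i + A 1 * B j + A 2 * B k) * x)
  rw [h]
  push_cast at hA2 hB2 ⊢
  have e : (Nat.factorial 3 : ℝ) = 6 := by norm_num [Nat.factorial]
  rw [e]
  have h2 : A 2 = 3 - A 0 - A 1 := by linarith
  have h3 : B 2 = 3 - B 0 - B 1 := by linarith
  rw [h2, h3]
  ring

theorem kern_add_const (phi : V3 → ℝ) (x : ℝ) {A B : V3} (hA : Norm 3 A) (hB : Norm 3 B) :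
    kern 3 (fun A => phi A + x) A B = kern 3 phi A B + x := by
  have h := reg_kern_lin 1 1 phi (fun _ => x) A B
  rw [kern_const x hA hB] at h
  simp only [one_mul] at h
  exact h

theorem norm_en {lam : ℝ} (h0 : -1 / 2 ≤ lam) (h1 : lam ≤ 1) {b : V3} (hb : Norm 3 b) :
    Norm 3 (en lam b) := by
  have hs := hb.2
  have h00 := hb.1 0
  have h01 := hb.1 1
  have h02 := hb.1 2
  rw [Fin.sum_univ_three] at hs
  push_cast at hs
  refine ⟨?_, ?_⟩
  · intro i
    unfold en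
    have hle : b i ≤ 3 := by fin_cases i <;> simp <;> linarith
    have hge : 0 ≤ b i := hb.1 i
    nlinarith
  · unfold en
    rw [Fin.sum_univ_three]
    push_cast
    linear_combination lam * hs

/-- the chain of heights -/
noncomputable def bigH (c : ℝ) (F H1 : V3 → ℝ) : ℕ → V3 → ℝ
  | 0 => F
  | k + 1 => fun A => H1 A + k * c

noncomputable def bigh (g c : ℝ) : ℕ → ℝ
  | 0 => 0
  | k + 1 => g + k * c

theorem PB_big_succ (g c θ : ℝ) : ∀ j k : ℕ, PB (bigh g c) θ j (k + 1) = g + k * c + j * θ * c := by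
  intro j
  induction j with
  | zero =>
    intro k
    show g + k * c = _
    push_cast
    ring
  | succ j ih =>
    intro k
    show (1 - θ) * PB (bigh g c) θ j (k + 1) + θ * PB (bigh g c) θ j (k + 1 + 1) = _
    rw [ih, ih]
    push_cast
    ring

theorem PB_big_zero (g c θ : ℝ) : ∀ j : ℕ,
    PB (bigh g c) θ j 0 = c * j * θ + (g - c) * (1 - (1 - θ) ^ j) := by
  intro j
  induction j with
  | zero =>
    show (0 : ℝ) = _
    simp
  | succ j ih =>
    show (1 - θ) * PB (bigh g c) θ j 0 + θ * PB (bigh g c) θ j (0 + 1) = _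
    rw [ih, PB_big_succ]
    push_cast
    ring

theorem one_sub_pow_bound {θ : ℝ} (h0 : 0 ≤ θ) (h1 : θ ≤ 1) : ∀ k : ℕ,
    1 - (1 - θ) ^ (k + 2) ≤ ((k + 2 : ℕ) : ℝ) * θ - θ ^ 2 := by
  intro k
  induction k with
  | zero =>
    push_cast
    apply le_of_eq
    ring
  | succ k ih =>
    have h2 : (1 - θ) ^ (k + 1 + 2) = (1 - θ) * (1 - θ) ^ (k + 2) := by
      rw [← pow_succ']
    have h3 := mul_le_mul_of_nonneg_left ih (show 0 ≤ 1 - θ by linarith)
    rw [h2]
    push_cast at h3 ⊢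
    have h4 : 0 ≤ (k : ℝ) * θ ^ 2 := by positivity
    have h5 : 0 ≤ θ ^ 2 * (1 - θ) := by
      apply mul_nonneg (sq_nonneg _)
      linarith
    nlinarith

/-- numerical lemma -/
theorem big_num {g c M d κ K lam : ℝ} (hg : 0 < g) (hc : c < g) (hM : 0 < M) (hd : 2 ≤ d)
    (hκ : 0 ≤ κ) (hκK : κ ≤ lam ^ 2 * K) (hK0 : 0 ≤ K) (hKM : K ≤ M) (hdl : d * lam ^ 2 ≤ 1) :
    g * d * (κ / g) - (g - c) * (κ / g) ^ 2 ≤
      K - min ((g - c) / (g ^ 2 * d ^ 2)) (1 / (2 * M)) * K ^ 2 := by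
  set a := min ((g - c) / (g ^ 2 * d ^ 2)) (1 / (2 * M)) with ha
  have hd0 : 0 < d := by linarith
  have ha1 : a ≤ (g - c) / (g ^ 2 * d ^ 2) := min_le_left _ _
  have ha2 : a ≤ 1 / (2 * M) := min_le_right _ _
  have ha0 : 0 ≤ a := by
    rw [ha]
    apply le_min
    · apply div_nonneg (by linarith) (by positivity)
    · positivity
  have hx : d * κ ≤ K := by
    calc d * κ ≤ d * (lam ^ 2 * K) := mul_le_mul_of_nonneg_left hκK hd0.le
      _ = (d * lam ^ 2) * K := by ring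
      _ ≤ 1 * K := mul_le_mul_of_nonneg_right hdl hK0
      _ = K := one_mul K
  have hx0 : 0 ≤ d * κ := by positivity
  have e1 : g * d * (κ / g) - (g - c) * (κ / g) ^ 2 =
      d * κ - (g - c) / (g ^ 2 * d ^ 2) * (d * κ) ^ 2 := by
    field_simp
  rw [e1]
  have h1 : a * (d * κ) ^ 2 ≤ (g - c) / (g ^ 2 * d ^ 2) * (d * κ) ^ 2 :=
    mul_le_mul_of_nonneg_right ha1 (sq_nonneg _)
  have h2 : a * (K + d * κ) ≤ 1 := by
    have h3 : K + d * κ ≤ 2 * M := by linarith
    calc a * (K + d * κ) ≤ a * (2 * M) := mul_le_mul_of_nonneg_left h3 ha0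
      _ ≤ 1 / (2 * M) * (2 * M) := mul_le_mul_of_nonneg_right ha2 (by positivity)
      _ = 1 := by field_simp
  have h4 : 0 ≤ (K - d * κ) * (1 - a * (K + d * κ)) :=
    mul_nonneg (by linarith) (by linarith)
  nlinarith

theorem big : StmtBig := by
  intro lam1 g c F H1 hl0 hl1 hg hC d lam hd hl hln hdl
  obtain ⟨⟨cu, hcu0, hcu⟩, hFM⟩ := hC.rng
  set M := g / lam1 ^ 2 with hM
  have hl1n : lam1 ≠ 0 := hl1.ne
  have hl2 : 0 < lam1 ^ 2 := by positivity
  have hM0 : 0 < M := by rw [hM]; positivity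
  have hF0 : ∀ b, Norm 3 b → 0 ≤ F b := fun b hb =>
    le_trans (mul_nonneg hcu0.le (uFn_nonneg b)) (hcu b hb)
  set t := lam / lam1 with ht
  have hlam : t * lam1 = lam := by
    rw [ht]
    field_simp
  have ht0 : 0 ≤ t := by
    rw [ht]
    exact div_nonneg_of_nonpos hln.le hl1.le
  have ht1 : t ≤ 1 := by
    rw [ht, div_le_one_of_neg hl1]
    exact hl
  have hlam0 : -1 / 2 ≤ lam := by linarith
  have hlam1' : lam ≤ 1 := by linarith
  have hch : ∀ n, Chan (tch 3 lam n (dary d n)) := fun n => op_chan_tree hlam0 hlam1' n _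
  have hK0 : ∀ n, 0 ≤ KF F d lam n := fun n => ev_nonneg_of op_three (hch n) hF0
  have hKM : ∀ n, KF F d lam n ≤ M := by
    intro n
    have h1 : ev F (tch 3 lam n (dary d n)) ≤ ev (fun _ => M) (tch 3 lam n (dary d n)) :=
      ev_mono_of op_three (hch n) hFM
    refine h1.trans (le_of_eq ?_)
    unfold ev
    simp_rw [hom_eq]
    rw [← sum_mul, (hch n).ms_sum op_three, one_mul]
  have hstep : ∀ k, k + 1 < d → Stp lam1 F (bigH c F H1 k)
      (fun A => (bigH c F H1 (k + 1) A - bigH c F H1 k A) / g) := by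
    intro k _
    cases k with
    | zero =>
      intro A b hA hb
      have h1 := hC.s0 A b hA hb
      show kern 3 F A (en lam1 b) ≤ F A + lam1 ^ 2 * F b * ((H1 A + ((0 : ℕ) : ℝ) * c - F A) / g)
      rw [Nat.cast_zero, zero_mul, add_zero]
      exact h1
    | succ k =>
      intro A b hA hb
      have h1 := hC.s1 A b hA hb
      show kern 3 (fun A => H1 A + (k : ℝ) * c) A (en lam1 b) ≤ H1 A + (k : ℝ) * c +
        lam1 ^ 2 * F b * ((H1 A + ((k + 1 : ℕ) : ℝ) * c - (H1 A + (k : ℝ) * c)) / g)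
      rw [kern_add_const H1 _ hA (norm_en hl0 (by linarith) hb)]
      push_cast
      have e : (H1 A + ((k : ℝ) + 1) * c - (H1 A + (k : ℝ) * c)) / g = c / g := by
        congr 1
        ring
      rw [e]
      linarith
  have hone : ∀ k, k < d → bigh g c k = bigH c F H1 k one3 := by
    intro k _
    cases k with
    | zero => exact hC.F_one.symm
    | succ k =>
      show g + (k : ℝ) * c = H1 one3 + (k : ℝ) * c
      rw [hC.H_one]
  obtain ⟨j, hj⟩ : ∃ j, d = j + 2 := ⟨d - 2, by omega⟩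
  have hlast : ∀ b, Norm 3 b → kern 3 (bigH c F H1 (d - 1)) one3 (en lam1 b) ≤
      bigh g c (d - 1) + lam1 ^ 2 * F b * ((bigh g c d - bigh g c (d - 1)) / g) := by
    intro b hb
    subst hj
    have h1 := hC.s1 one3 b reg_norm_one hb
    show kern 3 (fun A => H1 A + (j : ℝ) * c) one3 (en lam1 b) ≤ g + (j : ℝ) * c +
      lam1 ^ 2 * F b * ((g + ((j + 1 : ℕ) : ℝ) * c - (g + (j : ℝ) * c)) / g)
    rw [kern_add_const H1 _ reg_norm_one (norm_en hl0 (by linarith) hb)]
    push_cast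
    have e : (g + ((j : ℝ) + 1) * c - (g + (j : ℝ) * c)) / g = c / g := by
      congr 1
      ring
    rw [e]
    rw [hC.H_one] at h1
    linarith
  have hmain : ∀ n, KF F d lam (n + 1) ≤ KF F d lam n -
      min ((g - c) / (g ^ 2 * (d : ℝ) ^ 2)) (1 / (2 * M)) * KF F d lam n ^ 2 := by
    intro n
    obtain ⟨κ, hκ0, hκ1, hκ2⟩ := reg lam1 g hl0 hl1.le hg F (bigH c F H1) (bigh g c) d (by omega)
      rfl hC.ctr hF0 hone hstep hlast t ht0 ht1 n
    rw [hlam] at hκ1 hκ2
    have hκg : κ ≤ g := by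
      have h1 : lam ^ 2 ≤ lam1 ^ 2 := by nlinarith
      calc κ ≤ lam ^ 2 * KF F d lam n := hκ1
        _ ≤ lam1 ^ 2 * M := mul_le_mul h1 (hKM n) (hK0 n) hl2.le
        _ = g := by rw [hM]; field_simp
    have hθ0 : 0 ≤ κ / g := div_nonneg hκ0 hg.le
    have hθ1 : κ / g ≤ 1 := (div_le_one hg).mpr hκg
    have hd2 : (2 : ℝ) ≤ d := by exact_mod_cast hd
    refine (hκ2 hκg).trans (le_trans ?_ (big_num hg hC.c_lt hM0 hd2 hκ0 hκ1 (hK0 n) (hKM n) hdl))
    rw [PB_big_zero]
    have h3 := one_sub_pow_bound hθ0 hθ1 j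
    have h4 : 0 ≤ g - c := by linarith [hC.c_lt]
    have h5 := mul_le_mul_of_nonneg_left h3 h4
    have h6 : (d : ℝ) = ((j + 2 : ℕ) : ℝ) := by rw [hj]
    rw [hj] at *
    nlinarith
  refine tendsto_of_damping2 hK0 ?_ hmain
  apply lt_min
  · apply div_pos (by linarith [hC.c_lt])
    have : (0 : ℝ) < d := by
      have : 0 < d := by omega
      exact_mod_cast this
    positivity
  · positivity

end Vale.Agent.P154.AF
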