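import Vale.Agent.P154AF.Core

/-! Channels for negative parameters. -/

namespace Vale.Agent.P154.AF

open Finset Filter Topology

theorem potts3_nonneg {lam : ℝ} (h0 : -1/2 ≤ lam) (h1 : lam ≤ 1) (i j : Fin 3) :
    0 ≤ potts 3 lam i j := by
  apply potts_nonneg (by norm_num) _ h1
  norm_num at h0 ⊢
  linarith

theorem ms3_eq (v : V3) : ms 3 v = (v 0 + v 1 + v 2) / 3 := by
  unfold ms
  rw [Fin.sum_univ_three]
  push_cast
  ring

theorem edge3_nonneg {lam : ℝ} (h0 : -1/2 ≤ lam) (h1 : lam ≤ 1) {v : V3} (hv : ∀ i, 0 ≤ v i)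
    (i : Fin 3) : 0 ≤ edge 3 lam v i := by
  unfold edge
  apply sum_nonneg
  intro j _
  exact mul_nonneg (potts3_nonneg h0 h1 i j) (hv j)

theorem chEdge : StmtChEdge := by
  intro lam h0 h1 S _ L h
  refine ⟨?_, ?_, ?_⟩
  · intro s i
    exact edge3_nonneg h0 h1 (h.nonneg s) i
  · intro i
    simp_rw [edge_eq]
    rw [sum_add_distrib, ← mul_sum, ← mul_sum, h.mass, h.ms_sum (by norm_num)]
    ring
  · intro p F
    have h2 := h.symm p (fun v => F (P154.edge 3 lam v))
    have h3 : ∀ s, F (P154.edge 3 lam (fun i => L s (p i))) =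
        F (fun i => P154.edge 3 lam (L s) (p i)) := by
      intro s
      congr 1
      funext i
      rw [edge_eq, edge_eq]
      have : ms 3 (fun i => L s (p i)) = ms 3 (L s) := by
        unfold ms
        rw [Equiv.sum_comp p (fun i => L s i)]
      rw [this]
    simp_rw [h3] at h2
    exact h2

theorem chTree : StmtChTree := by
  intro lam h0 h1 n T
  refine ⟨?_, ?_, ?_⟩
  · intro s i
    apply like_nonneg
    exact potts3_nonneg h0 h1
  · exact fun i => like_sum (by norm_num) n T i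
  · intro p F
    rw [← (relabel p n T).sum_comp (fun s => F (fun i => tch 3 lam n T s (p i)))]
    apply sum_congr rfl
    intro s _
    congr 1
    funext i
    exact like_relabel lam p n T i s

theorem advU : StmtAdv := by
  intro lam h0 h1 n T eta heta
  have hq0 : 0 < 3 := by norm_num
  have hq1 : (0 : ℝ) < (3 : ℕ) := by norm_num
  have hp := potts3_nonneg h0 h1
  have hch := chTree lam h0 h1 n T
  rw [adv_eq hq0 hp, sum_comm]
  have key : ∀ s : Bdry 3 n T, ∑ i : Fin 3, |like 3 lam n T i s - prob 3 lam n T s| ≤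
      ((3 : ℕ) * eta / 2) * ms 3 (tch 3 lam n T s) +
        ((3 : ℕ) / (2 * eta)) * hom 3 (uFn 3) (tch 3 lam n T s) := by
    intro s
    have hm : prob 3 lam n T s = ms 3 (tch 3 lam n T s) := rfl
    set v := tch 3 lam n T s with hv
    have hvi : ∀ i, like 3 lam n T i s = v i := fun i => rfl
    have hv0 : ∀ i, 0 ≤ v i := hch.nonneg s
    simp only [hm, hvi]
    by_cases hz : ms 3 v = 0
    · have h2 : ∀ i, v i = 0 := eq_zero_of_ms hq0 hv0 hz
      rw [hom_of_ms_zero _ hz]
      simp [h2, hz]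
    have hpos : 0 < ms 3 v := lt_of_le_of_ne (ms_nonneg hv0) (Ne.symm hz)
    have h3 : ∀ i, |v i - ms 3 v| ≤ ms 3 v * (eta / 2 + (v i / ms 3 v - 1) ^ 2 / (2 * eta)) := by
      intro i
      set x := v i / ms 3 v - 1 with hx
      have e1 : v i - ms 3 v = ms 3 v * x := by
        rw [hx]
        field_simp
      rw [e1, abs_mul, abs_of_pos hpos]
      apply mul_le_mul_of_nonneg_left _ hpos.le
      have e2 : eta / 2 + x ^ 2 / (2 * eta) - |x| = (|x| - eta) ^ 2 / (2 * eta) := by
        rw [← sq_abs x]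
        field_simp
        ring
      have e3 : 0 ≤ (|x| - eta) ^ 2 / (2 * eta) := by positivity
      linarith
    refine (sum_le_sum fun i _ => h3 i).trans (le_of_eq ?_)
    rw [← mul_sum, sum_add_distrib, hom_eq]
    unfold uFn
    have h6 : ∑ i, (v i / ms 3 v - 1) ^ 2 / (2 * eta) =
        (∑ i, (v i / ms 3 v - 1) ^ 2) / (2 * eta) := (sum_div _ _ _).symm
    rw [h6]
    simp only [sum_const, card_univ, Fintype.card_fin, nsmul_eq_mul]
    set Z := ∑ i, (v i / ms 3 v - 1) ^ 2 with hZ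
    clear_value Z
    field_simp
  have h4 := sum_le_sum (fun s (_ : s ∈ (univ : Finset (Bdry 3 n T))) => key s)
  rw [sum_add_distrib, ← mul_sum, ← mul_sum, hch.ms_sum hq0] at h4
  have h5 : ∑ s, hom 3 (uFn 3) (tch 3 lam n T s) = ev (uFn 3) (tch 3 lam n T) := rfl
  rw [h5] at h4
  calc 1 / (2 * ((3 : ℕ) : ℝ)) * _ ≤ 1 / (2 * ((3 : ℕ) : ℝ)) *
        ((3 : ℕ) * eta / 2 * 1 + (3 : ℕ) / (2 * eta) * ev (uFn 3) (tch 3 lam n T)) :=
        mul_le_mul_of_nonneg_left h4 (by positivity)
    _ = eta / 4 + 1 / (4 * eta) * ev (uFn 3) (tch 3 lam n T) := by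
        push_cast
        field_simp
        ring

end Vale.Agent.P154.AF
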