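import Vale.Agent.P154AF.Data

/-! Region of the two symmetric functions `u`, `w` of a normalised three-vector, and the
reduction of the contraction inequality to two one-variable families (helper file). -/

namespace Vale.Agent.P154.AF.CtrLib

open Finset

theorem sum_eq {b : V3} (h : Norm 3 b) : b 2 = 3 - b 0 - b 1 := by
  have := h.2
  rw [Fin.sum_univ_three] at this
  push_cast at this
  linarith

theorem u_eq (b : V3) : uFn 3 b =
    (1 / 3) * ((b 0 - 1) ^ 2 + (b 1 - 1) ^ 2 + (b 2 - 1) ^ 2) := by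
  unfold uFn
  rw [Fin.sum_univ_three]
  push_cast
  ring

theorem u_nonneg (b : V3) : 0 ≤ uFn 3 b := by
  rw [u_eq]
  positivity

theorem u_le {b : V3} (h : Norm 3 b) : uFn 3 b ≤ 2 := by
  rw [u_eq, sum_eq h]
  have h0 := h.1 0
  have h1 := h.1 1
  have h2 := h.1 2
  rw [sum_eq h] at h2
  nlinarith [mul_nonneg h0 h1, mul_nonneg h0 h2, mul_nonneg h1 h2]

theorem w_sq {b : V3} (h : Norm 3 b) : 2 * wFn b ^ 2 ≤ uFn 3 b ^ 3 := by
  have e : uFn 3 b ^ 3 - 2 * wFn b ^ 2 =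
      (2 / 27) * ((b 0 - b 1) * (2 * (b 0 - 1) + (b 1 - 1)) * ((b 0 - 1) + 2 * (b 1 - 1))) ^ 2 := by
    rw [u_eq]
    unfold wFn
    rw [sum_eq h]
    ring
  have : 0 ≤ (2 / 27) * ((b 0 - b 1) * (2 * (b 0 - 1) + (b 1 - 1)) *
      ((b 0 - 1) + 2 * (b 1 - 1))) ^ 2 := by positivity
  linarith

theorem w_ge {b : V3} (h : Norm 3 b) : 3 / 2 * uFn 3 b - 1 ≤ wFn b := by
  have e : wFn b - 3 / 2 * uFn 3 b + 1 = b 0 * b 1 * b 2 := by
    rw [u_eq]
    unfold wFn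
    rw [sum_eq h]
    ring
  have : 0 ≤ b 0 * b 1 * b 2 := mul_nonneg (mul_nonneg (h.1 0) (h.1 1)) (h.1 2)
  linarith

theorem u_en (t : ℝ) (b : V3) : uFn 3 (en t b) = t ^ 2 * uFn 3 b := by
  rw [u_eq, u_eq]
  unfold en
  ring

theorem w_en (t : ℝ) (b : V3) : wFn (en t b) = t ^ 3 * wFn b := by
  unfold wFn en
  ring

/-- the slope `r = w / u` -/
theorem slope {b : V3} (h : Norm 3 b) (hu : 0 < uFn 3 b) :
    ∃ r : ℝ, wFn b = r * uFn 3 b ∧ -1 / 2 ≤ r ∧ r ≤ 1 ∧ 2 * r ^ 2 ≤ uFn 3 b ∧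
      uFn 3 b * (3 - 2 * r) ≤ 2 := by
  set u := uFn 3 b with hu'
  have h1 : u ≤ 2 := u_le h
  have h2 : 2 * wFn b ^ 2 ≤ u ^ 3 := w_sq h
  have h3 : 3 / 2 * u - 1 ≤ wFn b := w_ge h
  refine ⟨wFn b / u, by field_simp, ?_⟩
  have hw : wFn b = wFn b / u * u := by field_simp
  set r := wFn b / u
  rw [hw] at h2 h3
  have h4 : 2 * r ^ 2 ≤ u := by
    have : u ^ 2 * (2 * r ^ 2) ≤ u ^ 2 * u := by nlinarith
    exact le_of_mul_le_mul_left this (by positivity)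
  have h5 : u * (3 - 2 * r) ≤ 2 := by nlinarith
  have h6 : r ≤ 1 := by nlinarith
  have h7 : -1 / 2 ≤ r := by
    by_contra hc
    push Not at hc
    have a1 : 0 < 3 - 2 * r := by linarith
    have a2 : 2 * r ^ 2 * (3 - 2 * r) ≤ 2 := le_trans (mul_le_mul_of_nonneg_right h4 a1.le) h5
    have a3 : 1 / 4 < r ^ 2 := by nlinarith
    nlinarith
  exact ⟨h7, h6, h4, h5⟩

theorem core (A B r u : ℝ) (h1 : 2 * r ^ 2 ≤ u) (h2 : u * (3 - 2 * r) ≤ 2) (hr : r ≤ 1)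
    (hE1 : 0 ≤ A + 2 * r ^ 2 * B) (hE2 : 0 ≤ (3 - 2 * r) * A + 2 * B) : 0 ≤ A + u * B := by
  rcases le_total 0 B with hB | hB
  · have := mul_le_mul_of_nonneg_right h1 hB
    linarith
  · have a1 : 0 < 3 - 2 * r := by linarith
    have a2 : 2 * B ≤ u * (3 - 2 * r) * B := by nlinarith
    have a3 : 0 ≤ (3 - 2 * r) * (A + u * B) := by nlinarith
    exact nonneg_of_mul_nonneg_right (by linarith) a1

end Vale.Agent.P154.AF.CtrLib
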