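import Vale.Agent.P154AF.Core

/-! The three potentials (helper file). -/

namespace Vale.Agent.P154.AF

noncomputable def F5 (A : V3) : ℝ := uFn 3 A + 521/10000 * uFn 3 A ^ 2 +
  564/10000 * (uFn 3 A * wFn A) - 188/10000 * uFn 3 A ^ 3 + 572/10000 * wFn A ^ 2 +
  307/10000 * (uFn 3 A ^ 2 * wFn A)

noncomputable def F4 (A : V3) : ℝ := uFn 3 A + 450/10000 * uFn 3 A ^ 2 +
  988/10000 * (uFn 3 A * wFn A) + 611/10000 * uFn 3 A ^ 3 - 64/10000 * wFn A ^ 2 -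
  562/10000 * (uFn 3 A ^ 2 * wFn A)

noncomputable def FP (A : V3) : ℝ := uFn 3 A + 243/10000 * uFn 3 A ^ 2 +
  595/10000 * (uFn 3 A * wFn A) + 55/10000 * uFn 3 A ^ 3 + 855/10000 * wFn A ^ 2 +
  129/10000 * (uFn 3 A ^ 2 * wFn A) + 32/10000 * uFn 3 A ^ 4

def StmtCtr5 : Prop := Ctr F5 ∧ Rng F5 ((69/125) / (-17/38) ^ 2)
def StmtCtr4 : Prop := Ctr F4 ∧ Rng F4 3
def StmtCtrP : Prop := Ctr FP ∧ Rng FP (288/100)

end Vale.Agent.P154.AF
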