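import Vale.Agent.P154AF.Data
import Vale.Agent.P154AF.Eng

/-! Statements on the quantised run (helper file). -/

namespace Vale.Agent.P154.AF

open Finset Eng

/-- the mesh vector -/
noncomputable def mp (p : P3) : V3 := ![(p.a : ℝ) / 10, (p.b : ℝ) / 10, (p.c : ℝ) / 10]

/-- value of a weighted list of mesh points -/
noncomputable def wval (Phi : V3 → ℝ) : List P3 → List ℕ → ℝ
  | p :: ps, w :: ws => (w : ℝ) * sy Phi (mp p) + wval Phi ps ws
  | _, _ => 0

/-- domination by the mesh law with weights `W` (normalisation `2 ^ 24`) -/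
def DomW {S : Type} [Fintype S] (L : S → V3) (W : List ℕ) : Prop :=
  ∀ Phi : V3 → ℝ, SL Phi → (16777216 : ℝ) * ∑ s, Phi (L s) ≤ wval Phi ptsG W

/-- first stage: two children after an edge with `-1/2 ≤ lam ≤ 0` -/
def StmtStage1 : Prop :=
  ∀ (W O : List ℕ), (tabF (ptsG.map edg) fun T1 => stg 120795955200 ptsT T1 W O) = true →
    W.length = 91 → sumL W = 16777216 →
    ∀ (lam : ℝ), -1/2 ≤ lam → lam ≤ 0 → ∀ (S : Type) [Fintype S] (L : S → V3), Chan L →
      DomW L W →
      DomW (fun s : S × S => fun a => edge 3 lam (L s.1) a * edge 3 lam (L s.2) a) O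

/-- second stage: product of two independent copies -/
def StmtStage2 : Prop :=
  ∀ (O W' : List ℕ), (tabF ptsG fun T2 => stg 30198988800 ptsT T2 O W') = true →
    O.length = 91 → sumL O = 16777216 →
    ∀ (S : Type) [Fintype S] (L : S → V3), Chan L → DomW L O →
      DomW (fun s : S × S => fun a => L s.1 a * L s.2 a) W'

/-- a block of generations -/
def StmtRun : Prop :=
  ∀ (W : List ℕ) (data : List (List ℕ × List ℕ)), run W data = true → W.length = 91 →
    sumL W = 16777216 →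
    (lastW W data).length = 91 ∧ sumL (lastW W data) = 16777216 ∧
    ∀ (d : ℕ) (lam : ℝ), d ≤ 4 → -1/2 ≤ lam → lam ≤ 0 → ∀ n : ℕ,
      DomW (tch 3 lam n (dary d n)) W →
      DomW (tch 3 lam (n + data.length) (dary d (n + data.length))) (lastW W data)

/-- the start: all mass at the vertex -/
def StmtStart : Prop :=
  ∀ (d : ℕ) (lam : ℝ),
    DomW (tch 3 lam 0 (dary d 0)) (16777216 :: List.replicate 90 0)

/-- convex upper bound of the potential `F4` -/
noncomputable def Fhat (A : V3) : ℝ :=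
  uFn 3 A + 11/100 * uFn 3 A ^ 2 + 4/100 * uFn 3 A ^ 3

def StmtF4hat : Prop := ∀ A : V3, Norm 3 A → F4 A ≤ Fhat A

/-- integer value of `Fhat` at mesh points; with `U = ∑ (a_i - 10)^2`, `u = U / 300`:
`27 * 10 ^ 8 * Fhat = 9 * 10 ^ 6 * U + 3300 * U ^ 2 + 4 * U ^ 3` -/
def fhN : List P3 → List ℕ → ℕ
  | p :: ps, w :: ws =>
    let U : ℕ := ((p.a : ℤ) - 10).natAbs ^ 2 + ((p.b : ℤ) - 10).natAbs ^ 2 +
      ((p.c : ℤ) - 10).natAbs ^ 2
    w * (9000000 * U + 3300 * U ^ 2 + 4 * U ^ 3) + fhN ps ws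
  | _, _ => 0

/-- conclusion: the expected potential after a run -/
def StmtEnd : Prop :=
  ∀ (W : List ℕ), 100 * fhN ptsG W ≤ 38 * 16777216 * 2700000000 →
    ∀ (d n : ℕ) (lam : ℝ), -1/2 ≤ lam → lam ≤ 0 →
      DomW (tch 3 lam n (dary d n)) W → KF F4 d lam n ≤ 38 / 100

end Vale.Agent.P154.AF
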