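import Vale.Agent.P154AF.SL2
import Vale.Agent.P154AF.EngS
import Vale.Agent.P154.MSym

/-! Soundness of one stage of the quantised run. -/

namespace Vale.Agent.P154.AF.ENG1

open Finset Eng

/-! ### symmetrised sublinear functions -/

theorem sy_SL {Phi : V3 → ℝ} (h : SL Phi) : SL (sy Phi) where
  hom := by
    intro c hc v hv
    unfold sy
    have : ∀ p : Equiv.Perm (Fin 3), Phi (fun i => c * v (p i)) = c * Phi (fun i => v (p i)) :=
      fun p => h.hom c hc (fun i => v (p i)) (fun i => hv (p i))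
    simp_rw [this]
    rw [← mul_sum]
    ring
  sub := by
    intro v w hv hw
    unfold sy
    rw [← mul_add, ← sum_add_distrib]
    refine mul_le_mul_of_nonneg_left (sum_le_sum fun p _ => ?_) (by norm_num)
    exact h.sub (fun i => v (p i)) (fun i => w (p i)) (fun i => hv (p i)) (fun i => hw (p i))

theorem sy_perm (Phi : V3 → ℝ) (v : V3) (r : Equiv.Perm (Fin 3)) :
    sy Phi (fun i => v (r i)) = sy Phi v := by
  unfold sy
  congr 1
  rw [← Equiv.sum_comp (Equiv.mulLeft r) (fun p : Equiv.Perm (Fin 3) => Phi (fun i => v (p i)))]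
  rfl

theorem sy_swap01 (Phi : V3 → ℝ) (x y z : ℝ) : sy Phi ![y, x, z] = sy Phi ![x, y, z] := by
  rw [← sy_perm Phi ![x, y, z] (Equiv.swap 0 1)]
  congr 1
  funext i
  fin_cases i <;> rfl

theorem sy_swap12 (Phi : V3 → ℝ) (x y z : ℝ) : sy Phi ![x, z, y] = sy Phi ![x, y, z] := by
  rw [← sy_perm Phi ![x, y, z] (Equiv.swap 1 2)]
  congr 1
  funext i
  fin_cases i <;> rfl

/-! ### positions -/

/-- triple of a position -/
def dec (k : ℕ) : P3 := ⟨30 - k / 13 - k % 13, k / 13, k % 13⟩

theorem pos2_spec (Phi : V3 → ℝ) {lo md hi : ℕ} (h1 : lo ≤ md) (h2 : md ≤ hi)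
    (h : lo + md + hi = 30) :
    pos2 lo md < 208 ∧ sy Phi (mp (dec (pos2 lo md))) = sy Phi (mp ⟨hi, md, lo⟩) := by
  have e : pos2 lo md = md * 13 + lo := rfl
  have hlo : lo < 13 := by omega
  have a1 : (md * 13 + lo) / 13 = md := by omega
  have a2 : (md * 13 + lo) % 13 = lo := by omega
  rw [e]
  refine ⟨by omega, ?_⟩
  unfold dec
  rw [a1, a2]
  have a3 : 30 - md - lo = hi := by omega
  rw [a3]

theorem pos_spec (Phi : V3 → ℝ) {a b c : ℕ} (h : a + b + c = 30) :
    pos a b c < 208 ∧ sy Phi (mp (dec (pos a b c))) = sy Phi (mp ⟨a, b, c⟩) := by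
  unfold pos
  have key : ∀ x y z : ℝ, sy Phi ![y, x, z] = sy Phi ![x, y, z] := sy_swap01 Phi
  have key' : ∀ x y z : ℝ, sy Phi ![x, z, y] = sy Phi ![x, y, z] := sy_swap12 Phi
  by_cases hab : a ≤ b
  · rw [Nat.ble_eq_true_of_le hab, cond_true]
    by_cases hbc : b ≤ c
    · rw [Nat.ble_eq_true_of_le hbc, cond_true]
      obtain ⟨h1, h2⟩ := pos2_spec Phi hab hbc (by omega)
      refine ⟨h1, h2.trans ?_⟩
      show sy Phi ![_, _, _] = sy Phi ![_, _, _]
      rw [key', key, key']
    · have hbc' : Nat.ble b c = false := by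
        rw [Bool.eq_false_iff]
        intro e
        exact hbc (Nat.le_of_ble_eq_true e)
      rw [hbc', cond_false]
      by_cases hac : a ≤ c
      · rw [Nat.ble_eq_true_of_le hac, cond_true]
        obtain ⟨h1, h2⟩ := pos2_spec Phi hac (by omega : c ≤ b) (by omega)
        refine ⟨h1, h2.trans ?_⟩
        show sy Phi ![_, _, _] = sy Phi ![_, _, _]
        rw [key', key]
      · have hac' : Nat.ble a c = false := by
          rw [Bool.eq_false_iff]
          intro e
          exact hac (Nat.le_of_ble_eq_true e)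
        rw [hac', cond_false]
        obtain ⟨h1, h2⟩ := pos2_spec Phi (by omega : c ≤ a) hab (by omega)
        refine ⟨h1, h2.trans ?_⟩
        show sy Phi ![_, _, _] = sy Phi ![_, _, _]
        rw [key]
  · have hab' : Nat.ble a b = false := by
      rw [Bool.eq_false_iff]
      intro e
      exact hab (Nat.le_of_ble_eq_true e)
    rw [hab', cond_false]
    by_cases hac : a ≤ c
    · rw [Nat.ble_eq_true_of_le hac, cond_true]
      obtain ⟨h1, h2⟩ := pos2_spec Phi (by omega : b ≤ a) hac (by omega)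
      refine ⟨h1, h2.trans ?_⟩
      show sy Phi ![_, _, _] = sy Phi ![_, _, _]
      rw [key, key']
    · have hac' : Nat.ble a c = false := by
        rw [Bool.eq_false_iff]
        intro e
        exact hac (Nat.le_of_ble_eq_true e)
      rw [hac', cond_false]
      by_cases hbc : b ≤ c
      · rw [Nat.ble_eq_true_of_le hbc, cond_true]
        obtain ⟨h1, h2⟩ := pos2_spec Phi hbc (by omega : c ≤ a) (by omega)
        refine ⟨h1, h2.trans ?_⟩
        show sy Phi ![_, _, _] = sy Phi ![_, _, _]
        rw [key']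
      · have hbc' : Nat.ble b c = false := by
          rw [Bool.eq_false_iff]
          intro e
          exact hbc (Nat.le_of_ble_eq_true e)
        rw [hbc', cond_false]
        exact pos2_spec Phi (by omega : c ≤ b) (by omega : b ≤ a) (by omega)

/-! ### representation by digits -/

/-- `X` encodes nonnegative coefficients of total `m` whose value bounds `v` -/
def Rep (Phi : V3 → ℝ) (X m : ℕ) (v : ℝ) : Prop :=
  ∃ g : ℕ → ℕ, X = ∑ k ∈ range 208, g k * 2 ^ (64 * k) ∧ ∑ k ∈ range 208, g k = m ∧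
    v ≤ ∑ k ∈ range 208, (g k : ℝ) * sy Phi (mp (dec k))

theorem rep_zero (Phi : V3 → ℝ) : Rep Phi 0 0 0 :=
  ⟨fun _ => 0, by simp, by simp, by simp⟩

theorem rep_add {Phi : V3 → ℝ} {X Y m n : ℕ} {v w : ℝ} (h1 : Rep Phi X m v)
    (h2 : Rep Phi Y n w) : Rep Phi (X + Y) (m + n) (v + w) := by
  obtain ⟨g, a1, a2, a3⟩ := h1
  obtain ⟨f, b1, b2, b3⟩ := h2
  refine ⟨fun k => g k + f k, ?_, ?_, ?_⟩
  · rw [a1, b1, ← sum_add_distrib]
    exact sum_congr rfl fun k _ => by ring
  · rw [← a2, ← b2, ← sum_add_distrib]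
  · refine (add_le_add a3 b3).trans (le_of_eq ?_)
    rw [← sum_add_distrib]
    refine sum_congr rfl fun k _ => ?_
    push_cast
    ring

theorem rep_mul {Phi : V3 → ℝ} {X m : ℕ} {v : ℝ} (c : ℕ) (h : Rep Phi X m v) :
    Rep Phi (c * X) (c * m) (c * v) := by
  obtain ⟨g, a1, a2, a3⟩ := h
  refine ⟨fun k => c * g k, ?_, ?_, ?_⟩
  · rw [a1, mul_sum]
    exact sum_congr rfl fun k _ => by ring
  · rw [← a2, mul_sum]
  · refine (mul_le_mul_of_nonneg_left a3 (Nat.cast_nonneg c)).trans (le_of_eq ?_)
    rw [mul_sum]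
    refine sum_congr rfl fun k _ => ?_
    push_cast
    ring

theorem Rep.mono {Phi : V3 → ℝ} {X m : ℕ} {v w : ℝ} (h : Rep Phi X m v) (hw : w ≤ v) :
    Rep Phi X m w := by
  obtain ⟨g, a1, a2, a3⟩ := h
  exact ⟨g, a1, a2, hw.trans a3⟩

theorem rep_tm (Phi : V3 → ℝ) (r : ℕ) {a b c : ℕ} (h : a + b + c = 30) :
    Rep Phi (tm r (pos a b c)) r (r * sy Phi (mp ⟨a, b, c⟩)) := by
  obtain ⟨h1, h2⟩ := pos_spec Phi h
  have hm : pos a b c ∈ range 208 := mem_range.mpr h1
  refine ⟨fun k => if k = pos a b c then r else 0, ?_, ?_, ?_⟩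
  · have e : tm r (pos a b c) = r * 2 ^ (64 * pos a b c) := Nat.shiftLeft_eq _ _
    rw [e]
    simp_rw [ite_mul, zero_mul]
    rw [sum_ite_eq_of_mem' _ _ _ hm]
  · rw [sum_ite_eq_of_mem' _ _ _ hm]
  · refine le_of_eq ?_
    have : ∀ k, (((if k = pos a b c then r else 0 : ℕ)) : ℝ) * sy Phi (mp (dec k)) =
        if k = pos a b c then (r : ℝ) * sy Phi (mp (dec k)) else 0 := by
      intro k
      split_ifs <;> simp
    simp_rw [this]
    rw [sum_ite_eq_of_mem' _ _ _ hm, h2]

/-! ### the contribution of a vector -/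

theorem frc_eq (x : ℕ) (k : ℕ → ℕ) : frc x k = k x := by
  cases x <;> rfl

theorem frcB_eq (x : ℕ) (k : ℕ → Bool) : frcB x k = k x := by
  cases x <;> rfl

/-- three mesh points with natural weights -/
theorem three_le {Psi : V3 → ℝ} (h : SL Psi) (v : V3) (m1 m2 m3 : ℕ) (q1 q2 q3 : V3)
    (hq1 : ∀ i, 0 ≤ q1 i) (hq2 : ∀ i, 0 ≤ q2 i) (hq3 : ∀ i, 0 ≤ q3 i) (hv : ∀ i, 0 ≤ v i)
    (he : ∀ i, 3 * v i = m1 * q1 i + (m2 * q2 i + m3 * q3 i)) :
    3 * Psi v ≤ m1 * Psi q1 + (m2 * Psi q2 + m3 * Psi q3) := by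
  have n1 : ∀ (m : ℕ) (q : V3), (∀ i, 0 ≤ q i) → ∀ i, 0 ≤ (m : ℝ) * q i :=
    fun m q hq i => mul_nonneg (Nat.cast_nonneg m) (hq i)
  have e : (fun i => 3 * v i) =
      fun i => (fun i => (m1 : ℝ) * q1 i) i + (fun i => (m2 : ℝ) * q2 i + m3 * q3 i) i :=
    funext he
  have a0 := h.hom 3 (by norm_num) v hv
  have a1 := h.sub (fun i => (m1 : ℝ) * q1 i) (fun i => (m2 : ℝ) * q2 i + m3 * q3 i)
    (n1 m1 q1 hq1) (fun i => add_nonneg (n1 m2 q2 hq2 i) (n1 m3 q3 hq3 i))
  have a2 := h.sub (fun i => (m2 : ℝ) * q2 i) (fun i => (m3 : ℝ) * q3 i)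
    (n1 m2 q2 hq2) (n1 m3 q3 hq3)
  have b1 := h.hom m1 (Nat.cast_nonneg _) q1 hq1
  have b2 := h.hom m2 (Nat.cast_nonneg _) q2 hq2
  have b3 := h.hom m3 (Nat.cast_nonneg _) q3 hq3
  rw [← a0, e]
  linarith

theorem mp_nonneg (p : P3) (i : Fin 3) : 0 ≤ mp p i := by
  unfold mp
  fin_cases i <;> simp <;> positivity

/-- natural vector -/
noncomputable def nv (p : P3) : V3 := ![(p.a : ℝ), (p.b : ℝ), (p.c : ℝ)]

theorem nv_nonneg (p : P3) (i : Fin 3) : 0 ≤ nv p i := by
  unfold nv
  fin_cases i <;> simp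

theorem rep_contrib {Phi : V3 → ℝ} (h : SL Phi) (x y z : ℕ) :
    Rep Phi (contrib x y z) (x + y + z) (3 * sy Phi (nv ⟨x, y, z⟩)) := by
  have hsy := sy_SL h
  have hS : Nat.add x (Nat.add y z) = x + y + z := by
    show x + (y + z) = _
    ring
  unfold contrib
  simp only [frc_eq]
  rw [hS]
  generalize hSS : x + y + z = S
  rcases Nat.eq_zero_or_pos S with h0 | hpos
  · subst h0
    have hx : x = 0 := by omega
    have hy : y = 0 := by omega
    have hz : z = 0 := by omega
    subst hx hy hz
    have e : nv ⟨0, 0, 0⟩ = fun _ => 0 := by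
      funext i
      unfold nv
      fin_cases i <;> simp
    rw [e, hsy.zero]
    have := rep_zero Phi
    simpa using this
  · have hb : Nat.beq S 0 = false := by
      rw [Bool.eq_false_iff]
      intro e
      have := Nat.eq_of_beq_eq_true e
      omega
    rw [hb, cond_false]
    have ex : ∀ u : ℕ, Nat.mul 30 u = S * Nat.div (Nat.mul 30 u) S + Nat.mod (Nat.mul 30 u) S :=
      fun u => (Nat.div_add_mod (30 * u) S).symm
    have lx : ∀ u : ℕ, Nat.mod (Nat.mul 30 u) S < S := fun u => Nat.mod_lt _ hpos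
    have e30 : ∀ u : ℕ, Nat.mul 30 u = 30 * u := fun u => rfl
    have ex1 := ex x
    have ey1 := ex y
    have ez1 := ex z
    have lx1 := lx x
    have ly1 := lx y
    have lz1 := lx z
    generalize Nat.div (Nat.mul 30 x) S = fx at *
    generalize Nat.div (Nat.mul 30 y) S = fy at *
    generalize Nat.div (Nat.mul 30 z) S = fz at *
    generalize Nat.mod (Nat.mul 30 x) S = rx at *
    generalize Nat.mod (Nat.mul 30 y) S = ry at *
    generalize Nat.mod (Nat.mul 30 z) S = rz at *
    rw [e30] at ex1 ey1 ez1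
    have hsum : 30 * S = S * (fx + (fy + fz)) + (rx + (ry + rz)) := by
      rw [← hSS, Nat.mul_add, Nat.mul_add, ex1, ey1, ez1]
      rw [hSS]
      ring
    have hf : Nat.add fx (Nat.add fy fz) = fx + (fy + fz) := rfl
    rw [hf]
    have hle : fx + (fy + fz) ≤ 30 := by
      by_contra hc
      have h31 : 31 ≤ fx + (fy + fz) := by omega
      have := Nat.mul_le_mul_left S h31
      omega
    have hge : 28 ≤ fx + (fy + fz) := by
      by_contra hc
      have h27 : fx + (fy + fz) ≤ 27 := by omega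
      have := Nat.mul_le_mul_left S h27
      omega
    have ht : Nat.sub 30 (fx + (fy + fz)) = 30 - (fx + (fy + fz)) := rfl
    rw [ht]
    have hvn := nv_nonneg ⟨x, y, z⟩
    have rx' : (30 : ℝ) * x = S * fx + rx := by exact_mod_cast ex1
    have ry' : (30 : ℝ) * y = S * fy + ry := by exact_mod_cast ey1
    have rz' : (30 : ℝ) * z = S * fz + rz := by exact_mod_cast ez1
    obtain hc | hc | hc : fx + (fy + fz) = 30 ∨ fx + (fy + fz) = 29 ∨ fx + (fy + fz) = 28 := by
      omega
    · -- no remainder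
      rw [hc] at hsum ⊢
      have hr : rx + (ry + rz) = 0 := by omega
      have hrx : rx = 0 := by omega
      have hry : ry = 0 := by omega
      have hrz : rz = 0 := by omega
      subst hrx hry hrz
      show Rep Phi (tm S (pos fx fy fz)) S _
      refine (rep_tm Phi S (a := fx) (b := fy) (c := fz) (by omega)).mono ?_
      have key := three_le hsy (nv ⟨x, y, z⟩) S 0 0 (mp ⟨fx, fy, fz⟩) (mp ⟨fx, fy, fz⟩)
        (mp ⟨fx, fy, fz⟩) (mp_nonneg _) (mp_nonneg _) (mp_nonneg _) hvn ?_
      · simpa using key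
      · intro i
        unfold nv mp
        fin_cases i
        · simp
          simp at rx'
          linarith
        · simp
          simp at ry'
          linarith
        · simp
          simp at rz'
          linarith
    · -- total remainder `S`
      rw [hc] at hsum ⊢
      have hr : rx + (ry + rz) = S := by omega
      have hrr : (rx : ℝ) + (ry + rz) = S := by exact_mod_cast hr
      show Rep Phi (tm rx (pos (fx + 1) fy fz) + (tm ry (pos fx (fy + 1) fz) +
        tm rz (pos fx fy (fz + 1)))) S _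
      have hR := rep_add (rep_tm Phi rx (a := fx + 1) (b := fy) (c := fz) (by omega))
        (rep_add (rep_tm Phi ry (a := fx) (b := fy + 1) (c := fz) (by omega))
          (rep_tm Phi rz (a := fx) (b := fy) (c := fz + 1) (by omega)))
      rw [hr] at hR
      refine hR.mono ?_
      refine three_le hsy (nv ⟨x, y, z⟩) rx ry rz (mp ⟨fx + 1, fy, fz⟩) (mp ⟨fx, fy + 1, fz⟩)
        (mp ⟨fx, fy, fz + 1⟩) (mp_nonneg _) (mp_nonneg _) (mp_nonneg _) hvn ?_
      intro i
      unfold nv mp
      fin_cases i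
      · simp
        rw [← hrr] at rx'
        linarith
      · simp
        rw [← hrr] at ry'
        linarith
      · simp
        rw [← hrr] at rz'
        linarith
    · -- total remainder `2 S`
      rw [hc] at hsum ⊢
      have hr : rx + (ry + rz) = 2 * S := by omega
      have hrr : (rx : ℝ) + (ry + rz) = 2 * S := by exact_mod_cast hr
      show Rep Phi (tm (S - rx) (pos fx (fy + 1) (fz + 1)) + (tm (S - ry) (pos (fx + 1) fy (fz + 1))
        + tm (S - rz) (pos (fx + 1) (fy + 1) fz))) S _
      have hR := rep_add (rep_tm Phi (S - rx) (a := fx) (b := fy + 1) (c := fz + 1) (by omega))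
        (rep_add (rep_tm Phi (S - ry) (a := fx + 1) (b := fy) (c := fz + 1) (by omega))
          (rep_tm Phi (S - rz) (a := fx + 1) (b := fy + 1) (c := fz) (by omega)))
      have hm : S - rx + (S - ry + (S - rz)) = S := by omega
      rw [hm] at hR
      refine hR.mono ?_
      refine three_le hsy (nv ⟨x, y, z⟩) (S - rx) (S - ry) (S - rz) (mp ⟨fx, fy + 1, fz + 1⟩)
        (mp ⟨fx + 1, fy, fz + 1⟩)
        (mp ⟨fx + 1, fy + 1, fz⟩) (mp_nonneg _) (mp_nonneg _) (mp_nonneg _) hvn ?_
      have c1 : ((S - rx : ℕ) : ℝ) = S - rx := by push_cast [lx1.le]; ring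
      have c2 : ((S - ry : ℕ) : ℝ) = S - ry := by push_cast [ly1.le]; ring
      have c3 : ((S - rz : ℕ) : ℝ) = S - rz := by push_cast [lz1.le]; ring
      have hrz : (rz : ℝ) = 2 * S - rx - ry := by linarith
      rw [c1, c2, c3]
      intro i
      unfold nv mp
      fin_cases i
      · simp
        rw [hrz]
        linarith
      · simp
        rw [hrz]
        linarith
      · simp
        rw [hrz]
        linarith

/-! ### six products -/

/-- symmetric bilinear value of two triples -/
noncomputable def bv (Phi : V3 → ℝ) (x y : P3) : ℝ :=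
  3 * ∑ p : Equiv.Perm (Fin 3), sy Phi (fun a => nv x a * nv y (p a))

theorem bv_comm (Phi : V3 → ℝ) (x y : P3) : bv Phi x y = bv Phi y x := by
  unfold bv
  congr 1
  rw [← Equiv.sum_comp (Equiv.inv (Equiv.Perm (Fin 3)))]
  refine sum_congr rfl fun p _ => ?_
  rw [← sy_perm Phi (fun a => nv x a * nv y ((Equiv.inv (Equiv.Perm (Fin 3))) p a)) p]
  congr 1
  funext a
  simp [mul_comm]

theorem nv_mul (x y : P3) (i j k : Fin 3) (u v w : ℕ) (hu : nv y i = u) (hv : nv y j = v)
    (hw : nv y k = w) (p : Equiv.Perm (Fin 3)) (h0 : p 0 = i) (h1 : p 1 = j) (h2 : p 2 = k) :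
    (fun a => nv x a * nv y (p a)) = nv ⟨x.a * u, x.b * v, x.c * w⟩ := by
  funext a
  fin_cases a
  · show nv x 0 * nv y (p 0) = _
    rw [h0, hu]
    simp [nv]
  · show nv x 1 * nv y (p 1) = _
    rw [h1, hv]
    simp [nv]
  · show nv x 2 * nv y (p 2) = _
    rw [h2, hw]
    simp [nv]

theorem sum_six (Phi : V3 → ℝ) (x y : P3) :
    ∑ p : Equiv.Perm (Fin 3), sy Phi (fun a => nv x a * nv y (p a)) =
      sy Phi (nv ⟨x.a * y.a, x.b * y.b, x.c * y.c⟩) +
      (sy Phi (nv ⟨x.a * y.a, x.b * y.c, x.c * y.b⟩) +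
      (sy Phi (nv ⟨x.a * y.b, x.b * y.a, x.c * y.c⟩) +
      (sy Phi (nv ⟨x.a * y.b, x.b * y.c, x.c * y.a⟩) +
      (sy Phi (nv ⟨x.a * y.c, x.b * y.a, x.c * y.b⟩) +
       sy Phi (nv ⟨x.a * y.c, x.b * y.b, x.c * y.a⟩))))) := by
  have h := sum_perm3 (fun i j k => sy Phi ![nv x 0 * nv y i, nv x 1 * nv y j, nv x 2 * nv y k])
  have e : ∀ p : Equiv.Perm (Fin 3), (fun a => nv x a * nv y (p a)) =
      ![nv x 0 * nv y (p 0), nv x 1 * nv y (p 1), nv x 2 * nv y (p 2)] := by
    intro p
    funext a
    fin_cases a <;> rfl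
  simp_rw [e]
  rw [h]
  have e2 : ∀ u v w : ℕ, nv ⟨u, v, w⟩ = ![(u : ℝ), (v : ℝ), (w : ℝ)] := fun u v w => rfl
  simp_rw [e2]
  simp

theorem rep_six {Phi : V3 → ℝ} (h : SL Phi) (x y : P3) :
    Rep Phi (six x y) (2 * (x.a + x.b + x.c) * (y.a + y.b + y.c)) (bv Phi x y) := by
  have hR := rep_add (rep_contrib h (x.a * y.a) (x.b * y.b) (x.c * y.c))
    (rep_add (rep_contrib h (x.a * y.a) (x.b * y.c) (x.c * y.b))
    (rep_add (rep_contrib h (x.a * y.b) (x.b * y.a) (x.c * y.c))
    (rep_add (rep_contrib h (x.a * y.b) (x.b * y.c) (x.c * y.a))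
    (rep_add (rep_contrib h (x.a * y.c) (x.b * y.a) (x.c * y.b))
      (rep_contrib h (x.a * y.c) (x.b * y.b) (x.c * y.a))))))
  have hm : 2 * (x.a + x.b + x.c) * (y.a + y.b + y.c) =
      (x.a * y.a + x.b * y.b + x.c * y.c) + ((x.a * y.a + x.b * y.c + x.c * y.b) +
      ((x.a * y.b + x.b * y.a + x.c * y.c) + ((x.a * y.b + x.b * y.c + x.c * y.a) +
      ((x.a * y.c + x.b * y.a + x.c * y.b) + (x.a * y.c + x.b * y.b + x.c * y.a))))) := by
    ring
  rw [hm]
  refine Rep.mono hR (le_of_eq ?_)
  unfold bv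
  rw [sum_six]
  ring

/-! ### the table -/

/-- the table as a list -/
def tab : List P3 → List (List ℕ)
  | [] => []
  | x :: l => (six x x :: l.map fun y => Nat.mul 2 (six x y)) :: tab l

theorem rowF_eq (x : P3) (l : List P3) (k : List ℕ → Bool) :
    rowF x l k = k (l.map fun y => Nat.mul 2 (six x y)) := by
  induction l generalizing k with
  | nil => rfl
  | cons y l ih =>
    unfold rowF
    rw [frcB_eq, ih]
    rfl

theorem tabF_eq (l : List P3) (k : List (List ℕ) → Bool) : tabF l k = k (tab l) := by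
  induction l generalizing k with
  | nil => rfl
  | cons x l ih =>
    unfold tabF
    rw [frcB_eq, rowF_eq, ih]
    rfl

/-- weighted sum over a list of points -/
noncomputable def wsm (f : P3 → ℝ) : List P3 → List ℕ → ℝ
  | p :: ps, w :: ws => (w : ℝ) * f p + wsm f ps ws
  | _, _ => 0

theorem wsm_add (f g : P3 → ℝ) (ps : List P3) (ws : List ℕ) :
    wsm (fun p => f p + g p) ps ws = wsm f ps ws + wsm g ps ws := by
  induction ps generalizing ws with
  | nil => simp [wsm]
  | cons p ps ih =>
    cases ws with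
    | nil => simp [wsm]
    | cons w ws =>
      simp only [wsm]
      rw [ih]
      ring

theorem wsm_mul (c : ℝ) (f : P3 → ℝ) (ps : List P3) (ws : List ℕ) :
    wsm (fun p => c * f p) ps ws = c * wsm f ps ws := by
  induction ps generalizing ws with
  | nil => simp [wsm]
  | cons p ps ih =>
    cases ws with
    | nil => simp [wsm]
    | cons w ws =>
      simp only [wsm]
      rw [ih]
      ring

theorem sumL_cons (w : ℕ) (ws : List ℕ) : sumL (w :: ws) = w + sumL ws := rfl

theorem rep_sm {Phi : V3 → ℝ} (h : SL Phi) (x : P3) (s : ℕ) (hx : x.a + x.b + x.c = s)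
    (l : List P3) (hl : ∀ y ∈ l, y.a + y.b + y.c = s) (W : List ℕ) (hW : W.length = l.length) :
    Rep Phi (sm (l.map fun y => Nat.mul 2 (six x y)) W) (4 * s ^ 2 * sumL W)
      (2 * wsm (fun y => bv Phi x y) l W) := by
  induction l generalizing W with
  | nil =>
    cases W with
    | nil =>
      have := rep_zero Phi
      simpa [wsm, sm, sumL] using this
    | cons w ws => simp at hW
  | cons y l ih =>
    cases W with
    | nil => simp at hW
    | cons w ws =>
      have h1 := ih (fun z hz => hl z (List.mem_cons_of_mem _ hz)) ws (by simpa using hW)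
      have h2 := rep_mul w (rep_mul 2 (rep_six h x y))
      rw [hx, hl y List.mem_cons_self] at h2
      have h3 := rep_add h2 h1
      have e1 : sm ((y :: l).map fun y => Nat.mul 2 (six x y)) (w :: ws) =
          w * (2 * six x y) + sm (l.map fun y => Nat.mul 2 (six x y)) ws := rfl
      rw [e1]
      have e2 : 4 * s ^ 2 * sumL (w :: ws) =
          w * (2 * (2 * s * s)) + 4 * s ^ 2 * sumL ws := by
        rw [sumL_cons]
        ring
      rw [e2]
      refine h3.mono (le_of_eq ?_)
      simp only [wsm]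
      push_cast
      ring

theorem rep_qd {Phi : V3 → ℝ} (h : SL Phi) (s : ℕ)
    (l : List P3) (hl : ∀ y ∈ l, y.a + y.b + y.c = s) (W : List ℕ) (hW : W.length = l.length) :
    Rep Phi (qd (tab l) W) (2 * s ^ 2 * sumL W ^ 2)
      (wsm (fun x => wsm (fun y => bv Phi x y) l W) l W) := by
  induction l generalizing W with
  | nil =>
    cases W with
    | nil =>
      have := rep_zero Phi
      simpa [wsm, qd, sumL, tab] using this
    | cons w ws => simp at hW
  | cons x l ih =>
    cases W with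
    | nil => simp at hW
    | cons w ws =>
      have hl' : ∀ y ∈ l, y.a + y.b + y.c = s := fun z hz => hl z (List.mem_cons_of_mem _ hz)
      have hx : x.a + x.b + x.c = s := hl x List.mem_cons_self
      have hlen : ws.length = l.length := by simpa using hW
      have h1 := ih hl' ws hlen
      have h2 := rep_sm h x s hx l hl' ws hlen
      have h3 := rep_mul w (rep_six h x x)
      rw [hx] at h3
      have h4 := rep_add (rep_mul w (rep_add h3 h2)) h1
      have e1 : qd (tab (x :: l)) (w :: ws) =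
          w * (w * six x x + sm (l.map fun y => Nat.mul 2 (six x y)) ws) + qd (tab l) ws := rfl
      rw [e1]
      have e2 : 2 * s ^ 2 * sumL (w :: ws) ^ 2 =
          w * (w * (2 * s * s) + 4 * s ^ 2 * sumL ws) + 2 * s ^ 2 * sumL ws ^ 2 := by
        rw [sumL_cons]
        ring
      rw [e2]
      refine h4.mono (le_of_eq ?_)
      simp only [wsm]
      have e3 : wsm (fun z => (w : ℝ) * bv Phi z x + wsm (fun y => bv Phi z y) l ws) l ws =
          w * wsm (fun y => bv Phi x y) l ws + wsm (fun z => wsm (fun y => bv Phi z y) l ws) l ws := by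
        rw [wsm_add, wsm_mul]
        simp_rw [bv_comm Phi x]
      rw [e3]
      ring

/-! ### digits -/

theorem digit_eq (B : ℕ) (hB : 0 < B) (j : ℕ) : ∀ (n : ℕ) (g : ℕ → ℕ), j < n →
    (∀ k, k < n → g k < B) → (∑ k ∈ range n, g k * B ^ k) / B ^ j % B = g j := by
  induction j with
  | zero =>
    intro n g hj hg
    cases n with
    | zero => omega
    | succ n =>
      rw [sum_range_succ']
      have e : ∑ k ∈ range n, g (k + 1) * B ^ (k + 1) = B * ∑ k ∈ range n, g (k + 1) * B ^ k := by
        rw [mul_sum]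
        exact sum_congr rfl fun k _ => by ring
      rw [e, pow_zero, mul_one, Nat.div_one, Nat.mul_add_mod, Nat.mod_eq_of_lt (hg 0 (by omega))]
  | succ j ih =>
    intro n g hj hg
    cases n with
    | zero => omega
    | succ n =>
      rw [sum_range_succ']
      have e : ∑ k ∈ range n, g (k + 1) * B ^ (k + 1) = B * ∑ k ∈ range n, g (k + 1) * B ^ k := by
        rw [mul_sum]
        exact sum_congr rfl fun k _ => by ring
      rw [e, pow_zero, mul_one, pow_succ', ← Nat.div_div_eq_div_mul, Nat.mul_add_div hB,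
        Nat.div_eq_of_lt (hg 0 (by omega)), add_zero]
      exact ih n (fun k => g (k + 1)) (by omega) (fun k hk => hg (k + 1) (by omega))

/-- digit of the accumulated number at the position of a point -/
def dg (acc : ℕ) (p : P3) : ℕ :=
  Nat.mod (Nat.shiftRight acc (Nat.mul 64 (pos p.a p.b p.c))) 18446744073709551616

theorem dg_eq (g : ℕ → ℕ) (hg : ∑ k ∈ range 208, g k < 2 ^ 64) (p : P3)
    (hp : pos p.a p.b p.c < 208) :
    dg (∑ k ∈ range 208, g k * 2 ^ (64 * k)) p = g (pos p.a p.b p.c) := by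
  have h1 : ∀ k, k < 208 → g k < 2 ^ 64 := by
    intro k hk
    refine lt_of_le_of_lt ?_ hg
    exact single_le_sum (f := g) (fun i _ => Nat.zero_le _) (mem_range.mpr hk)
  have h2 := digit_eq (2 ^ 64) (by norm_num) (pos p.a p.b p.c) 208 g hp h1
  have e1 : ∀ X : ℕ, dg X p = X / (2 ^ 64) ^ (pos p.a p.b p.c) % 2 ^ 64 := by
    intro X
    have : dg X p = (X >>> (64 * pos p.a p.b p.c)) % 18446744073709551616 := rfl
    rw [this, Nat.shiftRight_eq_div_pow, pow_mul]
    norm_num
  rw [e1]
  simp_rw [pow_mul]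
  exact h2

theorem chkO_cons (sc acc : ℕ) (p : P3) (ps : List P3) (o : ℕ) (os : List ℕ) :
    chkO sc acc (p :: ps) (o :: os) =
      cond (Nat.ble (Nat.mul sc o) (dg acc p)) (chkO sc acc ps os) false := rfl

theorem chk_le (sc acc : ℕ) (phi : ℕ → ℝ) (top : ℝ) (htop : ∀ k, k < 208 → phi k ≤ top)
    (ps : List P3) : ∀ (os : List ℕ) (g : ℕ → ℕ), chkO sc acc ps os = true →
    (∀ p ∈ ps, pos p.a p.b p.c < 208 ∧ dg acc p = g (pos p.a p.b p.c)) →
    (ps.map fun p => pos p.a p.b p.c).Nodup →
    ∑ k ∈ range 208, (g k : ℝ) * phi k ≤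
      top * (((∑ k ∈ range 208, g k : ℕ) : ℝ) - sc * sumL os) +
        sc * wsm (fun p => phi (pos p.a p.b p.c)) ps os := by
  induction ps with
  | nil =>
    intro os g h _ _
    cases os with
    | nil =>
      have e : ((sumL [] : ℕ) : ℝ) = 0 := by simp [sumL]
      rw [e]
      simp only [wsm, mul_zero, sub_zero, add_zero]
      push_cast
      rw [mul_sum]
      refine sum_le_sum fun k hk => ?_
      rw [mul_comm top]
      exact mul_le_mul_of_nonneg_left (htop k (mem_range.mp hk)) (Nat.cast_nonneg _)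
    | cons o os =>
      exact absurd h (by simp [chkO])
  | cons p ps ih =>
    intro os g h hg hn
    cases os with
    | nil => exact absurd h (by simp [chkO])
    | cons o os =>
      rw [chkO_cons] at h
      have hle : Nat.ble (Nat.mul sc o) (dg acc p) = true := by
        cases hb : Nat.ble (Nat.mul sc o) (dg acc p) with
        | false => rw [hb, cond_false] at h; exact absurd h (by simp)
        | true => rfl
      rw [hle, cond_true] at h
      obtain ⟨hp, hd⟩ := hg p List.mem_cons_self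
      have hle' : sc * o ≤ g (pos p.a p.b p.c) := by
        rw [← hd]
        exact Nat.le_of_ble_eq_true hle
      rw [List.map_cons, List.nodup_cons] at hn
      have hih := ih os (fun k => if k = pos p.a p.b p.c then g k - sc * o else g k) h ?_ hn.2
      · have hm : pos p.a p.b p.c ∈ range 208 := mem_range.mpr hp
        have e1 : ∀ k, (g k : ℝ) =
            ((if k = pos p.a p.b p.c then g k - sc * o else g k : ℕ) : ℝ) +
              (if k = pos p.a p.b p.c then ((sc * o : ℕ) : ℝ) else 0) := by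
          intro k
          split_ifs with hk
          · subst hk
            rw [Nat.cast_sub hle']
            ring
          · ring
        have e2 : ∑ k ∈ range 208, (g k : ℝ) * phi k =
            ∑ k ∈ range 208, ((if k = pos p.a p.b p.c then g k - sc * o else g k : ℕ) : ℝ) * phi k
              + ((sc * o : ℕ) : ℝ) * phi (pos p.a p.b p.c) := by
          have : ∀ k, (g k : ℝ) * phi k =
              ((if k = pos p.a p.b p.c then g k - sc * o else g k : ℕ) : ℝ) * phi k +
              (if k = pos p.a p.b p.c then ((sc * o : ℕ) : ℝ) * phi k else 0) := by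
            intro k
            have h9 := e1 k
            by_cases hk : k = pos p.a p.b p.c
            · rw [if_pos hk, if_pos hk] at h9
              rw [if_pos hk, if_pos hk, h9]
              ring
            · rw [if_neg hk, if_neg hk]
              ring
          simp_rw [this]
          rw [sum_add_distrib, sum_ite_eq_of_mem' _ _ _ hm]
        have e3 : ((∑ k ∈ range 208, g k : ℕ) : ℝ) =
            ((∑ k ∈ range 208, (if k = pos p.a p.b p.c then g k - sc * o else g k) : ℕ) : ℝ) +
              ((sc * o : ℕ) : ℝ) := by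
          push_cast
          have : ∀ k, (g k : ℝ) = ((if k = pos p.a p.b p.c then g k - sc * o else g k : ℕ) : ℝ) +
              (if k = pos p.a p.b p.c then ((sc * o : ℕ) : ℝ) else 0) := e1
          rw [sum_congr rfl fun k _ => this k, sum_add_distrib, sum_ite_eq_of_mem' _ _ _ hm]
          push_cast
          rfl
        rw [e2, e3]
        simp only [wsm]
        rw [sumL_cons]
        push_cast at hih ⊢
        linarith
      · intro p' hp'
        obtain ⟨a1, a2⟩ := hg p' (List.mem_cons_of_mem _ hp')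
        refine ⟨a1, ?_⟩
        have hne : pos p'.a p'.b p'.c ≠ pos p.a p.b p.c := by
          intro e
          exact hn.1 (List.mem_map.mpr ⟨p', hp', e⟩)
        rw [if_neg hne]
        exact a2

/-! ### the mesh -/

theorem ptsT_sum : ∀ p ∈ ptsT, p.a + p.b + p.c = 30 := by decide +kernel

theorem ptsG_sum : ∀ p ∈ ptsG, p.a + p.b + p.c = 30 := by decide +kernel

theorem ptsT_nodup : (ptsT.map fun p => pos p.a p.b p.c).Nodup := by decide +kernel

theorem ptsG_length : ptsG.length = 91 := by decide +kernel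

theorem wval_eq (Phi : V3 → ℝ) (ps : List P3) (ws : List ℕ) :
    wval Phi ps ws = wsm (fun p => sy Phi (mp p)) ps ws := by
  induction ps generalizing ws with
  | nil => simp [wsm, wval]
  | cons p ps ih =>
    cases ws with
    | nil => simp [wsm, wval]
    | cons w ws =>
      simp only [wsm, wval]
      rw [ih]

theorem mp_le_vtx {Phi : V3 → ℝ} (h : SL Phi) (p : P3) (hp : p.a + p.b + p.c = 30) :
    sy Phi (mp p) ≤ sy Phi vtx := by
  refine domVtx Phi h (mp p) (mp_nonneg p) ?_
  have : (p.a : ℝ) + p.b + p.c = 30 := by exact_mod_cast hp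
  unfold mp
  simp
  linarith

theorem mp_top : mp ⟨30, 0, 0⟩ = vtx := by
  unfold mp vtx
  funext i
  fin_cases i <;> simp
  norm_num

theorem wsm_congr {f g : P3 → ℝ} {ps : List P3} (h : ∀ p ∈ ps, f p = g p) (ws : List ℕ) :
    wsm f ps ws = wsm g ps ws := by
  induction ps generalizing ws with
  | nil => simp [wsm]
  | cons p ps ih =>
    cases ws with
    | nil => simp [wsm]
    | cons w ws =>
      simp only [wsm]
      rw [ih (fun q hq => h q (List.mem_cons_of_mem _ hq)), h p List.mem_cons_self]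

/-- one checked stage bounds the quadratic value -/
theorem stg_le {Phi : V3 → ℝ} (h : SL Phi) (sc : ℕ) (T : List (List ℕ)) (W O : List ℕ)
    (hs : stg sc ptsT T W O = true) (v : ℝ) (hsc : sc * 16777216 < 2 ^ 64)
    (hR : Rep Phi (qd T W) (sc * 16777216) v) :
    v ≤ sc * wval Phi ptsG O := by
  cases O with
  | nil => exact absurd hs (by simp [stg])
  | cons o os =>
    have e : stg sc ptsT T W (o :: os) = cond (Nat.beq (sumL (o :: os)) 16777216)
      (frcB (qd T W) fun acc => chkO sc acc ptsT os) false := rfl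
    rw [e] at hs
    have hb : Nat.beq (sumL (o :: os)) 16777216 = true := by
      cases hb : Nat.beq (sumL (o :: os)) 16777216 with
      | false => rw [hb, cond_false] at hs; exact absurd hs (by simp)
      | true => rfl
    rw [hb, cond_true, frcB_eq] at hs
    have hsum : sumL (o :: os) = 16777216 := Nat.eq_of_beq_eq_true hb
    rw [sumL_cons] at hsum
    obtain ⟨g, a1, a2, a3⟩ := hR
    rw [a1] at hs
    have hlt : ∑ k ∈ range 208, g k < 2 ^ 64 := by rw [a2]; exact hsc
    have key := chk_le sc _ (fun k => sy Phi (mp (dec k))) (sy Phi vtx) ?_ ptsT os g hs ?_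
      ptsT_nodup
    · refine a3.trans (key.trans (le_of_eq ?_))
      rw [a2]
      have e1 : wsm (fun p => sy Phi (mp (dec (pos p.a p.b p.c)))) ptsT os =
          wsm (fun p => sy Phi (mp p)) ptsT os :=
        wsm_congr (fun p hp => (pos_spec Phi (ptsT_sum p hp)).2) os
      rw [e1, wval_eq]
      have e2 : wsm (fun p => sy Phi (mp p)) ptsG (o :: os) =
          (o : ℝ) * sy Phi (mp ⟨30, 0, 0⟩) + wsm (fun p => sy Phi (mp p)) ptsT os := rfl
      rw [e2, mp_top]
      have hsum' : (o : ℝ) + sumL os = 16777216 := by exact_mod_cast hsum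
      have ho : (o : ℝ) = 16777216 - sumL os := by linarith
      rw [ho]
      push_cast
      ring
    · intro k hk
      refine mp_le_vtx h (dec k) ?_
      unfold dec
      show 30 - k / 13 - k % 13 + k / 13 + k % 13 = 30
      omega
    · intro p hp
      have hpos := (pos_spec Phi (ptsT_sum p hp)).1
      exact ⟨hpos, dg_eq g hlt p hpos⟩

/-! ### the stage -/

theorem wsm_fin (f : P3 → ℝ) (ps : List P3) : ∀ ws : List ℕ,
    wsm f ps ws = ∑ i : Fin ps.length, ((ws.getD i 0 : ℕ) : ℝ) * f (ps.get i) := by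
  induction ps with
  | nil => intro ws; simp [wsm]
  | cons p ps ih =>
    intro ws
    cases ws with
    | nil => simp [wsm]
    | cons w ws =>
      simp only [wsm]
      rw [ih]
      exact (Fin.sum_univ_succ (n := ps.length) (fun i : Fin (ps.length + 1) =>
        (((w :: ws).getD (i : ℕ) 0 : ℕ) : ℝ) * f ((p :: ps).get i))).symm

theorem wsm_map (f : P3 → ℝ) (e : P3 → P3) (ps : List P3) (ws : List ℕ) :
    wsm f (ps.map e) ws = wsm (fun p => f (e p)) ps ws := by
  induction ps generalizing ws with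
  | nil => simp [wsm]
  | cons p ps ih =>
    cases ws with
    | nil => simp [wsm]
    | cons w ws =>
      simp only [List.map_cons, wsm]
      rw [ih]

theorem domW_dom {S : Type} [Fintype S] {L : S → V3} {W : List ℕ} (h : DomW L W) :
    Dom L (fun i : Fin ptsG.length => mp (ptsG.get i))
      (fun i => ((W.getD i 0 : ℕ) : ℝ) / 16777216) := by
  intro Phi hPhi
  have h1 := h Phi hPhi
  rw [wval_eq, wsm_fin] at h1
  have e : ∑ i : Fin ptsG.length, ((W.getD i 0 : ℕ) : ℝ) / 16777216 * sy Phi (mp (ptsG.get i)) =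
      (∑ i : Fin ptsG.length, ((W.getD i 0 : ℕ) : ℝ) * sy Phi (mp (ptsG.get i))) / 16777216 := by
    rw [sum_div]
    exact sum_congr rfl fun i _ => by ring
  rw [e, le_div_iff₀ (by norm_num)]
  linarith

theorem stage_gen (ρ : ℕ) (hρ : 0 < ρ) (hb : 18 * ρ ^ 2 * 16777216 * 16777216 < 2 ^ 64)
    (e : P3 → P3) (he : ∀ p ∈ ptsG, (e p).a + (e p).b + (e p).c = 3 * ρ) (W O : List ℕ)
    (hs : stg (18 * ρ ^ 2 * 16777216) ptsT (tab (ptsG.map e)) W O = true)
    (hW : W.length = 91) (hWs : sumL W = 16777216)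
    {S : Type} [Fintype S] {M : S → V3} (hM : Chan M)
    (hD : Dom M (fun i : Fin ptsG.length => fun a => nv (e (ptsG.get i)) a / ρ)
      (fun i => ((W.getD i 0 : ℕ) : ℝ) / 16777216)) :
    DomW (fun s : S × S => fun a => M s.1 a * M s.2 a) O := by
  intro Phi h
  have hρ' : (0 : ℝ) < ρ := by exact_mod_cast hρ
  have hn : ∀ (i : Fin ptsG.length) (a : Fin 3), 0 ≤ nv (e (ptsG.get i)) a / ρ :=
    fun i a => div_nonneg (nv_nonneg _ _) hρ'.le
  have hw : ∀ i : Fin ptsG.length, (0 : ℝ) ≤ ((W.getD i 0 : ℕ) : ℝ) / 16777216 :=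
    fun i => by positivity
  have h1 := domProd S S _ _ M M _ _ _ _ hM hM hn hn hw hw hD hD Phi h
  have hsy := sy_SL h
  -- the quadratic value
  have hq : ∀ x y : P3, (1 / 6) * ∑ p : Equiv.Perm (Fin 3),
      sy Phi (fun a => nv x a / ρ * (nv y (p a) / ρ)) = bv Phi x y / (18 * ρ ^ 2) := by
    intro x y
    have : ∀ p : Equiv.Perm (Fin 3), sy Phi (fun a => nv x a / ρ * (nv y (p a) / ρ)) =
        1 / ρ ^ 2 * sy Phi (fun a => nv x a * nv y (p a)) := by
      intro p
      rw [← hsy.hom (1 / ρ ^ 2) (by positivity) (fun a => nv x a * nv y (p a))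
        (fun a => mul_nonneg (nv_nonneg _ _) (nv_nonneg _ _))]
      congr 1
      funext a
      field_simp
    simp_rw [this]
    rw [← mul_sum]
    unfold bv
    field_simp
    ring
  have h2 : ∑ i : Fin ptsG.length, ∑ j : Fin ptsG.length,
      ((W.getD i 0 : ℕ) : ℝ) / 16777216 * (((W.getD j 0 : ℕ) : ℝ) / 16777216) *
        ((1 / 6) * ∑ p : Equiv.Perm (Fin 3),
          sy Phi (fun a => nv (e (ptsG.get i)) a / ρ * (nv (e (ptsG.get j)) (p a) / ρ))) =
      (wsm (fun x => wsm (fun y => bv Phi x y) (ptsG.map e) W) (ptsG.map e) W) /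
        (18 * ρ ^ 2 * 16777216 * 16777216) := by
    rw [wsm_map, wsm_fin, sum_div]
    refine sum_congr rfl fun i _ => ?_
    rw [wsm_map, wsm_fin, mul_sum, sum_div]
    refine sum_congr rfl fun j _ => ?_
    rw [hq]
    field_simp
  rw [h2] at h1
  -- the check
  have hlen : W.length = (ptsG.map e).length := by
    rw [List.length_map, ptsG_length, hW]
  have hR := rep_qd h (3 * ρ) (ptsG.map e) (by
    intro y hy
    obtain ⟨p, hp, rfl⟩ := List.mem_map.mp hy
    exact he p hp) W hlen
  have em : 2 * (3 * ρ) ^ 2 * sumL W ^ 2 = 18 * ρ ^ 2 * 16777216 * 16777216 := by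
    rw [hWs]
    ring
  rw [em] at hR
  have h3 := stg_le h (18 * ρ ^ 2 * 16777216) _ W O hs _ hb hR
  have hpos : (0 : ℝ) < 18 * ρ ^ 2 * 16777216 * 16777216 := by positivity
  rw [le_div_iff₀ hpos] at h1
  have h4 := h1.trans h3
  push_cast at h4
  have hpos' : (0 : ℝ) < 18 * ρ ^ 2 * 16777216 := by positivity
  refine le_of_mul_le_mul_left ?_ hpos'
  linarith

end Vale.Agent.P154.AF.ENG1

namespace Vale.Agent.P154.AF

open Finset Eng ENG1

theorem stage2 : StmtStage2 := by
  intro O W' hs hO hOs S _ L hL hD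
  rw [tabF_eq] at hs
  refine stage_gen 10 (by norm_num) (by norm_num) id ?_ O W' ?_ hO hOs hL ?_
  · intro p hp
    have := ptsG_sum p hp
    simpa using this
  · rw [List.map_id]
    exact hs
  · have h2 := domW_dom hD
    have e : (fun i : Fin ptsG.length => mp (ptsG.get i)) =
        (fun i : Fin ptsG.length => fun a => nv (id (ptsG.get i)) a / (10 : ℕ)) := by
      funext i a
      unfold mp nv
      fin_cases a <;> simp
    rw [e] at h2
    exact h2

theorem stage1 : StmtStage1 := by
  intro W O hs hW hWs lam h0 h1 S _ L hL hD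
  rw [tabF_eq] at hs
  refine stage_gen 20 (by norm_num) (by norm_num) edg ?_ W O hs hW hWs
    (chEdge lam h0 (by linarith) S L hL) ?_
  · intro p hp
    have := ptsG_sum p hp
    show 30 - p.a + (30 - p.b) + (30 - p.c) = 3 * 20
    omega
  · have h2 := domEdge lam h0 h1 S _ L _ _ hL (domW_dom hD)
    have e : (fun i : Fin ptsG.length => edge 3 (-1/2) (mp (ptsG.get i))) =
        (fun i : Fin ptsG.length => fun a => nv (edg (ptsG.get i)) a / (20 : ℕ)) := by
      funext i a
      have hp := ptsG_sum (ptsG.get i) (List.get_mem _ _)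
      generalize ptsG.get i = p at hp
      have hp' : (p.a : ℝ) + p.b + p.c = 30 := by exact_mod_cast hp
      have ha : ((30 - p.a : ℕ) : ℝ) = 30 - p.a := by
        rw [Nat.cast_sub (by omega)]
        norm_num
      have hb : ((30 - p.b : ℕ) : ℝ) = 30 - p.b := by
        rw [Nat.cast_sub (by omega)]
        norm_num
      have hc : ((30 - p.c : ℕ) : ℝ) = 30 - p.c := by
        rw [Nat.cast_sub (by omega)]
        norm_num
      rw [edge_eq, ms3_eq]
      have e1 : nv (edg p) = ![((30 - p.a : ℕ) : ℝ), ((30 - p.b : ℕ) : ℝ), ((30 - p.c : ℕ) : ℝ)] :=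
        rfl
      rw [e1, ha, hb, hc]
      unfold mp
      fin_cases a
      · simp
        linarith
      · simp
        linarith
      · simp
        linarith
    rw [e] at h2
    exact h2

end Vale.Agent.P154.AF
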