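import Vale.Agent.P154AF.Core
import Vale.Agent.P154AF.CH

/-! Sublinear order: base case, one edge, vertex. -/

namespace Vale.Agent.P154.AF

open Finset

/-! ### sublinear functions -/

theorem SL.zero {Phi : V3 → ℝ} (h : SL Phi) : Phi (fun _ => 0) = 0 := by
  have := h.hom 0 le_rfl (fun _ => 0) (fun _ => le_rfl)
  simpa using this

theorem SL.sub_sum {Phi : V3 → ℝ} (h : SL Phi) {ι : Type} (s : Finset ι) (f : ι → V3)
    (hf : ∀ j ∈ s, ∀ i, 0 ≤ f j i) : Phi (fun i => ∑ j ∈ s, f j i) ≤ ∑ j ∈ s, Phi (f j) := by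
  classical
  induction s using Finset.induction_on with
  | empty => simp [h.zero]
  | insert a s ha ih =>
    rw [sum_insert ha]
    have e : (fun i => ∑ j ∈ insert a s, f j i) = fun i => f a i + ∑ j ∈ s, f j i := by
      funext i
      rw [sum_insert ha]
    rw [e]
    have h1 := h.sub (f a) (fun i => ∑ j ∈ s, f j i) (hf a (mem_insert_self a s))
      (fun i => sum_nonneg fun j hj => hf j (mem_insert_of_mem hj) i)
    have h2 := ih (fun j hj => hf j (mem_insert_of_mem hj))
    linarith

theorem SL.comp_perm {Phi : V3 → ℝ} (h : SL Phi) (p : Equiv.Perm (Fin 3)) :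
    SL (fun v => Phi (fun i => v (p i))) where
  hom := fun c hc v hv => h.hom c hc (fun i => v (p i)) (fun i => hv (p i))
  sub := fun v w hv hw => h.sub (fun i => v (p i)) (fun i => w (p i)) (fun i => hv (p i))
    (fun i => hw (p i))

theorem SL.comp_mul {Phi : V3 → ℝ} (h : SL Phi) {w : V3} (hw : ∀ i, 0 ≤ w i) :
    SL (fun v => Phi (fun i => v i * w i)) where
  hom := by
    intro c hc v hv
    have := h.hom c hc (fun i => v i * w i) (fun i => mul_nonneg (hv i) (hw i))
    simp only at this ⊢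
    rw [← this]
    congr 1
    funext i
    ring
  sub := by
    intro v u hv hu
    have := h.sub (fun i => v i * w i) (fun i => u i * w i) (fun i => mul_nonneg (hv i) (hw i))
      (fun i => mul_nonneg (hu i) (hw i))
    simp only at this ⊢
    refine le_trans (le_of_eq ?_) this
    congr 1
    funext i
    ring

theorem SL.comp_mul' {Phi : V3 → ℝ} (h : SL Phi) {w : V3} (hw : ∀ i, 0 ≤ w i) :
    SL (fun v => Phi (fun i => w i * v i)) := by
  have := h.comp_mul hw
  simpa only [mul_comm] using this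

theorem SL.comp_edge {Phi : V3 → ℝ} (h : SL Phi) {lam : ℝ} (h0 : -1/2 ≤ lam) (h1 : lam ≤ 1) :
    SL (fun v => Phi (edge 3 lam v)) where
  hom := by
    intro c hc v hv
    have := h.hom c hc (edge 3 lam v) (edge3_nonneg h0 h1 hv)
    refine Eq.trans ?_ this
    congr 1
    funext i
    rw [edge_eq, edge_eq, ms_smul]
    ring
  sub := by
    intro v u hv hu
    have := h.sub (edge 3 lam v) (edge 3 lam u) (edge3_nonneg h0 h1 hv) (edge3_nonneg h0 h1 hu)
    refine le_trans (le_of_eq ?_) this
    congr 1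
    funext i
    rw [edge_eq, edge_eq, edge_eq]
    unfold ms
    rw [sum_add_distrib]
    ring

/-! ### averages over permutations -/

theorem sum_perm_apply (G : Fin 3 → ℝ) (i : Fin 3) :
    ∑ p : Equiv.Perm (Fin 3), G (p i) = 2 * ∑ j, G j := by
  have h1 : ∀ i', ∑ p : Equiv.Perm (Fin 3), G (p i') = ∑ p : Equiv.Perm (Fin 3), G (p i) := by
    intro i'
    rw [← Equiv.sum_comp (Equiv.mulRight (Equiv.swap i i'))]
    apply sum_congr rfl
    intro p _
    simp [Equiv.Perm.mul_apply]
  have h2 : ∑ i', ∑ p : Equiv.Perm (Fin 3), G (p i') = 6 * ∑ j, G j := by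
    rw [sum_comm]
    have : ∀ p : Equiv.Perm (Fin 3), ∑ i', G (p i') = ∑ j, G j := fun p => Equiv.sum_comp p G
    simp_rw [this]
    rw [sum_const, card_univ, Fintype.card_perm, Fintype.card_fin, nsmul_eq_mul]
    norm_num [Nat.factorial]
  simp_rw [h1] at h2
  rw [sum_const, card_univ, Fintype.card_fin, nsmul_eq_mul] at h2
  push_cast at h2
  linarith

theorem sum_perm_inv_apply (G : Fin 3 → ℝ) (i : Fin 3) :
    ∑ p : Equiv.Perm (Fin 3), G (p⁻¹ i) = 2 * ∑ j, G j := by
  rw [← sum_perm_apply G i, ← Equiv.sum_comp (Equiv.inv (Equiv.Perm (Fin 3)))]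
  apply sum_congr rfl
  intro p _
  simp

/-- unit vector -/
noncomputable def uv (j : Fin 3) : V3 := fun i => if i = j then 1 else 0

theorem uv_nonneg (j i : Fin 3) : 0 ≤ uv j i := by
  unfold uv
  split_ifs <;> norm_num

theorem vtx_perm (p : Equiv.Perm (Fin 3)) :
    (fun i => vtx (p i)) = fun i => 3 * uv (p⁻¹ 0) i := by
  funext i
  unfold uv
  have h : (i = p⁻¹ 0) ↔ p i = 0 := by
    rw [Equiv.Perm.eq_inv_iff_eq]
  by_cases hi : p i = 0
  · rw [if_pos (h.mpr hi), hi]
    simp [vtx]
  · rw [if_neg (fun e => hi (h.mp e))]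
    have : p i = 1 ∨ p i = 2 := by
      generalize p i = a at hi
      fin_cases a
      · exact absurd rfl hi
      · left; rfl
      · right; rfl
    rcases this with e | e <;> rw [e] <;> simp [vtx]

theorem sy_vtx {Phi : V3 → ℝ} (h : SL Phi) : sy Phi vtx = ∑ j, Phi (uv j) := by
  unfold sy
  simp_rw [vtx_perm]
  have : ∀ p : Equiv.Perm (Fin 3), Phi (fun i => 3 * uv (p⁻¹ 0) i) = 3 * Phi (uv (p⁻¹ 0)) :=
    fun p => h.hom 3 (by norm_num) _ (uv_nonneg _)
  simp_rw [this]
  rw [← mul_sum, sum_perm_inv_apply (fun j => Phi (uv j)) 0]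
  ring

theorem domZero : StmtDomZero := by
  intro lam T Phi hPhi
  rw [sum_bdry_zero]
  have hv : ∀ s : Fin 3, tch 3 lam 0 T s = uv s := by
    intro s
    funext j
    show (if s = j then (1 : ℝ) else 0) = _
    unfold uv
    by_cases h : j = s
    · simp [h]
    · have h' : ¬ (s = j) := fun e => h e.symm
      simp [h, h']
  simp only [univ_unique, one_mul, sum_singleton]
  rw [sy_vtx hPhi]
  exact le_of_eq (sum_congr rfl fun s _ => by rw [hv s])

theorem edge_perm (lam : ℝ) (p : Equiv.Perm (Fin 3)) (v : V3) :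
    edge 3 lam (fun i => v (p i)) = fun i => edge 3 lam v (p i) := by
  funext i
  rw [edge_eq, edge_eq]
  have : ms 3 (fun i => v (p i)) = ms 3 v := by
    unfold ms
    rw [Equiv.sum_comp p (fun i => v i)]
  rw [this]

/-- a ferromagnetic edge decreases sublinear functionals of a symmetric channel -/
theorem edge_le {S : Type} [Fintype S] {L : S → V3} (hL : Chan L) {Phi : V3 → ℝ} (h : SL Phi)
    {t : ℝ} (h0 : 0 ≤ t) (h1 : t ≤ 1) : ∑ s, Phi (edge 3 t (L s)) ≤ ∑ s, Phi (L s) := by
  have key : ∀ s, Phi (edge 3 t (L s)) ≤ t * Phi (L s) +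
      (1 - t) * ((1 / 6) * ∑ p : Equiv.Perm (Fin 3), Phi (fun i => L s (p i))) := by
    intro s
    have hn := hL.nonneg s
    have ht : 0 ≤ 1 - t := by linarith
    have e : edge 3 t (L s) = fun i => t * L s i +
        ((1 - t) * (1 / 6)) * ∑ p : Equiv.Perm (Fin 3), L s (p i) := by
      funext i
      rw [edge_eq, sum_perm_apply]
      unfold ms
      push_cast
      ring
    rw [e]
    have hs : ∀ i, 0 ≤ ∑ p : Equiv.Perm (Fin 3), L s (p i) :=
      fun i => sum_nonneg fun p _ => hn (p i)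
    have a1 := h.sub (fun i => t * L s i)
      (fun i => ((1 - t) * (1 / 6)) * ∑ p : Equiv.Perm (Fin 3), L s (p i))
      (fun i => mul_nonneg h0 (hn i)) (fun i => mul_nonneg (by positivity) (hs i))
    have a2 := h.hom t h0 (L s) hn
    have a3 := h.hom ((1 - t) * (1 / 6)) (by positivity)
      (fun i => ∑ p : Equiv.Perm (Fin 3), L s (p i)) hs
    have a4 := h.sub_sum univ (fun (p : Equiv.Perm (Fin 3)) i => L s (p i))
      (fun p _ i => hn (p i))
    have a5 := mul_le_mul_of_nonneg_left a4 (show 0 ≤ (1 - t) * (1 / 6) by positivity)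
    rw [a2, a3] at a1
    linarith
  refine (sum_le_sum fun s _ => key s).trans (le_of_eq ?_)
  rw [sum_add_distrib, ← mul_sum, ← mul_sum, ← mul_sum, sum_comm]
  simp_rw [hL.symm]
  rw [sum_const, card_univ, Fintype.card_perm, Fintype.card_fin, nsmul_eq_mul]
  norm_num [Nat.factorial]
  ring

theorem domEdge : StmtDomEdge := by
  intro lam hl0 hl1 S I _ _ L pt W hL hD Phi hPhi
  have hPsi : SL (fun v => Phi (edge 3 (-1/2) v)) := hPhi.comp_edge le_rfl (by norm_num)
  have e1 : ∀ s, Phi (edge 3 lam (L s)) =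
      (fun v => Phi (edge 3 (-1/2) v)) (edge 3 (-2 * lam) (L s)) := by
    intro s
    simp only
    congr 1
    funext i
    rw [edge_eq, edge_eq, edge_eq, ms_edge (by norm_num)]
    ring
  simp_rw [e1]
  refine (edge_le hL hPsi (by linarith) (by linarith)).trans ?_
  refine (hD _ hPsi).trans (le_of_eq ?_)
  apply sum_congr rfl
  intro i _
  congr 1
  unfold sy
  congr 1
  apply sum_congr rfl
  intro p _
  simp only
  rw [edge_perm]

theorem domVtx : StmtDomVtx := by
  intro Phi h v hv hs
  rw [sy_vtx h]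
  unfold sy
  have key : ∀ p : Equiv.Perm (Fin 3), Phi (fun i => v (p i)) ≤ ∑ j, v (p j) * Phi (uv j) := by
    intro p
    have e : (fun i => v (p i)) = fun i => ∑ j, v (p j) * uv j i := by
      funext i
      unfold uv
      simp
    rw [e]
    refine (h.sub_sum univ (fun j i => v (p j) * uv j i)
      (fun j _ i => mul_nonneg (hv _) (uv_nonneg j i))).trans (le_of_eq ?_)
    apply sum_congr rfl
    intro j _
    exact h.hom (v (p j)) (hv _) (uv j) (uv_nonneg j)
  have h2 := sum_le_sum (fun p (_ : p ∈ (univ : Finset (Equiv.Perm (Fin 3)))) => key p)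
  rw [sum_comm] at h2
  simp_rw [← sum_mul, sum_perm_apply v] at h2
  rw [← mul_sum, Fin.sum_univ_three v, hs] at h2
  linarith

end Vale.Agent.P154.AF
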