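import Vale.Agent.P154AF.SL1

/-! Sublinear order: products of channels and regular trees of degree at most four. -/

namespace Vale.Agent.P154.AF

open Finset

theorem domProd : StmtDomProd := by
  intro S S' I I' _ _ _ _ L L' pt pt' W W' hL hL' hpt hpt' hW hW' hD hD' Phi h
  rw [Fintype.sum_prod_type]
  -- first the second factor
  have h1 : ∀ x : S, ∑ y : S', Phi (fun a => L x a * L' y a) ≤
      ∑ j, W' j * ((1 / 6) * ∑ p : Equiv.Perm (Fin 3), Phi (fun a => L x a * pt' j (p a))) :=
    fun x => hD' _ (h.comp_mul' (hL.nonneg x))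
  refine (sum_le_sum fun x _ => h1 x).trans ?_
  rw [sum_comm]
  -- then the first factor
  have h2 : ∀ (j : I') (p : Equiv.Perm (Fin 3)), ∑ x, Phi (fun a => L x a * pt' j (p a)) ≤
      ∑ i, W i * ((1 / 6) * ∑ r : Equiv.Perm (Fin 3),
        Phi (fun a => pt i (r a) * pt' j (p a))) :=
    fun j p => hD _ (h.comp_mul (fun a => hpt' j (p a)))
  have h3 : ∀ j, ∑ x, W' j * ((1 / 6) * ∑ p : Equiv.Perm (Fin 3),
      Phi (fun a => L x a * pt' j (p a))) ≤
      ∑ i, W i * W' j * ((1 / 6) * ∑ p : Equiv.Perm (Fin 3), sy Phi (fun a => pt i a * pt' j (p a))) := by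
    intro j
    rw [← mul_sum, ← mul_sum, sum_comm]
    have a1 : ∑ p : Equiv.Perm (Fin 3), ∑ x, Phi (fun a => L x a * pt' j (p a)) ≤
        ∑ p : Equiv.Perm (Fin 3), ∑ i, W i * ((1 / 6) * ∑ r : Equiv.Perm (Fin 3),
        Phi (fun a => pt i (r a) * pt' j (p a))) := sum_le_sum fun p _ => h2 j p
    have a2 : ∑ p : Equiv.Perm (Fin 3), ∑ i, W i * ((1 / 6) * ∑ r : Equiv.Perm (Fin 3),
        Phi (fun a => pt i (r a) * pt' j (p a))) =
        ∑ i, W i * ∑ p : Equiv.Perm (Fin 3), sy Phi (fun a => pt i a * pt' j (p a)) := by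
      rw [sum_comm]
      apply sum_congr rfl
      intro i _
      rw [← mul_sum]
      congr 1
      unfold sy
      rw [← mul_sum, ← mul_sum]
      congr 1
      rw [sum_comm, sum_comm (s := univ) (t := univ)
        (f := fun (p r : Equiv.Perm (Fin 3)) => Phi (fun a => pt i (r a) * pt' j (p (r a))))]
      apply sum_congr rfl
      intro r _
      rw [← Equiv.sum_comp (Equiv.mulRight r)]
      apply sum_congr rfl
      intro p _
      rfl
    rw [a2] at a1
    refine (mul_le_mul_of_nonneg_left (mul_le_mul_of_nonneg_left a1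
      (show (0 : ℝ) ≤ 1 / 6 by norm_num)) (hW' j)).trans (le_of_eq ?_)
    rw [mul_sum, mul_sum]
    apply sum_congr rfl
    intro i _
    ring
  refine (sum_le_sum fun j _ => h3 j).trans (le_of_eq ?_)
  rw [sum_comm]

/-! ### trees -/

/-- the value of a product of `k` copies of a channel -/
noncomputable def PF (Phi : V3 → ℝ) {S : Type} [Fintype S] (M : S → V3) (k : ℕ) : ℝ :=
  ∑ s : Fin k → S, Phi (fun i => ∏ c, M (s c) i)

theorem PF_succ (Phi : V3 → ℝ) {S : Type} [Fintype S] (M : S → V3) (k : ℕ) :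
    PF Phi M (k + 1) = ∑ x : S, ∑ s : Fin k → S, Phi (fun i => M x i * ∏ c, M (s c) i) := by
  unfold PF
  rw [← (Fin.consEquiv (fun _ : Fin (k + 1) => S)).sum_comp, Fintype.sum_prod_type]
  apply sum_congr rfl
  intro x _
  apply sum_congr rfl
  intro s _
  congr 1
  funext i
  rw [Fin.prod_univ_succ]
  rfl

theorem PF_mono {Phi : V3 → ℝ} (h : SL Phi) {S : Type} [Fintype S] {M : S → V3}
    (hM : Chan M) : Monotone (PF Phi M) := by
  apply monotone_nat_of_le_succ
  intro k
  rw [PF_succ, sum_comm]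
  unfold PF
  apply sum_le_sum
  intro s _
  have hn : ∀ i, 0 ≤ ∏ c, M (s c) i := fun i => prod_nonneg fun c _ => hM.nonneg _ i
  have e : (fun i => ∏ c, M (s c) i) = fun i => ∑ x, M x i * ∏ c, M (s c) i := by
    funext i
    rw [← sum_mul, hM.mass, one_mul]
  rw [e]
  exact h.sub_sum univ (fun x i => M x i * ∏ c, M (s c) i)
    (fun x _ i => mul_nonneg (hM.nonneg x i) (hn i))

/-- four coordinates as a product of two pairs -/
def fourEquiv (S : Type) : (Fin 4 → S) ≃ (S × S) × (S × S) where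
  toFun s := ((s 0, s 1), (s 2, s 3))
  invFun q := ![q.1.1, q.1.2, q.2.1, q.2.2]
  left_inv := by
    intro s
    funext i
    fin_cases i <;> rfl
  right_inv := by
    intro q
    rfl

theorem PF_four (Phi : V3 → ℝ) {S : Type} [Fintype S] (M : S → V3) :
    PF Phi M 4 = ∑ s : (S × S) × (S × S),
      Phi (fun a => (M s.1.1 a * M s.1.2 a) * (M s.2.1 a * M s.2.2 a)) := by
  unfold PF
  rw [← (fourEquiv S).sum_comp]
  apply sum_congr rfl
  intro s _
  congr 1
  funext i
  rw [Fin.prod_univ_four, mul_assoc]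
  rfl

theorem domTree : StmtDomTree := by
  intro lam h0 h1 d n hd Phi h
  have hM : Chan (fun s => edge 3 lam (tch 3 lam n (dary d n) s)) :=
    chEdge lam h0 h1 _ _ (chTree lam h0 h1 n _)
  have h2 := PF_mono h hM hd
  rw [PF_four] at h2
  refine le_trans (le_of_eq ?_) h2
  rfl

end Vale.Agent.P154.AF
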