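import Vale.Agent.P154AF.EngS
import Vale.Agent.P154AF.SL1
import Vale.Agent.P154AF.SL2
import Vale.Agent.P154AF.CH

/-! Blocks of generations of the quantised run, and the start (helper file). -/

namespace Vale.Agent.P154.AF

open Finset Eng

theorem eng2_frcB (x : ℕ) (k : ℕ → Bool) : frcB x k = k x := by
  cases x <;> rfl

theorem eng2_rowF (x : P3) : ∀ l : List P3,
    ∃ r : List ℕ, ∀ k : List ℕ → Bool, rowF x l k = k r
  | [] => ⟨[], fun _ => rfl⟩
  | y :: l => by
    obtain ⟨r, hr⟩ := eng2_rowF x l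
    refine ⟨Nat.mul 2 (six x y) :: r, fun k => ?_⟩
    have e : rowF x (y :: l) k =
      frcB (Nat.mul 2 (six x y)) (fun v => rowF x l fun r => k (v :: r)) := rfl
    rw [e, eng2_frcB, hr]

theorem eng2_tabF : ∀ l : List P3,
    ∃ T : List (List ℕ), ∀ k : List (List ℕ) → Bool, tabF l k = k T
  | [] => ⟨[], fun _ => rfl⟩
  | x :: l => by
    obtain ⟨T, hT⟩ := eng2_tabF l
    obtain ⟨r, hr⟩ := eng2_rowF x l
    refine ⟨(six x x :: r) :: T, fun k => ?_⟩
    have e : tabF (x :: l) k =
      frcB (six x x) (fun v => rowF x l fun r => tabF l fun t => k ((v :: r) :: t)) := rfl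
    rw [e, eng2_frcB, hr, hT]

theorem eng2_chkO (sc acc : ℕ) : ∀ (ps : List P3) (os : List ℕ), chkO sc acc ps os = true →
    os.length = ps.length
  | [], [], _ => rfl
  | [], _ :: _, h => by
    exact absurd h Bool.false_ne_true
  | _ :: _, [], h => by
    exact absurd h Bool.false_ne_true
  | p :: ps, o :: os, h => by
    have e : chkO sc acc (p :: ps) (o :: os) = cond (Nat.ble (Nat.mul sc o)
        (Nat.mod (Nat.shiftRight acc (Nat.mul 64 (pos p.a p.b p.c))) 18446744073709551616))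
        (chkO sc acc ps os) false := rfl
    rw [e] at h
    generalize Nat.ble (Nat.mul sc o)
        (Nat.mod (Nat.shiftRight acc (Nat.mul 64 (pos p.a p.b p.c))) 18446744073709551616) = b
      at h
    cases b
    · exact absurd h Bool.false_ne_true
    · have := eng2_chkO sc acc ps os h
      simp [this]

theorem eng2_stg (sc : ℕ) (ps : List P3) (T : List (List ℕ)) (W : List ℕ) :
    ∀ O : List ℕ, stg sc ps T W O = true → O.length = ps.length + 1 ∧ sumL O = 16777216
  | [], h => absurd h Bool.false_ne_true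
  | o :: os, h => by
    have e : stg sc ps T W (o :: os) = cond (Nat.beq (sumL (o :: os)) 16777216)
      (frcB (qd T W) fun acc => chkO sc acc ps os) false := rfl
    rw [e, eng2_frcB] at h
    cases hb : Nat.beq (sumL (o :: os)) 16777216
    · rw [hb] at h
      exact absurd h Bool.false_ne_true
    · rw [hb] at h
      have h1 := eng2_chkO sc (qd T W) ps os h
      exact ⟨by simp [h1], Nat.eq_of_beq_eq_true hb⟩

theorem eng2_gens (h1 : StmtStage1) (h2 : StmtStage2) (T1 T2 : List (List ℕ))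
    (hT1 : ∀ k : List (List ℕ) → Bool, tabF (ptsG.map edg) k = k T1)
    (hT2 : ∀ k : List (List ℕ) → Bool, tabF ptsG k = k T2) :
    ∀ (data : List (List ℕ × List ℕ)) (W : List ℕ), gens T1 T2 data W = true →
      W.length = 91 → sumL W = 16777216 →
      (lastW W data).length = 91 ∧ sumL (lastW W data) = 16777216 ∧
      ∀ (d : ℕ) (lam : ℝ), d ≤ 4 → -1/2 ≤ lam → lam ≤ 0 → ∀ n m : ℕ, m = n + data.length →
        DomW (tch 3 lam n (dary d n)) W →
        DomW (tch 3 lam m (dary d m)) (lastW W data)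
  | [], W, _, hl, hs => by
    refine ⟨hl, hs, ?_⟩
    intro d lam _ _ _ n m hm hD
    have : m = n := by simpa using hm
    subst this
    exact hD
  | (O, W') :: l, W, hg, hl, hs => by
    have e : gens T1 T2 ((O, W') :: l) W = cond (stg 120795955200 ptsT T1 W O)
      (cond (stg 30198988800 ptsT T2 O W') (gens T1 T2 l W') false) false := rfl
    rw [e] at hg
    cases hb1 : stg 120795955200 ptsT T1 W O
    · rw [hb1] at hg
      exact absurd hg Bool.false_ne_true
    cases hb2 : stg 30198988800 ptsT T2 O W'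
    · rw [hb1, hb2] at hg
      exact absurd hg Bool.false_ne_true
    rw [hb1, hb2] at hg
    have hg' : gens T1 T2 l W' = true := hg
    have hn : ptsT.length = 90 := rfl
    obtain ⟨hOl, hOs⟩ := eng2_stg _ _ _ _ O hb1
    obtain ⟨hWl, hWs⟩ := eng2_stg _ _ _ _ W' hb2
    rw [hn] at hOl hWl
    obtain ⟨r1, r2, r3⟩ := eng2_gens h1 h2 T1 T2 hT1 hT2 l W' hg' hWl hWs
    refine ⟨r1, r2, ?_⟩
    intro d lam hd h0 h3 n m hm hD
    refine r3 d lam hd h0 h3 (n + 1) m ?_ ?_
    · rw [hm, List.length_cons]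
      omega
    have h01 : lam ≤ 1 := by linarith
    have hC : Chan (tch 3 lam n (dary d n)) := chTree lam h0 h01 n (dary d n)
    have hE : Chan (fun s => edge 3 lam (tch 3 lam n (dary d n) s)) :=
      chEdge lam h0 h01 _ _ hC
    have s1 := h1 W O (by rw [hT1]; exact hb1) hl hs lam h0 h3 _ (tch 3 lam n (dary d n)) hC hD
    have s2 := h2 O W' (by rw [hT2]; exact hb2) hOl hOs _ _ (hE.prod hE) s1
    intro Phi hPhi
    have s3 := domTree lam h0 h01 d n hd Phi hPhi
    have s4 := s2 Phi hPhi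
    have s5 := mul_le_mul_of_nonneg_left s3 (by norm_num : (0 : ℝ) ≤ 16777216)
    exact s5.trans s4

theorem runS (h1 : StmtStage1) (h2 : StmtStage2) : StmtRun := by
  intro W data hr hl hs
  obtain ⟨T1, hT1⟩ := eng2_tabF (ptsG.map edg)
  obtain ⟨T2, hT2⟩ := eng2_tabF ptsG
  have e : run W data = tabF (ptsG.map edg) fun T1 => tabF ptsG fun T2 => gens T1 T2 data W := rfl
  rw [e, hT1, hT2] at hr
  obtain ⟨r1, r2, r3⟩ := eng2_gens h1 h2 T1 T2 hT1 hT2 data W hr hl hs
  exact ⟨r1, r2, fun d lam hd h0 h3 n hD => r3 d lam hd h0 h3 n _ rfl hD⟩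

theorem eng2_zero (Phi : V3 → ℝ) : ∀ (ps : List P3) (k : ℕ),
    wval Phi ps (List.replicate k 0) = 0
  | [], 0 => rfl
  | [], _ + 1 => rfl
  | _ :: _, 0 => rfl
  | p :: ps, k + 1 => by
    have e : wval Phi (p :: ps) (List.replicate (k + 1) 0) =
      ((0 : ℕ) : ℝ) * sy Phi (mp p) + wval Phi ps (List.replicate k 0) := rfl
    rw [e, eng2_zero Phi ps k]
    simp

theorem eng2_vtx : mp ⟨30, 0, 0⟩ = vtx := by
  funext i
  unfold mp vtx
  fin_cases i
  · simp only [Fin.zero_eta, Matrix.cons_val_zero]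
    norm_num
  · simp only [Fin.mk_one, Matrix.cons_val_one, Matrix.cons_val_zero]
    norm_num
  · simp only [Fin.reduceFinMk, Matrix.cons_val]
    norm_num

theorem start : StmtStart := by
  intro d lam Phi hPhi
  have h := domZero lam (dary d 0) Phi hPhi
  have e : wval Phi ptsG (16777216 :: List.replicate 90 0) =
    ((16777216 : ℕ) : ℝ) * sy Phi (mp ⟨30, 0, 0⟩) + wval Phi ptsT (List.replicate 90 0) := rfl
  rw [e, eng2_zero, eng2_vtx, add_zero]
  have e2 : ∑ _i : Unit, (1 : ℝ) * sy Phi vtx = sy Phi vtx := by simp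
  have h' : ∑ s, Phi (tch 3 lam 0 (dary d 0) s) ≤ ∑ _i : Unit, (1 : ℝ) * sy Phi vtx := h
  rw [e2] at h'
  push_cast
  linarith

end Vale.Agent.P154.AF
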