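import Vale.Agent.P154AF.EngS
import Vale.Agent.P154AF.CtrLib

/-! The potential `F4` is below the simple majorant `Fhat`. -/

namespace Vale.Agent.P154.AF.ENG3

open CtrLib

theorem e1 (r : ℝ) (ha : -1 / 2 ≤ r) (hb : r ≤ 1) :
    0 ≤ (650 - 988 * r + 64 * r ^ 2) + 2 * r ^ 2 * (562 * r - 211) := by
  nlinarith [sq_nonneg (r - 3 / 5), sq_nonneg (r - 7 / 10), mul_nonneg (sub_nonneg.2 hb)
    (sq_nonneg (r - 3 / 5)), mul_nonneg (by linarith : (0 : ℝ) ≤ r + 1 / 2)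
    (sq_nonneg (r - 3 / 5)), mul_nonneg (by linarith : (0 : ℝ) ≤ r + 1 / 2)
    (sq_nonneg (r - 7 / 10)), mul_nonneg (by linarith : (0 : ℝ) ≤ r + 1 / 2)
    (sq_nonneg (r - 13 / 20))]

theorem e2 (r : ℝ) (ha : -1 / 2 ≤ r) (hb : r ≤ 1) :
    0 ≤ (3 - 2 * r) * (650 - 988 * r + 64 * r ^ 2) + 2 * (562 * r - 211) := by
  nlinarith [sq_nonneg (r - 3 / 5), mul_nonneg (sub_nonneg.2 hb)
    (sq_nonneg (r - 3 / 5)), mul_nonneg (by linarith : (0 : ℝ) ≤ r + 1 / 2)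
    (sq_nonneg (r - 3 / 5)), mul_nonneg (by linarith : (0 : ℝ) ≤ r + 1 / 2)
    (sq_nonneg (r - 7 / 10)), mul_nonneg (sub_nonneg.2 hb)
    (sq_nonneg (r - 4 / 5)), mul_nonneg (sub_nonneg.2 hb) (sub_nonneg.2 hb)]

end Vale.Agent.P154.AF.ENG3

namespace Vale.Agent.P154.AF

open CtrLib

theorem f4hat : StmtF4hat := by
  intro b hb
  unfold F4 Fhat
  rcases (u_nonneg b).eq_or_lt with hu | hu
  · have hw := w_sq hb
    rw [← hu] at hw
    have hw0 : wFn b = 0 := by nlinarith [sq_nonneg (wFn b)]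
    rw [← hu, hw0]
    norm_num
  · obtain ⟨r, hr, ha, hb1, hc, hd⟩ := slope hb hu
    rw [hr]
    set u := uFn 3 b
    have k1 := core (650 - 988 * r + 64 * r ^ 2) (562 * r - 211) r u hc hd hb1
      (ENG3.e1 r ha hb1) (ENG3.e2 r ha hb1)
    have k2 := mul_nonneg (sq_nonneg u) k1
    nlinarith [k2]

end Vale.Agent.P154.AF
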