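import Vale.Agent.P154AF.Core

/-! Sublinearity of homogeneous extensions of convex functions. -/

namespace Vale.Agent.P154.AF

open Finset Filter Topology

theorem sl3_ms_add (v w : V3) : ms 3 (fun i => v i + w i) = ms 3 v + ms 3 w := by
  unfold ms
  rw [sum_add_distrib, mul_add]

theorem slHom : StmtSLHom := by
  intro phi hphi
  refine ⟨?_, ?_⟩
  · intro c _ v _
    exact hom_smul phi c v
  · intro v w hv hw
    by_cases h1 : ms 3 v = 0
    · have h2 : ∀ i, v i = 0 := eq_zero_of_ms (by norm_num) hv h1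
      rw [hom_of_ms_zero phi h1, zero_add]
      have h3 : (fun i => v i + w i) = w := by
        funext i
        rw [h2 i, zero_add]
      rw [h3]
    by_cases h1' : ms 3 w = 0
    · have h2 : ∀ i, w i = 0 := eq_zero_of_ms (by norm_num) hw h1'
      rw [hom_of_ms_zero phi h1', add_zero]
      have h3 : (fun i => v i + w i) = v := by
        funext i
        rw [h2 i, add_zero]
      rw [h3]
    have hpv : 0 < ms 3 v := lt_of_le_of_ne (ms_nonneg hv) (Ne.symm h1)
    have hpw : 0 < ms 3 w := lt_of_le_of_ne (ms_nonneg hw) (Ne.symm h1')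
    have hs : 0 < ms 3 v + ms 3 w := by linarith
    have h4 := hphi.2 (norm_of_pos (by norm_num) hv h1 : Norm 3 _)
      (norm_of_pos (by norm_num) hw h1' : Norm 3 _)
      (div_nonneg hpv.le hs.le) (div_nonneg hpw.le hs.le) (by field_simp)
    have h5 : ((ms 3 v / (ms 3 v + ms 3 w)) • (fun i => v i / ms 3 v) +
        (ms 3 w / (ms 3 v + ms 3 w)) • (fun i => w i / ms 3 w) : V3)
        = fun i => (v i + w i) / (ms 3 v + ms 3 w) := by
      funext i
      simp only [Pi.add_apply, Pi.smul_apply, smul_eq_mul]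
      field_simp
    rw [h5] at h4
    rw [hom_eq, hom_eq, hom_eq, sl3_ms_add]
    have h6 := mul_le_mul_of_nonneg_left h4 hs.le
    refine h6.trans (le_of_eq ?_)
    simp only [smul_eq_mul]
    field_simp

theorem sl3_convex : Convex ℝ {A : V3 | Norm 3 A} := by
  intro A hA B hB a b ha hb hab
  refine ⟨?_, ?_⟩
  · intro i
    have h1 := hA.1 i
    have h2 := hB.1 i
    simp only [Pi.add_apply, Pi.smul_apply, smul_eq_mul]
    positivity
  · simp only [Pi.add_apply, Pi.smul_apply, smul_eq_mul]
    rw [sum_add_distrib, ← mul_sum, ← mul_sum, hA.2, hB.2, ← add_mul, hab, one_mul]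

theorem sl3_u : ConvexOn ℝ {A : V3 | Norm 3 A} (uFn 3) := by
  refine ⟨sl3_convex, ?_⟩
  intro A _ B _ a b ha hb hab
  unfold uFn
  simp only [Pi.add_apply, Pi.smul_apply, smul_eq_mul]
  rw [mul_left_comm a, mul_left_comm b, ← mul_add]
  apply mul_le_mul_of_nonneg_left _ (by positivity)
  rw [mul_sum, mul_sum, ← sum_add_distrib]
  apply sum_le_sum
  intro i _
  have hb' : b = 1 - a := by linarith
  subst hb'
  nlinarith [mul_nonneg (mul_nonneg ha hb) (sq_nonneg (A i - B i))]

theorem uPow : StmtUPow := by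
  intro k _
  exact sl3_u.pow (fun A _ => uFn_nonneg A) k

end Vale.Agent.P154.AF
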