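import Vale.Agent.P154AF.EngS
import Vale.Agent.P154AF.ENG3
import Vale.Agent.P154AF.SL3
import Vale.Agent.P154AF.CH

/-! End of a run: evaluation of the potential at the mesh points (helper file). -/

namespace Vale.Agent.P154.AF

open Finset Eng

theorem eng4_convex : ConvexOn ℝ {A : V3 | Norm 3 A} Fhat := by
  have h1 := uPow 1 le_rfl
  have h2 := (uPow 2 (by norm_num)).smul (by norm_num : (0 : ℝ) ≤ 11 / 100)
  have h3 := (uPow 3 (by norm_num)).smul (by norm_num : (0 : ℝ) ≤ 4 / 100)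
  have h := (h1.add h2).add h3
  refine (congrArg (fun f => ConvexOn ℝ {A : V3 | Norm 3 A} f) ?_).mp h
  funext A
  simp only [Pi.add_apply, smul_eq_mul, pow_one]
  unfold Fhat
  rfl

theorem eng4_u_perm (v : V3) (p : Equiv.Perm (Fin 3)) :
    uFn 3 (fun i => v (p i)) = uFn 3 v := by
  unfold uFn
  rw [Equiv.sum_comp p (fun i => (v i - 1) ^ 2)]

theorem eng4_hom (v : V3) (hv : Norm 3 v) (p : Equiv.Perm (Fin 3)) :
    hom 3 Fhat (fun i => v (p i)) = Fhat v := by
  have hm : ms 3 (fun i => v (p i)) = 1 := by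
    unfold ms
    rw [Equiv.sum_comp p v, hv.2]
    norm_num
  rw [hom_eq, hm]
  simp only [div_one, one_mul]
  unfold Fhat
  rw [eng4_u_perm]

theorem eng4_sy (v : V3) (hv : Norm 3 v) : sy (hom 3 Fhat) v = Fhat v := by
  unfold sy
  rw [sum_congr rfl (fun p _ => eng4_hom v hv p), sum_const, card_univ, Fintype.card_perm,
    Fintype.card_fin, nsmul_eq_mul]
  norm_num [Nat.factorial]
  ring

theorem eng4_norm (p : P3) (hp : p.a + p.b + p.c = 30) : Norm 3 (mp p) := by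
  have h : (p.a : ℝ) + p.b + p.c = 30 := by exact_mod_cast hp
  refine ⟨?_, ?_⟩
  · intro i
    unfold mp
    fin_cases i
    · simp only [Fin.zero_eta, Matrix.cons_val_zero]
      positivity
    · simp only [Fin.mk_one, Matrix.cons_val_one, Matrix.cons_val_zero]
      positivity
    · simp only [Fin.reduceFinMk, Matrix.cons_val]
      positivity
  · rw [Fin.sum_univ_three]
    unfold mp
    simp only [Matrix.cons_val_zero, Matrix.cons_val_one, Matrix.cons_val]
    push_cast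
    linarith

theorem eng4_fhat (p : P3) :
    2700000000 * Fhat (mp p) = ((9000000 *
      (((p.a : ℤ) - 10).natAbs ^ 2 + ((p.b : ℤ) - 10).natAbs ^ 2 +
        ((p.c : ℤ) - 10).natAbs ^ 2) +
      3300 * (((p.a : ℤ) - 10).natAbs ^ 2 + ((p.b : ℤ) - 10).natAbs ^ 2 +
        ((p.c : ℤ) - 10).natAbs ^ 2) ^ 2 +
      4 * (((p.a : ℤ) - 10).natAbs ^ 2 + ((p.b : ℤ) - 10).natAbs ^ 2 +
        ((p.c : ℤ) - 10).natAbs ^ 2) ^ 3 : ℕ) : ℝ) := by
  have k : ∀ x : ℕ, ((((x : ℤ) - 10).natAbs : ℕ) : ℝ) ^ 2 = ((x : ℝ) - 10) ^ 2 := by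
    intro x
    rw [Nat.cast_natAbs, Int.cast_abs, sq_abs]
    push_cast
    rfl
  unfold Fhat
  rw [CtrLib.u_eq]
  push_cast
  rw [k, k, k]
  unfold mp
  simp only [Matrix.cons_val_zero, Matrix.cons_val_one, Matrix.cons_val]
  ring

theorem eng4_wval : ∀ (ps : List P3) (W : List ℕ), (∀ p ∈ ps, p.a + p.b + p.c = 30) →
    2700000000 * wval (hom 3 Fhat) ps W = (fhN ps W : ℝ)
  | [], _, _ => by simp [wval, fhN]
  | _ :: _, [], _ => by simp [wval, fhN]
  | p :: ps, w :: ws, h => by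
    have ih := eng4_wval ps ws (fun q hq => h q (List.mem_cons_of_mem _ hq))
    have hp := h p List.mem_cons_self
    have e1 : wval (hom 3 Fhat) (p :: ps) (w :: ws) =
      (w : ℝ) * sy (hom 3 Fhat) (mp p) + wval (hom 3 Fhat) ps ws := rfl
    have e2 : fhN (p :: ps) (w :: ws) = w * (9000000 *
      (((p.a : ℤ) - 10).natAbs ^ 2 + ((p.b : ℤ) - 10).natAbs ^ 2 +
        ((p.c : ℤ) - 10).natAbs ^ 2) +
      3300 * (((p.a : ℤ) - 10).natAbs ^ 2 + ((p.b : ℤ) - 10).natAbs ^ 2 +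
        ((p.c : ℤ) - 10).natAbs ^ 2) ^ 2 +
      4 * (((p.a : ℤ) - 10).natAbs ^ 2 + ((p.b : ℤ) - 10).natAbs ^ 2 +
        ((p.c : ℤ) - 10).natAbs ^ 2) ^ 3) + fhN ps ws := rfl
    rw [e1, e2, eng4_sy _ (eng4_norm p hp), Nat.cast_add, Nat.cast_mul, ← eng4_fhat, ← ih]
    ring

theorem eng4_pts : ∀ p ∈ ptsG, p.a + p.b + p.c = 30 := by
  have h : ptsG.all (fun p => p.a + p.b + p.c == 30) = true := by decide +kernel
  intro p hp
  have := List.all_eq_true.mp h p hp
  simpa using this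

theorem endS : StmtEnd := by
  intro W hW d n lam h0 h1 hD
  have hch : Chan (tch 3 lam n (dary d n)) := chTree lam h0 (by linarith) n (dary d n)
  have h2 : KF F4 d lam n ≤ ev Fhat (tch 3 lam n (dary d n)) :=
    ev_mono_of (by norm_num) hch f4hat
  have h3 := hD (hom 3 Fhat) (slHom Fhat eng4_convex)
  have h4 : (∑ s, hom 3 Fhat (tch 3 lam n (dary d n) s)) = ev Fhat (tch 3 lam n (dary d n)) := rfl
  rw [h4] at h3
  have h5 := eng4_wval ptsG W eng4_pts
  have h6 : (100 : ℝ) * (fhN ptsG W : ℝ) ≤ 38 * 16777216 * 2700000000 := by exact_mod_cast hW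
  linarith

end Vale.Agent.P154.AF
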