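import Vale.Agent.P154AF.KBOUND

/-! Conclusion: the expected potential controls the advantage (helper file). -/

namespace Vale.Agent.P154.AF

open Finset Filter Topology
open scoped ENNReal

theorem Rng.u_le {F : V3 → ℝ} {M : ℝ} (h : Rng F M) : ∃ c : ℝ, 0 < c ∧
    ∀ (S : Type) [Fintype S] (L : S → V3), Chan L → ev (uFn 3) L ≤ c * ev F L := by
  obtain ⟨⟨c, hc, h1⟩, _⟩ := h
  refine ⟨1 / c, by positivity, ?_⟩
  intro S _ L hL
  have h2 := ev_mono_of (by norm_num : 0 < 3) hL (phi := F) (psi := fun A => c * uFn 3 A) h1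
  rw [ev_const_mul] at h2
  rw [one_div, inv_mul_eq_div, le_div_iff₀ hc]
  linarith

/-- regular trees -/
theorem finReg_of (hch : StmtChTree) (hadv : StmtAdv) : StmtFinReg := by
  intro F M hR d lam hl0 hl1 hT
  have hC : ∀ (n : ℕ) (T : Tree n), Chan (tch 3 lam n T) := hch lam hl0 hl1
  have hp := potts3_nonneg hl0 hl1
  obtain ⟨c, hc, hu⟩ := hR.u_le
  apply tendsto_of_bound (x := fun n => c * KF F d lam n)
  · intro n
    exact adv_nonneg hp _
  · simpa using hT.const_mul c
  · intro eta heta n
    refine (hadv lam hl0 hl1 n (dary d n) eta heta).trans ?_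
    have := mul_le_mul_of_nonneg_left (hu _ _ (hC n (dary d n)))
      (by positivity : (0 : ℝ) ≤ 1 / (4 * eta))
    have h2 : KF F d lam n = ev F (tch 3 lam n (dary d n)) := rfl
    rw [h2]
    linarith

/-- Poisson trees -/
theorem finGW_of (hch : StmtChTree) (hadv : StmtAdv) : StmtFinGW := by
  intro F M hR d lam hd hl0 hl1 hT
  have hC : ∀ (n : ℕ) (T : Tree n), Chan (tch 3 lam n T) := hch lam hl0 hl1
  have hp := potts3_nonneg hl0 hl1
  obtain ⟨c, hc, hu⟩ := hR.u_le
  apply tendsto_of_bound (x := fun n => c * KG F d lam n)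
  · intro n
    exact aGW_nonneg hp hd.le n
  · simpa using hT.const_mul c
  · intro eta heta n
    have h0 := gwProb_nonneg hd.le n
    have hb : ∀ T, |ev F (tch 3 lam n T)| ≤ M := by
      intro T
      rw [abs_of_nonneg (hR.ev_nonneg (hC n T))]
      exact hR.ev_le (hC n T)
    have hsF := gw_summable_of_bdd hd.le n hb
    have hsA : Summable (fun T => gwProb d n T * adv 3 lam n T) := by
      apply gw_summable_of_bdd hd.le n (C := 1)
      intro T
      rw [abs_of_nonneg (adv_nonneg hp T)]
      exact adv_le_one (by norm_num) hp T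
    have h1 : ∀ T, gwProb d n T * adv 3 lam n T ≤ gwProb d n T * (eta / 4) +
        1 / (4 * eta) * c * (gwProb d n T * ev F (tch 3 lam n T)) := by
      intro T
      have e1 := hadv lam hl0 hl1 n T eta heta
      have e2 := mul_le_mul_of_nonneg_left (hu _ _ (hC n T))
        (by positivity : (0 : ℝ) ≤ 1 / (4 * eta))
      have e3 : adv 3 lam n T ≤ eta / 4 + 1 / (4 * eta) * c * ev F (tch 3 lam n T) := by
        linarith
      have e4 := mul_le_mul_of_nonneg_left e3 (h0 T)
      linarith
    have hs1 : HasSum (fun T => gwProb d n T * (eta / 4)) (1 * (eta / 4)) :=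
      (gw_hasSum hd.le n).mul_right _
    have hs2 := hsF.hasSum.mul_left (1 / (4 * eta) * c)
    have h2 := hsA.tsum_le_tsum h1 (hs1.add hs2).summable
    rw [(hs1.add hs2).tsum_eq] at h2
    have h3 : KG F d lam n = ∑' T, gwProb d n T * ev F (tch 3 lam n T) := rfl
    have h4 : aGW 3 d lam n = ∑' T, gwProb d n T * adv 3 lam n T := rfl
    rw [h3, h4]
    linarith

theorem finReg : StmtFinReg := finReg_of chTree advU

theorem finGW : StmtFinGW := finGW_of chTree advU

end Vale.Agent.P154.AF
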