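import Vale.Agent.P154AF.Core

/-! Degree at most four (module FOUR). -/

namespace Vale.Agent.P154.AF

open Finset Filter Topology

/-- a sequence with eventual quadratic damping tends to zero -/
theorem tendsto_of_damping_sq {x : ℕ → ℝ} (h0 : ∀ n, 0 ≤ x n) (n0 : ℕ) {c : ℝ} (hc : 0 < c)
    (h : ∀ n, n0 ≤ n → x (n + 1) ≤ x n - c * x n ^ 2) : Tendsto x atTop (𝓝 0) := by
  rw [← tendsto_add_atTop_iff_nat n0]
  set y : ℕ → ℝ := fun n => x (n + n0) with hy
  have hy0 : ∀ n, 0 ≤ y n := fun n => h0 _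
  have hy1 : ∀ n, y (n + 1) ≤ y n - c * y n ^ 2 := by
    intro n
    have := h (n + n0) (Nat.le_add_left _ _)
    have e : n + 1 + n0 = n + n0 + 1 := by ring
    simp only [hy, e]
    exact this
  have hanti : Antitone y := by
    apply antitone_nat_of_succ_le
    intro n
    have h1 := hy1 n
    have h2 := mul_nonneg hc.le (pow_nonneg (hy0 n) 2)
    linarith
  have hlim : Tendsto y atTop (𝓝 (⨅ n, y n)) :=
    tendsto_atTop_ciInf hanti ⟨0, by rintro _ ⟨n, rfl⟩; exact hy0 n⟩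
  set L := ⨅ n, y n with hL
  have hL0 : 0 ≤ L := ge_of_tendsto' hlim hy0
  have h1 : Tendsto (fun n => y (n + 1)) atTop (𝓝 L) := hlim.comp (tendsto_add_atTop_nat 1)
  have h2 : Tendsto (fun n => y n - c * y n ^ 2) atTop (𝓝 (L - c * L ^ 2)) :=
    hlim.sub ((hlim.pow 2).const_mul c)
  have h3 : L ≤ L - c * L ^ 2 := le_of_tendsto_of_tendsto' h1 h2 hy1
  have h4 : L = 0 := by
    by_contra hne
    have : 0 < L := lt_of_le_of_ne hL0 (Ne.symm hne)
    have := mul_pos hc (pow_pos this 2)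
    linarith
  rw [h4] at hlim
  exact hlim

theorem norm_one3 : Norm 3 one3 := by
  refine ⟨fun i => by simp [one3], by simp [one3]⟩

/-- the binomial recursion is monotone in the start when `h` is monotone -/
theorem PB_mono_k {h : ℕ → ℝ} (hm : ∀ k, h k ≤ h (k + 1)) {θ : ℝ} (h0 : 0 ≤ θ) (h1 : θ ≤ 1) :
    ∀ j k, PB h θ j k ≤ PB h θ j (k + 1) := by
  intro j
  induction j with
  | zero => intro k; exact hm k
  | succ j ih =>
    intro k
    simp only [PB]
    have a := mul_le_mul_of_nonneg_left (ih k) (sub_nonneg.mpr h1)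
    have b := mul_le_mul_of_nonneg_left (ih (k + 1)) h0
    linarith

theorem PB_mono_j {h : ℕ → ℝ} (hm : ∀ k, h k ≤ h (k + 1)) {θ : ℝ} (h0 : 0 ≤ θ) (h1 : θ ≤ 1)
    (j k : ℕ) : PB h θ j k ≤ PB h θ (j + 1) k := by
  have := mul_le_mul_of_nonneg_left (PB_mono_k hm h0 h1 j k) h0
  simp only [PB]
  linarith

/-- the chain of potentials -/
noncomputable def H4 (F H1 H2 H3 : V3 → ℝ) : ℕ → V3 → ℝ
  | 0 => F
  | 1 => H1
  | 2 => H2
  | _ => H3

/-- the values of the chain -/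
noncomputable def hh4 (g h2 h3 h4 : ℝ) : ℕ → ℝ
  | 0 => 0
  | 1 => g
  | 2 => h2
  | 3 => h3
  | _ => h4

theorem hh4_mono {g h2 h3 h4 : ℝ} (m1 : 0 ≤ g) (m2 : g ≤ h2) (m3 : h2 ≤ h3) (m4 : h3 ≤ h4) :
    ∀ k, hh4 g h2 h3 h4 k ≤ hh4 g h2 h3 h4 (k + 1) := by
  intro k
  match k with
  | 0 => exact m1
  | 1 => exact m2
  | 2 => exact m3
  | 3 => exact m4
  | n + 4 => exact le_refl _

theorem PB_four (g h2 h3 h4 θ : ℝ) : PB (hh4 g h2 h3 h4) θ 4 0 =
    4 * θ * (1 - θ) ^ 3 * g + 6 * θ ^ 2 * (1 - θ) ^ 2 * h2 + 4 * θ ^ 3 * (1 - θ) * h3 +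
      θ ^ 4 * h4 := by
  simp only [PB, hh4]
  ring

/-- one generation for degree at most four -/
theorem four_gen (hreg : StmtReg) (g : ℝ) (F H1 H2 H3 : V3 → ℝ) (h2 h3 h4 : ℝ) (hg : 0 < g)
    (hF0 : ∀ b, Norm 3 b → 0 ≤ F b)
    (C : CertFour g F H1 H2 H3 h2 h3 h4) (d : ℕ) (hd2 : 2 ≤ d) (hd4 : d ≤ 4) (lam : ℝ)
    (hl1 : -1/2 ≤ lam) (hl0 : lam < 0) (n : ℕ) :
    ∃ κ : ℝ, 0 ≤ κ ∧ κ ≤ lam ^ 2 * KF F d lam n ∧
        (κ ≤ g → KF F d lam (n + 1) ≤ PB (hh4 g h2 h3 h4) (κ / g) 4 0) := by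
  have ht0 : (0:ℝ) ≤ -2 * lam := by linarith
  have ht1 : -2 * lam ≤ 1 := by linarith
  have htl : -2 * lam * (-1/2) = lam := by ring
  have hmono := hh4_mono C.m1 C.m2 C.m3 C.m4
  have key : ∀ κ, 0 ≤ κ → κ ≤ g → PB (hh4 g h2 h3 h4) (κ / g) d 0 ≤
      PB (hh4 g h2 h3 h4) (κ / g) 4 0 := by
    intro κ h0 h1
    have ha : 0 ≤ κ / g := div_nonneg h0 hg.le
    have hb : κ / g ≤ 1 := by rw [div_le_one hg]; exact h1
    have hmj : Monotone fun j => PB (hh4 g h2 h3 h4) (κ / g) j 0 :=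
      monotone_nat_of_le_succ fun j => PB_mono_j hmono ha hb j 0
    exact hmj hd4
  have hR : ∃ κ : ℝ, 0 ≤ κ ∧ κ ≤ (-2 * lam * (-1/2)) ^ 2 * KF F d (-2 * lam * (-1/2)) n ∧
        (κ ≤ g → KF F d (-2 * lam * (-1/2)) (n + 1) ≤ PB (hh4 g h2 h3 h4) (κ / g) d 0) := by
    refine hreg (-1/2) g (by norm_num) (by norm_num) hg F (H4 F H1 H2 H3) (hh4 g h2 h3 h4) d
      (by omega) rfl C.ctr hF0 ?_ ?_ ?_ (-2 * lam) ht0 ht1 n
    · intro k hk
      have : k < 4 := lt_of_lt_of_le hk hd4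
      interval_cases k
      · exact C.F_one.symm
      · exact C.H1_one.symm
      · exact C.H2_one.symm
      · exact C.H3_one.symm
    · intro k hk
      have : k < 3 := by omega
      interval_cases k
      · exact C.s0
      · exact C.s1
      · exact C.s2
    · have hdd : d = 2 ∨ d = 3 ∨ d = 4 := by omega
      rcases hdd with rfl | rfl | rfl
      · intro b hb
        have := C.s1 one3 b norm_one3 hb
        simp only [C.H1_one, C.H2_one] at this
        exact this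
      · intro b hb
        have := C.s2 one3 b norm_one3 hb
        simp only [C.H2_one, C.H3_one] at this
        exact this
      · exact C.s3
  rw [htl] at hR
  obtain ⟨κ, h0, h1, h2'⟩ := hR
  exact ⟨κ, h0, h1, fun hk => (h2' hk).trans (key κ h0 hk)⟩

theorem four (hreg : StmtReg) (hkb : StmtKBound) : StmtFour := by
  intro g F H1 H2 H3 h2 h3 h4 hg C d lam hd2 hd4 hl1 hl0 hex
  obtain ⟨M, hM⟩ := C.rng
  have hF0 : ∀ b, Norm 3 b → 0 ≤ F b := by
    intro b hb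
    obtain ⟨⟨c, hc, hcu⟩, -⟩ := hM
    have h1 := hcu b hb
    have h2 : 0 ≤ uFn 3 b := by
      unfold uFn
      positivity
    exact (mul_nonneg hc.le h2).trans h1
  have hK0 : ∀ n, 0 ≤ KF F d lam n := fun n =>
    ((hkb F M hM lam hl1 (by linarith)).1 d n).1
  obtain ⟨c0, hc0, hdamp0⟩ := C.damp
  set c := min c0 (2 * g) with hcdef
  have hc : 0 < c := lt_min hc0 (by linarith)
  have hdamp : ∀ θ : ℝ, 0 ≤ θ → θ ≤ 1 → PB (hh4 g h2 h3 h4) θ 4 0 ≤ 4 * g * θ - c * θ ^ 2 := by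
    intro θ h0 h1
    rw [PB_four]
    have a := hdamp0 θ h0 h1
    have b : c * θ ^ 2 ≤ c0 * θ ^ 2 := mul_le_mul_of_nonneg_right (min_le_left _ _) (sq_nonneg _)
    linarith
  have hstep : ∀ n, KF F d lam n ≤ 4 * g →
      KF F d lam (n + 1) ≤ KF F d lam n - c / (16 * g ^ 2) * KF F d lam n ^ 2 := by
    intro n hn
    obtain ⟨κ, k0, k1, k2⟩ := four_gen hreg g F H1 H2 H3 h2 h3 h4 hg hF0 C d hd2 hd4 lam hl1 hl0 n
    have hlsq : lam ^ 2 ≤ 1 / 4 := by nlinarith
    have hk4 : κ ≤ KF F d lam n / 4 := by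
      have := mul_le_mul_of_nonneg_right hlsq (hK0 n)
      linarith
    have hkg : κ ≤ g := by linarith
    have a := k2 hkg
    have hθ0 : 0 ≤ κ / g := div_nonneg k0 hg.le
    have hθ1 : κ / g ≤ 1 := by rw [div_le_one hg]; exact hkg
    have b := hdamp (κ / g) hθ0 hθ1
    set θ := κ / g with hθ
    set θ' := KF F d lam n / (4 * g) with hθ'
    have hθθ : θ ≤ θ' := by
      rw [hθ, hθ', div_le_div_iff₀ hg (by linarith)]
      nlinarith
    have hθ'1 : θ' ≤ 1 := by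
      rw [hθ', div_le_one (by linarith)]
      exact hn
    have hcg : c ≤ 2 * g := min_le_right _ _
    have mono : 4 * g * θ - c * θ ^ 2 ≤ 4 * g * θ' - c * θ' ^ 2 := by
      have e : (4 * g * θ' - c * θ' ^ 2) - (4 * g * θ - c * θ ^ 2) =
          (θ' - θ) * (4 * g - c * (θ + θ')) := by ring
      have e2 : c * (θ + θ') ≤ 2 * g * 2 := by
        apply mul_le_mul hcg (by linarith) (by linarith) (by linarith)
      have e3 : 0 ≤ (θ' - θ) * (4 * g - c * (θ + θ')) :=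
        mul_nonneg (by linarith) (by linarith)
      linarith
    have hfin : 4 * g * θ' - c * θ' ^ 2 =
        KF F d lam n - c / (16 * g ^ 2) * KF F d lam n ^ 2 := by
      rw [hθ']
      have : g ≠ 0 := hg.ne'
      field_simp
      ring
    linarith
  obtain ⟨n0, hn0⟩ := hex
  have hall : ∀ n, n0 ≤ n → KF F d lam n ≤ 4 * g := by
    intro n hn
    induction n, hn using Nat.le_induction with
    | base => exact hn0
    | succ m hm ih =>
      have a := hstep m ih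
      have b : 0 ≤ c / (16 * g ^ 2) * KF F d lam m ^ 2 := by positivity
      linarith
  exact tendsto_of_damping_sq hK0 n0 (c := c / (16 * g ^ 2)) (by positivity)
    fun n hn => hstep n (hall n hn)

end Vale.Agent.P154.AF
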