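import Vale.Agent.P154AF.Core2
import Vale.Agent.P154AF.Data
import Vale.Agent.P154AF.BIG
import Vale.Agent.P154AF.FOUR
import Vale.Agent.P154AF.FIN
import Vale.Agent.P154.KS
import Vale.Agent.P154.CertQ3
import Vale.Agent.P154.CertQ4

/-! Conclusion from the certificates (helper file). -/

namespace Vale.Agent.P154.AF

open Finset Filter Topology

/-- everything that remains for the negative range -/
structure Pieces : Prop where
  finReg : StmtFinReg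
  finGW : StmtFinGW
  big : StmtBig
  four : StmtFour
  poi : StmtPoiPW
  cb : ∃ (g c : ℝ) (F H1 : V3 → ℝ), 0 < g ∧ CertBig (-17/38) g c F H1
  cf : ∃ (g : ℝ) (F H1 H2 H3 : V3 → ℝ) (h2 h3 h4 : ℝ), 0 < g ∧
    CertFour g F H1 H2 H3 h2 h3 h4 ∧
    ∀ (d : ℕ) (lam : ℝ), 2 ≤ d → d ≤ 4 → -1/2 ≤ lam → lam < 0 → ∃ n, KF F d lam n ≤ 4 * g
  cp : ∃ (S : ℝ) (J : ℕ) (br : ℕ → ℝ) (f : ℕ → V3 → ℝ) (c : ℝ), CertPW S J br f c

theorem nonrec_reg_neg (P : Pieces) {lam : ℝ} (h0 : -1/2 ≤ lam) (h1 : lam < 0) {d : ℕ}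
    (hd : 2 ≤ d) (h : (d : ℝ) * lam ^ 2 ≤ 1) : Nonreconstruction (aReg 3 d lam) := by
  rcases le_or_gt d 4 with h4 | h4
  · obtain ⟨g, F, H1, H2, H3, h2, h3, h4', hg, hc, hrun⟩ := P.cf
    obtain ⟨M, hM⟩ := hc.rng
    exact P.finReg F M hM d lam h0 (by linarith)
      (P.four g F H1 H2 H3 h2 h3 h4' hg hc d lam hd h4 h0 h1 (hrun d lam hd h4 h0 h1))
  · obtain ⟨g, c, F, H1, hg, hc⟩ := P.cb
    refine P.finReg F _ hc.rng d lam h0 (by linarith)
      (P.big (-17/38) g c F H1 (by norm_num) (by norm_num) hg hc d lam hd ?_ h1 h)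
    have h5 : (5 : ℝ) ≤ d := by exact_mod_cast h4
    nlinarith [sq_nonneg lam, mul_le_mul_of_nonneg_right h5 (sq_nonneg lam)]

theorem nonrec_gw_neg (P : Pieces) {lam : ℝ} (h0 : -1/2 ≤ lam) (h1 : lam < 0) {d : ℝ}
    (hd : 0 < d) (h : d * lam ^ 2 ≤ 1) : Nonreconstruction (aGW 3 d lam) := by
  obtain ⟨S, J, br, f, c, hc⟩ := P.cp
  exact P.finGW (f 0) S hc.rng d lam hd h0 (by linarith) (P.poi S J br f c hc d lam hd h0 h1 h)

private theorem not_both {a : ℕ → ℝ} (h : Reconstruction a) (h' : Nonreconstruction a) : False := by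
  obtain ⟨L, hL, hT⟩ := h
  exact hL.ne' (tendsto_nhds_unique hT h')

/-- the two tree models for one pair of nonreconstruction statements -/
theorem both {q : ℕ} (hq : 2 ≤ q) {lam : ℝ} (hl : -1 / ((q : ℝ) - 1) ≤ lam) (h1 : lam ≤ 1)
    (hR : ∀ d : ℕ, 2 ≤ d → (d : ℝ) * lam ^ 2 ≤ 1 → Nonreconstruction (aReg q d lam))
    (hG : ∀ d : ℝ, 0 < d → d * lam ^ 2 ≤ 1 → Nonreconstruction (aGW q d lam)) :
    (∀ d : ℕ, 2 ≤ d →
      (Reconstruction (aReg q d lam) ↔ 1 < (d : ℝ) * lam ^ 2) ∧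
      (Nonreconstruction (aReg q d lam) ↔ (d : ℝ) * lam ^ 2 ≤ 1)) ∧
    (∀ d : ℝ, 0 < d →
      (Reconstruction (aGW q d lam) ↔ 1 < d * lam ^ 2) ∧
      (Nonreconstruction (aGW q d lam) ↔ d * lam ^ 2 ≤ 1)) := by
  refine ⟨fun d hd => ⟨⟨fun h => ?_, fun h => KS_reg hq hl h1 h⟩,
      ⟨fun h => ?_, fun h => hR d hd h⟩⟩,
    fun d hd => ⟨⟨fun h => ?_, fun h => KS_gw hq hl h1 hd h⟩,
      ⟨fun h => ?_, fun h => hG d hd h⟩⟩⟩
  · by_contra hc
    exact not_both h (hR d hd (not_lt.mp hc))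
  · by_contra hc
    exact not_both (KS_reg hq hl h1 (not_le.mp hc)) h
  · by_contra hc
    exact not_both h (hG d hd (not_lt.mp hc))
  · by_contra hc
    exact not_both (KS_gw hq hl h1 hd (not_le.mp hc)) h

/-- the complete answer, from the pieces -/
theorem full_of (P : Pieces) :
    ∀ q : ℕ, ∀ lam : ℝ, (q = 3 ∧ -1/2 ≤ lam ∧ lam ≤ 1) ∨ (q = 4 ∧ 0 ≤ lam ∧ lam ≤ 1) →
      (∀ d : ℕ, 2 ≤ d →
        (Reconstruction (aReg q d lam) ↔ 1 < (d : ℝ) * lam ^ 2) ∧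
        (Nonreconstruction (aReg q d lam) ↔ (d : ℝ) * lam ^ 2 ≤ 1)) ∧
      (∀ d : ℝ, 0 < d →
        (Reconstruction (aGW q d lam) ↔ 1 < d * lam ^ 2) ∧
        (Nonreconstruction (aGW q d lam) ↔ d * lam ^ 2 ≤ 1)) := by
  rintro q lam (⟨rfl, h0, h1⟩ | ⟨rfl, h0, h1⟩)
  · refine both (by norm_num) ?_ h1 ?_ ?_
    · norm_num
      linarith
    · intro d hd h
      rcases lt_or_ge lam 0 with hl | hl
      · exact nonrec_reg_neg P h0 hl hd h
      · exact nonrec_reg (by norm_num) Q3.cert hl h1 hd h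
    · intro d hd h
      rcases lt_or_ge lam 0 with hl | hl
      · exact nonrec_gw_neg P h0 hl hd h
      · exact nonrec_gw (by norm_num) Q3.cert hl h1 hd h
  · refine both (by norm_num) ?_ h1 ?_ ?_
    · norm_num
      linarith
    · intro d hd h
      exact nonrec_reg (by norm_num) Q4.cert h0 h1 hd h
    · intro d hd h
      exact nonrec_gw (by norm_num) Q4.cert h0 h1 hd h

end Vale.Agent.P154.AF
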