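import Vale.Agent.P154AF.GWC

/-! The Poisson recursion (module GW1). -/

namespace Vale.Agent.P154.AF

open Finset Filter Topology

/-- the iterated kernel operator for a finite family of children -/
noncomputable def RT (lam : ℝ) (n : ℕ) (phi : V3 → ℝ) : (k : ℕ) → (Fin k → Tree n) → V3 → ℝ
  | 0, _ => phi
  | k + 1, t => TO (ech lam n (t 0)) (RT lam n phi k (fun c => t c.succ))

/-- several factors -/
theorem rt_iter {lam : ℝ} (h0 : -1 / 2 ≤ lam) (h1 : lam ≤ 1) (n : ℕ) (phi : V3 → ℝ) :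
    ∀ (k : ℕ) (t : Fin k → Tree n) {v : V3}, (∀ i, 0 ≤ v i) →
    ∑ s : ∀ c : Fin k, Bdry 3 n (t c), hom 3 phi (fun i => v i * ∏ c, ech lam n (t c) (s c) i) =
      hom 3 (RT lam n phi k t) v := by
  intro k
  induction k with
  | zero =>
    intro t v _
    simp [RT]
  | succ k ih =>
    intro t v hv
    have hM := ech_chan h0 h1 n (t 0)
    show _ = hom 3 (TO (ech lam n (t 0)) (RT lam n phi k (fun c => t c.succ))) v
    rw [← op_one hM _ hv,
      ← (Fin.consEquiv (fun c : Fin (k + 1) => Bdry 3 n (t c))).sum_comp, Fintype.sum_prod_type]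
    apply sum_congr rfl
    intro x _
    rw [← ih (fun c => t c.succ) (fun i => mul_nonneg (hv i) (hM.nonneg x i))]
    apply sum_congr rfl
    intro s _
    congr 1
    funext i
    rw [Fin.prod_univ_succ, mul_assoc]
    rfl

theorem rt_bound {lam : ℝ} (h0 : -1 / 2 ≤ lam) (h1 : lam ≤ 1) (n : ℕ) {phi : V3 → ℝ} {C : ℝ}
    (h : ∀ A, Norm 3 A → |phi A| ≤ C) :
    ∀ (k : ℕ) (t : Fin k → Tree n) (A : V3), Norm 3 A → |RT lam n phi k t A| ≤ C := by
  intro k
  induction k with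
  | zero => exact fun t A hA => h A hA
  | succ k ih =>
    intro t A hA
    exact gwc_TO_bound (ech_chan h0 h1 n (t 0)) (ih (fun c => t c.succ)) hA

theorem rt_ev {lam : ℝ} (h0 : -1 / 2 ≤ lam) (h1 : lam ≤ 1) (n : ℕ) (phi : V3 → ℝ)
    (k : ℕ) (t : Fin k → Tree n) :
    ev phi (tch 3 lam (n + 1) (node k t)) = RT lam n phi k t one3 := by
  rw [← gwc_hom gwc_norm_one (RT lam n phi k t), ← rt_iter h0 h1 n phi k t gwc_norm_one.1]
  have e : ev phi (tch 3 lam (n + 1) (node k t)) =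
      ev phi (fun (s : ∀ c : Fin k, Bdry 3 n (t c)) i =>
        one3 i * ∏ c, ech lam n (t c) (s c) i) := by
    refine ev_equiv ((Equiv.refl (∀ c : Fin k, Bdry 3 n (t c)) :
      (∀ c : Fin k, Bdry 3 n (t c)) ≃ Bdry 3 (n + 1) (node k t))) phi ?_
    intro s
    funext i
    have : one3 i = 1 := rfl
    rw [this, one_mul]
    rfl
  rw [e]
  rfl

/-- product weights -/
theorem pw_hasSum {d : ℝ} (hd : 0 < d) (n : ℕ) : ∀ k : ℕ,
    HasSum (fun t : Fin k → Tree n => ∏ c, gwProb d n (t c)) 1 := by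
  intro k
  induction k with
  | zero =>
    have h := hasSum_fintype (fun t : Fin 0 → Tree n => ∏ c, gwProb d n (t c))
    rw [Fintype.sum_unique, Fin.prod_univ_zero] at h
    exact h
  | succ k ih =>
    rw [← (Fin.consEquiv (fun _ : Fin (k + 1) => Tree n)).hasSum_iff]
    have h1 := gwc_hasSum hd n
    have hs := h1.summable.mul_of_nonneg ih.summable (fun T => gwProb_nonneg hd.le n T)
      (fun t => prod_nonneg fun c _ => gwProb_nonneg hd.le n (t c))
    have h2 := h1.mul ih hs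
    rw [one_mul] at h2
    refine h2.congr_fun ?_
    intro p
    show (∏ c, gwProb d n _) = _
    rw [Fin.prod_univ_succ]
    rfl

theorem pw_nonneg {d : ℝ} (hd : 0 < d) (n k : ℕ) (t : Fin k → Tree n) :
    0 ≤ ∏ c, gwProb d n (t c) := prod_nonneg fun c _ => gwProb_nonneg hd.le n (t c)

/-- product weights of a first child and the others -/
theorem pw_summ {d : ℝ} (hd : 0 < d) (n k : ℕ) :
    Summable (fun p : Tree n × (Fin k → Tree n) => gwProb d n p.1 * ∏ c, gwProb d n (p.2 c)) := by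
  have h1 : (0 : Tree n → ℝ) ≤ gwProb d n := fun T => gwProb_nonneg hd.le n T
  have h2 : (0 : (Fin k → Tree n) → ℝ) ≤ fun t => ∏ c, gwProb d n (t c) :=
    fun t => pw_nonneg hd n k t
  exact Summable.mul_of_nonneg (f := gwProb d n)
    (g := fun t : Fin k → Tree n => ∏ c, gwProb d n (t c))
    (gwc_summ hd n) (pw_hasSum hd n k).summable h1 h2

/-- nonnegativity of the weights of a first child and the others -/
theorem pw_nonneg2 {d : ℝ} (hd : 0 < d) (n k : ℕ) (p : Tree n × (Fin k → Tree n)) :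
    0 ≤ gwProb d n p.1 * ∏ c, gwProb d n (p.2 c) :=
  mul_nonneg (gwProb_nonneg hd.le n p.1) (pw_nonneg hd n k p.2)

theorem rt_summ {lam : ℝ} (h0 : -1 / 2 ≤ lam) (h1 : lam ≤ 1) {d : ℝ} (hd : 0 < d) (n : ℕ)
    {phi : V3 → ℝ} {C : ℝ} (h : ∀ A, Norm 3 A → |phi A| ≤ C) (k : ℕ) (A : V3) (hA : Norm 3 A) :
    Summable (fun p : Tree n × (Fin k → Tree n) =>
        (gwProb d n p.1 * ∏ c, gwProb d n (p.2 c)) *
          TO (ech lam n p.1) (RT lam n phi k p.2) A) := by
  have hb : ∀ p : Tree n × (Fin k → Tree n),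
      |TO (ech lam n p.1) (RT lam n phi k p.2) A| ≤ C := by
    intro p
    exact gwc_TO_bound (ech_chan h0 h1 n p.1) (rt_bound h0 h1 n h k p.2) hA
  exact gwc_summable (P := fun p : Tree n × (Fin k → Tree n) =>
    gwProb d n p.1 * ∏ c, gwProb d n (p.2 c))
    (g := fun p => TO (ech lam n p.1) (RT lam n phi k p.2) A) (C := C)
    (pw_nonneg2 hd n k) (pw_summ hd n k) hb

/-- the first child is split off -/
theorem q_succ {lam : ℝ} (h0 : -1 / 2 ≤ lam) (h1 : lam ≤ 1) {d : ℝ} (hd : 0 < d) (n : ℕ)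
    {phi : V3 → ℝ} {C : ℝ} (h : ∀ A, Norm 3 A → |phi A| ≤ C) (k : ℕ) (A : V3) (hA : Norm 3 A) :
    ∑' t : Fin (k + 1) → Tree n, (∏ c, gwProb d n (t c)) * RT lam n phi (k + 1) t A =
      ∑' T : Tree n, ∑' t : Fin k → Tree n, (gwProb d n T * ∏ c, gwProb d n (t c)) *
          TO (ech lam n T) (RT lam n phi k t) A := by
  have e1 : ∀ p : Tree n × (Fin k → Tree n),
      (∏ c, gwProb d n (Fin.consEquiv (fun _ : Fin (k + 1) => Tree n) p c)) *
        RT lam n phi (k + 1) (Fin.consEquiv (fun _ : Fin (k + 1) => Tree n) p) A =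
      (gwProb d n p.1 * ∏ c, gwProb d n (p.2 c)) * TO (ech lam n p.1) (RT lam n phi k p.2) A := by
    intro p
    rw [Fin.prod_univ_succ]
    rfl
  rw [← (rt_summ h0 h1 hd n h k A hA).tsum_prod,
    ← (Fin.consEquiv (fun _ : Fin (k + 1) => Tree n)).tsum_eq]
  exact tsum_congr e1

theorem q_iter {lam : ℝ} (h0 : -1 / 2 ≤ lam) (h1 : lam ≤ 1) {d : ℝ} (hd : 0 < d) (n : ℕ)
    {phi : V3 → ℝ} {C : ℝ} (h : ∀ A, Norm 3 A → |phi A| ≤ C) : ∀ (k : ℕ) (A : V3), Norm 3 A →
    ∑' t : Fin k → Tree n, (∏ c, gwProb d n (t c)) * RT lam n phi k t A =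
      ((TG d lam n)^[k] phi) A := by
  intro k
  induction k with
  | zero =>
    intro A _
    rw [tsum_fintype, Fintype.sum_unique, Fin.prod_univ_zero, one_mul]
    rfl
  | succ k ih =>
    intro A hA
    rw [Function.iterate_succ_apply', q_succ h0 h1 hd n h k A hA]
    have e3 : TG d lam n ((TG d lam n)^[k] phi) A =
        ∑' T : Tree n, gwProb d n T * TO (ech lam n T) ((TG d lam n)^[k] phi) A := rfl
    rw [e3]
    apply tsum_congr
    intro T
    have e2 : ∀ t : Fin k → Tree n, (gwProb d n T * ∏ c, gwProb d n (t c)) *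
        TO (ech lam n T) (RT lam n phi k t) A =
        gwProb d n T * ((∏ c, gwProb d n (t c)) * TO (ech lam n T) (RT lam n phi k t) A) := by
      intro t
      ring
    rw [tsum_congr e2, tsum_mul_left]
    congr 1
    rw [← gwc_TO_tsum (pw_nonneg hd n k) (pw_hasSum hd n k).summable
      (rt_bound h0 h1 n h k) (ech_chan h0 h1 n T).nonneg hA.1]
    exact gwc_TO_congr (ech_chan h0 h1 n T) ih hA

theorem gw1 : StmtGW1 := by
  intro lam h0 h1 phi C h d hd n
  have hb : ∀ T : Tree (n + 1), |ev phi (tch 3 lam (n + 1) T)| ≤ C := by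
    intro T
    have e : ev phi (tch 3 lam (n + 1) T) = RT lam n phi T.1 T.2 one3 := rt_ev h0 h1 n phi T.1 T.2
    rw [e]
    exact rt_bound h0 h1 n h T.1 T.2 one3 gwc_norm_one
  have hs : Summable (fun T : Tree (n + 1) =>
      gwProb d (n + 1) T * ev phi (tch 3 lam (n + 1) T)) :=
    gwc_summable (fun T => gwProb_nonneg hd.le (n + 1) T) (gwc_summ hd (n + 1)) hb
  have hs' : Summable (fun T : Σ k : ℕ, (Fin k → Tree n) =>
      gwProb d (n + 1) (node T.1 T.2) * ev phi (tch 3 lam (n + 1) (node T.1 T.2))) := hs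
  have e0 : KG phi d lam (n + 1) = ∑' T : Σ k : ℕ, (Fin k → Tree n),
      gwProb d (n + 1) (node T.1 T.2) * ev phi (tch 3 lam (n + 1) (node T.1 T.2)) := rfl
  rw [e0, hs'.tsum_sigma]
  congr 1
  funext k
  have e1 : ∀ t : Fin k → Tree n,
      gwProb d (n + 1) (node k t) * ev phi (tch 3 lam (n + 1) (node k t)) =
      Real.exp (-d) * d ^ k / k.factorial * ((∏ c, gwProb d n (t c)) * RT lam n phi k t one3) := by
    intro t
    rw [rt_ev h0 h1 n phi k t, ← mul_assoc]
    rfl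
  show ∑' t : Fin k → Tree n,
      gwProb d (n + 1) (node k t) * ev phi (tch 3 lam (n + 1) (node k t)) = _
  simp_rw [e1]
  rw [tsum_mul_left, q_iter h0 h1 hd n h k one3 gwc_norm_one]

end Vale.Agent.P154.AF
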