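import Vale.Agent.P154AF.GWC

/-! The Poisson operator (module GW23). -/

namespace Vale.Agent.P154.AF

open Finset Filter Topology

theorem gw_hom_lin (x y : ℝ) (phi psi : V3 → ℝ) (v : V3) :
    hom 3 (fun B => x * phi B + y * psi B) v = x * hom 3 phi v + y * hom 3 psi v := by
  rw [hom_eq, hom_eq, hom_eq]
  ring

theorem gw_kern_lin (x y : ℝ) (phi psi : V3 → ℝ) (A B : V3) :
    kern 3 (fun B => x * phi B + y * psi B) A B = x * kern 3 phi A B + y * kern 3 psi A B := by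
  rw [kern_eq, kern_eq, kern_eq]
  simp_rw [gw_hom_lin]
  rw [sum_add_distrib, ← mul_sum, ← mul_sum]
  ring

theorem gw_TO_lin {S : Type} [Fintype S] (M : S → V3) (x y : ℝ) (phi psi : V3 → ℝ) (A : V3) :
    TO M (fun B => x * phi B + y * psi B) A = x * TO M phi A + y * TO M psi A := by
  unfold TO
  simp_rw [gw_kern_lin]
  rw [sum_add_distrib, ← mul_sum, ← mul_sum]

theorem gw_ev_bound {S : Type} [Fintype S] {L : S → V3} (hL : Chan L) {F : V3 → ℝ} {C : ℝ}
    (h : ∀ A, Norm 3 A → |F A| ≤ C) : |ev F L| ≤ C := by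
  unfold ev
  refine (abs_sum_le_sum_abs _ _).trans ?_
  refine (sum_le_sum fun s _ => gwc_hom_bound h (hL.nonneg s)).trans ?_
  rw [← sum_mul, hL.ms_sum op_three, one_mul]

theorem gw_TO_summ {lam : ℝ} (h0 : -1 / 2 ≤ lam) (h1 : lam ≤ 1) {d : ℝ} (hd : 0 < d) (n : ℕ)
    {phi : V3 → ℝ} {C : ℝ} (h : ∀ A, Norm 3 A → |phi A| ≤ C) {A : V3} (hA : Norm 3 A) :
    Summable (fun T : Tree n => gwProb d n T * TO (ech lam n T) phi A) :=
  gwc_summable (P := gwProb d n) (g := fun T => TO (ech lam n T) phi A) (C := C)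
    (gwProb_nonneg hd.le n) (gwc_summ hd n)
    (fun T => gwc_TO_bound (ech_chan h0 h1 n T) h hA)

theorem gw_TG_eq (d lam : ℝ) (n : ℕ) (phi : V3 → ℝ) (A : V3) :
    TG d lam n phi A = ∑' T : Tree n, gwProb d n T * TO (ech lam n T) phi A := rfl

theorem gw2 : StmtGW2 := by
  intro lam h0 h1 d hd n C phi psi hphi hpsi
  refine ⟨?_, ?_, ?_⟩
  · intro A hA
    rw [gw_TG_eq]
    exact gwc_tsum_le (P := gwProb d n) (g := fun T => TO (ech lam n T) phi A)
      (gwProb_nonneg hd.le n) (gwc_hasSum hd n)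
      (fun T => gwc_TO_bound (ech_chan h0 h1 n T) hphi hA)
  · intro h A hA
    rw [gw_TG_eq, gw_TG_eq]
    apply (gw_TO_summ h0 h1 hd n hphi hA).tsum_le_tsum _ (gw_TO_summ h0 h1 hd n hpsi hA)
    intro T
    exact mul_le_mul_of_nonneg_left (opMono _ _ (ech_chan h0 h1 n T) phi psi h A hA)
      (gwProb_nonneg hd.le n T)
  · intro x y A hA
    rw [gw_TG_eq, gw_TG_eq, gw_TG_eq, ← tsum_mul_left, ← tsum_mul_left,
      ← ((gw_TO_summ h0 h1 hd n hphi hA).mul_left x).tsum_add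
        ((gw_TO_summ h0 h1 hd n hpsi hA).mul_left y)]
    apply tsum_congr
    intro T
    rw [gw_TO_lin]
    ring

/-- the average of the potential over one child, before the last edge -/
noncomputable def kev (F : V3 → ℝ) (lam1 t : ℝ) (n : ℕ) (T : Tree n) : ℝ :=
  ev F (fun s : Bdry 3 n T => edge 3 t (tch 3 (t * lam1) n T s))

theorem kapG_eq (F : V3 → ℝ) (d lam1 t : ℝ) (n : ℕ) :
    kapG F d lam1 t n = lam1 ^ 2 * ∑' T : Tree n, gwProb d n T * kev F lam1 t n T := rfl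

theorem gw_par {lam1 t : ℝ} (h0 : -1 / 2 ≤ lam1) (h1 : lam1 ≤ 0) (ht0 : 0 ≤ t) (ht1 : t ≤ 1) :
    -1 / 2 ≤ t * lam1 ∧ t * lam1 ≤ 1 := by
  constructor <;> nlinarith

theorem gw3_step {lam1 t : ℝ} (h0 : -1 / 2 ≤ lam1) (h1 : lam1 ≤ 0) (ht0 : 0 ≤ t) (ht1 : t ≤ 1)
    {d : ℝ} (hd : 0 < d) (n : ℕ) {F : V3 → ℝ} {C : ℝ} (hC : ∀ A, Norm 3 A → |F A| ≤ C)
    (H e : V3 → ℝ) (hH : ∀ A, Norm 3 A → |H A| ≤ C) (hs : Stp lam1 F H e) (A : V3)
    (hA : Norm 3 A) : TG d (t * lam1) n H A ≤ H A + kapG F d lam1 t n * e A := by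
  obtain ⟨p0, p1⟩ := gw_par h0 h1 ht0 ht1
  have hkev : ∀ T : Tree n, |kev F lam1 t n T| ≤ C := fun T =>
    gw_ev_bound (op_chan_edge (by linarith) ht1 (op_chan_tree p0 p1 n T)) hC
  have hsum : Summable (fun T : Tree n => gwProb d n T * kev F lam1 t n T) :=
    gwc_summable (P := gwProb d n) (g := fun T => kev F lam1 t n T) (C := C)
      (gwProb_nonneg hd.le n) (gwc_summ hd n) hkev
  rw [gw_TG_eq]
  have hb : ∀ T : Tree n, gwProb d n T * TO (ech (t * lam1) n T) H A ≤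
      gwProb d n T * H A + (lam1 ^ 2 * e A) * (gwProb d n T * kev F lam1 t n T) := by
    intro T
    have hst := opStep lam1 t h0 h1 ht0 ht1 (Bdry 3 n T) (tch 3 (t * lam1) n T)
      (op_chan_tree p0 p1 n T) F H e hs A hA
    have h2 := mul_le_mul_of_nonneg_left hst (gwProb_nonneg hd.le n T)
    refine h2.trans (le_of_eq ?_)
    unfold kev
    ring
  have hs1 : Summable (fun T : Tree n => gwProb d n T * H A) := (gwc_summ hd n).mul_right _
  have hs2 : Summable (fun T : Tree n => (lam1 ^ 2 * e A) * (gwProb d n T * kev F lam1 t n T)) :=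
    hsum.mul_left _
  refine ((gw_TO_summ p0 p1 hd n hH hA).tsum_le_tsum hb (hs1.add hs2)).trans (le_of_eq ?_)
  rw [hs1.tsum_add hs2, tsum_mul_right, (gwc_hasSum hd n).tsum_eq, tsum_mul_left, kapG_eq]
  ring

theorem gw3 : StmtGW3 := by
  intro lam1 t h0 h1 ht0 ht1 d hd n F C hctr hF hC
  obtain ⟨p0, p1⟩ := gw_par h0 h1 ht0 ht1
  have hkev : ∀ T : Tree n, |kev F lam1 t n T| ≤ C := fun T =>
    gw_ev_bound (op_chan_edge (by linarith) ht1 (op_chan_tree p0 p1 n T)) hC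
  have hsum : Summable (fun T : Tree n => gwProb d n T * kev F lam1 t n T) :=
    gwc_summable (P := gwProb d n) (g := fun T => kev F lam1 t n T) (C := C)
      (gwProb_nonneg hd.le n) (gwc_summ hd n) hkev
  have hsum2 : Summable (fun T : Tree n => gwProb d n T * ev F (tch 3 (t * lam1) n T)) :=
    gwc_summable (P := gwProb d n) (g := fun T => ev F (tch 3 (t * lam1) n T)) (C := C)
      (gwProb_nonneg hd.le n) (gwc_summ hd n)
      (fun T => gw_ev_bound (op_chan_tree p0 p1 n T) hC)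
  refine ⟨?_, ?_, ?_⟩
  · rw [kapG_eq]
    apply mul_nonneg (sq_nonneg _)
    apply tsum_nonneg
    intro T
    exact mul_nonneg (gwProb_nonneg hd.le n T)
      (ev_nonneg_of op_three (op_chan_edge (by linarith) ht1 (op_chan_tree p0 p1 n T)) hF)
  · rw [kapG_eq, mul_pow, mul_comm (t ^ 2), mul_assoc]
    apply mul_le_mul_of_nonneg_left _ (sq_nonneg _)
    unfold KG
    rw [← tsum_mul_left]
    apply hsum.tsum_le_tsum _ (hsum2.mul_left _)
    intro T
    have h2 := mul_le_mul_of_nonneg_left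
      (opCtr (Bdry 3 n T) (tch 3 (t * lam1) n T) (op_chan_tree p0 p1 n T) F hctr t ht0 ht1)
      (gwProb_nonneg hd.le n T)
    refine h2.trans (le_of_eq ?_)
    ring
  · intro H e hH hs A hA
    exact gw3_step h0 h1 ht0 ht1 hd n hC H e hH hs A hA

end Vale.Agent.P154.AF
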