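import Vale.Agent.P154AF.OP

/-! Common lemmas for the Poisson tree (used by GW1, GW2, GW3). -/

namespace Vale.Agent.P154.AF

open Finset Filter Topology

/-- the channel of one child after the edge -/
noncomputable def ech (lam : ℝ) (n : ℕ) (T : Tree n) : Bdry 3 n T → V3 :=
  fun s => edge 3 lam (tch 3 lam n T s)

theorem ech_chan {lam : ℝ} (h0 : -1 / 2 ≤ lam) (h1 : lam ≤ 1) (n : ℕ) (T : Tree n) :
    Chan (ech lam n T) :=
  op_chan_edge h0 h1 (op_chan_tree h0 h1 n T)

theorem gwc_ms {A : V3} (hA : Norm 3 A) : ms 3 A = 1 := by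
  unfold ms
  rw [hA.2]
  norm_num

theorem gwc_hom {A : V3} (hA : Norm 3 A) (phi : V3 → ℝ) : hom 3 phi A = phi A := by
  rw [hom_eq, gwc_ms hA, one_mul]
  congr 1
  funext i
  rw [div_one]

theorem gwc_norm_one : Norm 3 one3 := by
  refine ⟨fun _ => zero_le_one, ?_⟩
  simp [one3]

theorem gwc_TO_const {S : Type} [Fintype S] {M : S → V3} (hM : Chan M) (C : ℝ) {A : V3}
    (hA : Norm 3 A) : TO M (fun _ => C) A = C := by
  rw [← gwc_hom hA (TO M (fun _ => C)), ← op_one hM _ hA.1]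
  have h1 : ∀ x, hom 3 (fun _ => C) (fun i => A i * M x i) =
      C * (1 / 3) * ∑ i, A i * M x i := by
    intro x
    rw [hom_eq]
    unfold ms
    push_cast
    ring
  simp_rw [h1]
  rw [← mul_sum, sum_comm]
  simp_rw [← mul_sum, hM.mass, mul_one, hA.2]
  push_cast
  ring

theorem gwc_TO_bound {S : Type} [Fintype S] {M : S → V3} (hM : Chan M) {phi : V3 → ℝ} {C : ℝ}
    (h : ∀ A, Norm 3 A → |phi A| ≤ C) {A : V3} (hA : Norm 3 A) : |TO M phi A| ≤ C := by
  rw [abs_le]
  constructor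
  · rw [← gwc_TO_const hM (-C) hA]
    exact opMono S M hM _ _ (fun B hB => (abs_le.mp (h B hB)).1) A hA
  · refine le_trans (opMono S M hM _ _ (fun B hB => (abs_le.mp (h B hB)).2) A hA) ?_
    rw [gwc_TO_const hM C hA]

theorem gwc_TO_congr {S : Type} [Fintype S] {M : S → V3} (hM : Chan M) {phi psi : V3 → ℝ}
    (h : ∀ A, Norm 3 A → phi A = psi A) {A : V3} (hA : Norm 3 A) : TO M phi A = TO M psi A :=
  le_antisymm (opMono S M hM _ _ (fun B hB => (h B hB).le) A hA)
    (opMono S M hM _ _ (fun B hB => (h B hB).ge) A hA)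

theorem gwc_hom_bound {phi : V3 → ℝ} {C : ℝ} (h : ∀ A, Norm 3 A → |phi A| ≤ C) {v : V3}
    (hv : ∀ i, 0 ≤ v i) : |hom 3 phi v| ≤ ms 3 v * C := by
  by_cases h0 : ms 3 v = 0
  · rw [hom_of_ms_zero _ h0, h0]
    simp
  · rw [hom_eq, abs_mul, abs_of_nonneg (ms_nonneg hv)]
    exact mul_le_mul_of_nonneg_left (h _ (norm_of_pos op_three hv h0)) (ms_nonneg hv)

theorem gwc_summable {α : Type} {P : α → ℝ} (hP0 : ∀ a, 0 ≤ P a) (hP : Summable P) {g : α → ℝ}
    {C : ℝ} (hg : ∀ a, |g a| ≤ C) : Summable (fun a => P a * g a) := by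
  refine Summable.of_norm_bounded (hP.mul_right C) ?_
  intro a
  rw [Real.norm_eq_abs, abs_mul, abs_of_nonneg (hP0 a)]
  exact mul_le_mul_of_nonneg_left (hg a) (hP0 a)

/-- homogeneous extension of a mixture -/
theorem gwc_hom_tsum {α : Type} (P : α → ℝ) (f : α → V3 → ℝ) (v : V3) :
    hom 3 (fun B => ∑' a, P a * f a B) v = ∑' a, P a * hom 3 (f a) v := by
  rw [hom_eq, ← tsum_mul_left]
  congr 1
  funext a
  rw [hom_eq]
  ring

/-- the kernel operator of a mixture -/
theorem gwc_TO_tsum {α : Type} {P : α → ℝ} (hP0 : ∀ a, 0 ≤ P a) (hP : Summable P)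
    {f : α → V3 → ℝ} {C : ℝ} (hf : ∀ a A, Norm 3 A → |f a A| ≤ C) {S : Type} [Fintype S]
    {M : S → V3} (hM : ∀ s i, 0 ≤ M s i) {A : V3} (hA : ∀ i, 0 ≤ A i) :
    TO M (fun B => ∑' a, P a * f a B) A = ∑' a, P a * TO M (f a) A := by
  have hs : ∀ (y : S) (p : Equiv.Perm (Fin 3)),
      Summable (fun a => P a * hom 3 (f a) (fun i => A i * M y (p i))) := by
    intro y p
    exact gwc_summable hP0 hP (C := ms 3 (fun i => A i * M y (p i)) * C)
      (fun a => gwc_hom_bound (hf a) (fun i => mul_nonneg (hA i) (hM y (p i))))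
  have hk : ∀ y : S, kern 3 (fun B => ∑' a, P a * f a B) A (M y) =
      ∑' a, P a * kern 3 (f a) A (M y) := by
    intro y
    rw [kern_eq]
    simp_rw [gwc_hom_tsum]
    rw [← Summable.tsum_finsetSum (fun p _ => hs y p), ← tsum_mul_left]
    congr 1
    funext a
    rw [kern_eq, ← mul_sum]
    ring
  have hks : ∀ y : S, Summable (fun a => P a * kern 3 (f a) A (M y)) := by
    intro y
    have h1 : Summable (fun a => (1 / ((3 : ℕ).factorial : ℝ)) * ∑ p : Equiv.Perm (Fin 3),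
        P a * hom 3 (f a) (fun i => A i * M y (p i))) :=
      (summable_sum (fun p _ => hs y p)).mul_left _
    refine h1.congr ?_
    intro a
    rw [kern_eq, ← mul_sum]
    ring
  unfold TO
  simp_rw [hk]
  rw [← Summable.tsum_finsetSum (fun y _ => hks y)]
  congr 1
  funext a
  rw [mul_sum]

/-! ### weights of the Poisson tree -/

theorem gwc_hasSum {d : ℝ} (hd : 0 < d) (n : ℕ) : HasSum (gwProb d n) 1 := by
  have h := gw_total hd.le n
  have hne : ∑' T : Tree n, ENNReal.ofReal (gwProb d n T) ≠ ⊤ := by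
    rw [h]
    exact ENNReal.one_ne_top
  have hs : Summable (gwProb d n) := by
    have := ENNReal.summable_toReal hne
    refine this.congr ?_
    intro T
    exact ENNReal.toReal_ofReal (gwProb_nonneg hd.le n T)
  have h2 : ∑' T : Tree n, gwProb d n T = 1 := by
    have h3 := ENNReal.tsum_toReal_eq (f := fun T : Tree n => ENNReal.ofReal (gwProb d n T))
      (fun T => ENNReal.ofReal_ne_top)
    rw [h] at h3
    have h4 : ∀ T : Tree n, (ENNReal.ofReal (gwProb d n T)).toReal = gwProb d n T :=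
      fun T => ENNReal.toReal_ofReal (gwProb_nonneg hd.le n T)
    simp_rw [h4] at h3
    rw [← h3]
    simp
  rw [← h2]
  exact hs.hasSum

theorem gwc_summ {d : ℝ} (hd : 0 < d) (n : ℕ) : Summable (gwProb d n) := (gwc_hasSum hd n).summable

theorem gwc_tsum_le {α : Type} {P : α → ℝ} (hP0 : ∀ a, 0 ≤ P a) (hP : HasSum P 1) {g : α → ℝ}
    {C : ℝ} (hg : ∀ a, |g a| ≤ C) : |∑' a, P a * g a| ≤ C := by
  have hs := gwc_summable hP0 hP.summable hg
  have h1 : ∑' a, P a * g a ≤ ∑' a, P a * C := by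
    apply hs.tsum_le_tsum _ (hP.summable.mul_right C)
    intro a
    exact mul_le_mul_of_nonneg_left (abs_le.mp (hg a)).2 (hP0 a)
  have h2 : ∑' a, P a * (-C) ≤ ∑' a, P a * g a := by
    apply (hP.summable.mul_right (-C)).tsum_le_tsum _ hs
    intro a
    exact mul_le_mul_of_nonneg_left (abs_le.mp (hg a)).1 (hP0 a)
  rw [tsum_mul_right, hP.tsum_eq] at h1 h2
  rw [abs_le]
  constructor <;> linarith

end Vale.Agent.P154.AF
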