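import Vale.Agent.P154AF.CH

/-! Bounds for the expected potential (helper file). -/

namespace Vale.Agent.P154.AF

open Finset Filter Topology
open scoped ENNReal

theorem ev_const3 {S : Type} [Fintype S] {L : S → V3} (h : Chan L) (M : ℝ) :
    ev (fun _ => M) L = M := by
  unfold ev
  have h1 := h.ms_sum (by norm_num : 0 < 3)
  have h2 : ∀ s, hom 3 (fun _ => M) (L s) = ms 3 (L s) * M := fun s => by rw [hom_eq]
  simp_rw [h2]
  rw [← sum_mul, h1, one_mul]

theorem Rng.nonneg {F : V3 → ℝ} {M : ℝ} (h : Rng F M) (b : V3) (hb : Norm 3 b) : 0 ≤ F b := by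
  obtain ⟨⟨c, hc, h1⟩, _⟩ := h
  exact le_trans (mul_nonneg hc.le (uFn_nonneg b)) (h1 b hb)

theorem Rng.ev_nonneg {F : V3 → ℝ} {M : ℝ} (h : Rng F M) {S : Type} [Fintype S] {L : S → V3}
    (hL : Chan L) : 0 ≤ ev F L :=
  ev_nonneg_of (by norm_num) hL h.nonneg

theorem Rng.ev_le {F : V3 → ℝ} {M : ℝ} (h : Rng F M) {S : Type} [Fintype S] {L : S → V3}
    (hL : Chan L) : ev F L ≤ M := by
  have h1 := ev_mono_of (by norm_num : 0 < 3) hL (phi := fun _ => M) (psi := F) h.2
  rwa [ev_const3 hL] at h1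

theorem gw_hasSum {d : ℝ} (hd : 0 ≤ d) (n : ℕ) : HasSum (gwProb d n) 1 := by
  have h := gw_total hd n
  have h0 := gwProb_nonneg hd n
  have hs : Summable (gwProb d n) := by
    have h1 : ∑' T : Tree n, ((gwProb d n T).toNNReal : ℝ≥0∞) ≠ ⊤ := by
      have : ∑' T : Tree n, ((gwProb d n T).toNNReal : ℝ≥0∞) = 1 := h
      rw [this]
      exact ENNReal.one_ne_top
    have h2 := ENNReal.tsum_coe_ne_top_iff_summable.mp h1
    have h3 : Summable (fun T => ((gwProb d n T).toNNReal : ℝ)) := NNReal.summable_coe.mpr h2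
    refine h3.congr ?_
    intro T
    exact Real.coe_toNNReal _ (h0 T)
  have h4 : ENNReal.ofReal (∑' T, gwProb d n T) = 1 := by
    rw [ENNReal.ofReal_tsum_of_nonneg h0 hs, h]
  have h5 : ∑' T, gwProb d n T = 1 := by
    have h6 := congrArg ENNReal.toReal h4
    rw [ENNReal.toReal_ofReal (tsum_nonneg h0)] at h6
    simpa using h6
  rw [← h5]
  exact hs.hasSum

theorem gw_summable_of_bdd {d : ℝ} (hd : 0 ≤ d) (n : ℕ) {f : Tree n → ℝ} {C : ℝ}
    (hf : ∀ T, |f T| ≤ C) : Summable (fun T => gwProb d n T * f T) := by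
  have h1 : Summable (fun T => gwProb d n T * C) := (gw_hasSum hd n).summable.mul_right C
  apply Summable.of_norm_bounded h1
  intro T
  rw [Real.norm_eq_abs, abs_mul, abs_of_nonneg (gwProb_nonneg hd n T)]
  exact mul_le_mul_of_nonneg_left (hf T) (gwProb_nonneg hd n T)

/-- bounds from the tree channel property -/
theorem kbound_of (hch : StmtChTree) : StmtKBound := by
  intro F M hR lam hl0 hl1
  have hC : ∀ (n : ℕ) (T : Tree n), Chan (tch 3 lam n T) := hch lam hl0 hl1
  refine ⟨fun d n => ⟨hR.ev_nonneg (hC n _), hR.ev_le (hC n _)⟩, fun d n hd => ?_⟩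
  have h0 := gwProb_nonneg hd.le n
  have hb : ∀ T, |ev F (tch 3 lam n T)| ≤ M := by
    intro T
    rw [abs_of_nonneg (hR.ev_nonneg (hC n T))]
    exact hR.ev_le (hC n T)
  constructor
  · exact tsum_nonneg fun T => mul_nonneg (h0 T) (hR.ev_nonneg (hC n T))
  · have h1 := gw_summable_of_bdd hd.le n hb
    have h2 : HasSum (fun T => gwProb d n T * M) (1 * M) := (gw_hasSum hd.le n).mul_right M
    have h3 := h1.tsum_le_tsum (g := fun T => gwProb d n T * M)
      (fun T => mul_le_mul_of_nonneg_left (hR.ev_le (hC n T)) (h0 T)) h2.summable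
    rw [h2.tsum_eq, one_mul] at h3
    exact h3

theorem kbound : StmtKBound := kbound_of chTree

end Vale.Agent.P154.AF
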