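import Vale.Agent.P154AF.Core

/-! The kernel operator (module OP). -/

namespace Vale.Agent.P154.AF

open Finset Filter Topology

theorem op_three : (0 : ℕ) < 3 := by norm_num

/-- homogeneous extensions are monotone -/
theorem op_hom_mono {phi psi : V3 → ℝ} (h : ∀ A, Norm 3 A → phi A ≤ psi A) {v : V3}
    (hv : ∀ i, 0 ≤ v i) : hom 3 phi v ≤ hom 3 psi v := by
  by_cases h0 : ms 3 v = 0
  · rw [hom_of_ms_zero _ h0, hom_of_ms_zero _ h0]
  · rw [hom_eq, hom_eq]
    exact mul_le_mul_of_nonneg_left (h _ (norm_of_pos op_three hv h0)) (ms_nonneg hv)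

theorem op_kern_mono {phi psi : V3 → ℝ} (h : ∀ A, Norm 3 A → phi A ≤ psi A) {A B : V3}
    (hA : ∀ i, 0 ≤ A i) (hB : ∀ i, 0 ≤ B i) : kern 3 phi A B ≤ kern 3 psi A B := by
  rw [kern_eq, kern_eq]
  apply mul_le_mul_of_nonneg_left _ (by positivity)
  apply sum_le_sum
  intro p _
  exact op_hom_mono h (fun i => mul_nonneg (hA i) (hB (p i)))

theorem opMono : StmtOpMono := by
  intro S _ M hM phi psi h A hA
  unfold TO
  exact sum_le_sum fun y _ => op_kern_mono h hA.1 (hM.nonneg y)

/-- nonnegativity after one edge, three states -/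
theorem op_edge_nonneg {lam : ℝ} (h0 : -1 / 2 ≤ lam) (h1 : lam ≤ 1) {v : V3} (hv : ∀ i, 0 ≤ v i)
    (i : Fin 3) : 0 ≤ edge 3 lam v i := by
  unfold edge
  apply sum_nonneg
  intro j _
  apply mul_nonneg _ (hv j)
  unfold potts
  split_ifs
  · push_cast
    linarith
  · push_cast
    rw [mul_zero, zero_add]
    apply div_nonneg _ (by norm_num)
    linarith

theorem op_chan_edge {lam : ℝ} (h0 : -1 / 2 ≤ lam) (h1 : lam ≤ 1) {S : Type} [Fintype S]
    {L : S → V3} (h : Chan L) : Chan (fun s => edge 3 lam (L s)) where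
  nonneg := fun s i => op_edge_nonneg h0 h1 (h.nonneg s) i
  mass := by
    intro i
    simp_rw [edge_eq]
    rw [sum_add_distrib, ← mul_sum, ← mul_sum, h.mass, h.ms_sum op_three]
    ring
  symm := by
    intro p F
    have h2 := h.symm p (fun v => F (edge 3 lam v))
    have h3 : ∀ s, F (edge 3 lam (fun i => L s (p i))) =
        F (fun i => edge 3 lam (L s) (p i)) := by
      intro s
      congr 1
      funext i
      rw [edge_eq, edge_eq]
      have : ms 3 (fun i => L s (p i)) = ms 3 (L s) := by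
        unfold ms
        rw [Equiv.sum_comp p (fun i => L s i)]
      rw [this]
    simp_rw [h3] at h2
    exact h2

theorem op_chan_tree {lam : ℝ} (h0 : -1 / 2 ≤ lam) (h1 : lam ≤ 1) (n : ℕ) (T : Tree n) :
    Chan (tch 3 lam n T) where
  nonneg := by
    intro s i
    apply like_nonneg
    apply potts_nonneg (by norm_num) _ h1
    refine le_trans (le_of_eq ?_) h0
    norm_num
  mass := fun i => like_sum (by norm_num) n T i
  symm := by
    intro p F
    rw [← (relabel p n T).sum_comp (fun s => F (fun i => tch 3 lam n T s (p i)))]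
    apply sum_congr rfl
    intro s _
    congr 1
    funext i
    exact like_relabel lam p n T i s

/-- one factor -/
theorem op_one {S : Type} [Fintype S] {M : S → V3} (hM : Chan M) (psi : V3 → ℝ) {v : V3}
    (hv : ∀ i, 0 ≤ v i) :
    ∑ x, hom 3 psi (fun i => v i * M x i) = hom 3 (TO M psi) v := by
  have h1 : ∀ p : Equiv.Perm (Fin 3), ∑ x, hom 3 psi (fun i => v i * M x (p i)) =
      ∑ x, hom 3 psi (fun i => v i * M x i) := fun p =>
    hM.symm p (fun w : V3 => hom 3 psi (fun i => v i * w i))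
  have h2 : ∑ x, kern 3 psi v (M x) = ∑ x, hom 3 psi (fun i => v i * M x i) := by
    simp_rw [kern_eq]
    rw [← mul_sum, sum_comm]
    simp_rw [h1]
    rw [sum_const, card_univ, Fintype.card_perm, Fintype.card_fin, nsmul_eq_mul]
    have : ((3 : ℕ).factorial : ℝ) ≠ 0 := by positivity
    field_simp
  rw [← h2]
  by_cases h0 : ms 3 v = 0
  · rw [hom_of_ms_zero _ h0]
    apply sum_eq_zero
    intro x _
    exact kern_zero op_three psi hv (hM.nonneg x) (Or.inl h0)
  · rw [hom_eq]
    unfold TO
    rw [mul_sum]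
    apply sum_congr rfl
    intro x _
    have h3 := kern_smul psi (ms 3 v) 1 (fun i => v i / ms 3 v) (M x)
    rw [mul_one] at h3
    rw [← h3]
    congr 1
    · funext i
      field_simp
    · funext i
      rw [one_mul]

/-- several factors -/
theorem op_iter {S : Type} [Fintype S] {M : S → V3} (hM : Chan M) (psi : V3 → ℝ) :
    ∀ (d : ℕ) {v : V3}, (∀ i, 0 ≤ v i) →
    ∑ s : Fin d → S, hom 3 psi (fun i => v i * ∏ c, M (s c) i) =
      hom 3 ((TO M)^[d] psi) v := by
  intro d
  induction d with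
  | zero =>
    intro v _
    simp
  | succ d ih =>
    intro v hv
    rw [Function.iterate_succ_apply', ← op_one hM _ hv,
      ← (Fin.consEquiv (fun _ : Fin (d + 1) => S)).sum_comp, Fintype.sum_prod_type]
    apply sum_congr rfl
    intro x _
    rw [← ih (fun i => mul_nonneg (hv i) (hM.nonneg x i))]
    apply sum_congr rfl
    intro s _
    congr 1
    funext i
    rw [Fin.prod_univ_succ, mul_assoc]
    rfl

theorem op_hom_one (phi : V3 → ℝ) : hom 3 phi one3 = phi one3 := by
  have h : ms 3 one3 = 1 := ms_one op_three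
  rw [hom_eq, h, one_mul]
  congr 1
  funext i
  rw [div_one]

theorem opReg : StmtOpReg := by
  intro lam h0 h1 phi d n
  have hM : Chan (fun s => edge 3 lam (tch 3 lam n (dary d n) s)) :=
    op_chan_edge h0 h1 (op_chan_tree h0 h1 n (dary d n))
  have h5 := op_hom_one ((TO (fun s => edge 3 lam (tch 3 lam n (dary d n) s)))^[d] phi)
  rw [← h5, ← op_iter hM phi d (v := one3) (fun i => zero_le_one)]
  have e : ev phi (tch 3 lam (n + 1) (dary d (n + 1))) =
      ev phi (fun (s : Fin d → Bdry 3 n (dary d n)) i =>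
        one3 i * ∏ c, edge 3 lam (tch 3 lam n (dary d n) (s c)) i) := by
    refine ev_equiv ((Equiv.refl (Fin d → Bdry 3 n (dary d n)) :
      (Fin d → Bdry 3 n (dary d n)) ≃ Bdry 3 (n + 1) (dary d (n + 1)))) phi ?_
    intro s
    funext i
    have : one3 i = 1 := rfl
    rw [this, one_mul]
    rfl
  unfold KF
  rw [e]
  rfl

theorem op_edge_edge (lam t : ℝ) (v : V3) : edge 3 lam (edge 3 t v) = edge 3 (t * lam) v := by
  funext i
  rw [edge_eq, edge_eq, edge_eq, ms_edge op_three]
  ring

theorem op_kern_edge (lam : ℝ) (H : V3 → ℝ) (A : V3) {w : V3} (hw : ∀ i, 0 ≤ w i) :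
    kern 3 H A (edge 3 lam w) =
      ms 3 w * kern 3 H A (en lam (fun i => w i / ms 3 w)) := by
  by_cases h0 : ms 3 w = 0
  · have hz : edge 3 lam w = fun _ => 0 := by
      funext i
      rw [edge_eq, h0, eq_zero_of_ms op_three hw h0 i]
      ring
    rw [hz, h0, zero_mul, kern_eq]
    have hs : ∑ p : Equiv.Perm (Fin 3), hom 3 H (fun i => A i * (fun _ : Fin 3 => (0 : ℝ)) (p i)) = 0 := by
      apply sum_eq_zero
      intro p _
      apply hom_of_ms_zero
      unfold ms
      simp
    rw [hs, mul_zero]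
  · have h3 := kern_smul H 1 (ms 3 w) A (en lam (fun i => w i / ms 3 w))
    rw [one_mul] at h3
    rw [← h3]
    congr 1
    · funext i
      rw [one_mul]
    · funext i
      rw [edge_eq]
      unfold en
      field_simp
      ring

/-- a pointwise step at a fixed vector, integrated -/
theorem op_step_at (lam1 t : ℝ) (ht0 : 0 ≤ t) (ht1 : t ≤ 1) {S : Type} [Fintype S] {L : S → V3}
    (hL : Chan L) (F H : V3 → ℝ) (A : V3) (x c : ℝ)
    (h : ∀ b, Norm 3 b → kern 3 H A (en lam1 b) ≤ x + lam1 ^ 2 * F b * c) :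
    TO (fun s => edge 3 (t * lam1) (L s)) H A ≤
      x + lam1 ^ 2 * ev F (fun s => edge 3 t (L s)) * c := by
  unfold TO
  have h1 : ∀ s, kern 3 H A (edge 3 (t * lam1) (L s)) ≤
      ms 3 (L s) * x + lam1 ^ 2 * hom 3 F (edge 3 t (L s)) * c := by
    intro s
    have hw : ∀ i, 0 ≤ edge 3 t (L s) i := fun i =>
      op_edge_nonneg (by linarith) ht1 (hL.nonneg s) i
    have hms : ms 3 (edge 3 t (L s)) = ms 3 (L s) := ms_edge op_three t (L s)
    rw [← op_edge_edge, op_kern_edge lam1 H A hw, hom_eq, hms]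
    by_cases h0 : ms 3 (L s) = 0
    · rw [h0]
      simp
    · have hn : Norm 3 (fun i => edge 3 t (L s) i / ms 3 (L s)) := by
        have := norm_of_pos op_three hw (by rw [hms]; exact h0)
        rwa [hms] at this
      refine (mul_le_mul_of_nonneg_left (h _ hn) (ms_nonneg (hL.nonneg s))).trans (le_of_eq ?_)
      ring
  refine (sum_le_sum fun s _ => h1 s).trans (le_of_eq ?_)
  rw [sum_add_distrib, ← sum_mul, hL.ms_sum op_three, ← sum_mul, ← mul_sum, one_mul]
  rfl

theorem opStep : StmtOpStep := by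
  intro lam1 t _ _ ht0 ht1 S _ L hL F H e hs A hA
  exact op_step_at lam1 t ht0 ht1 hL F H A (H A) (e A) (fun b hb => hs A b hA hb)

theorem opStepOne : StmtOpStepOne := by
  intro lam1 t _ _ ht0 ht1 S _ L hL F H c h
  exact op_step_at lam1 t ht0 ht1 hL F H one3 (H one3) c h

theorem opCtr : StmtOpCtr := by
  intro S _ L hL F hF t ht0 ht1
  rw [← ev_const_mul]
  unfold ev
  apply sum_le_sum
  intro s _
  rw [hom_edge op_three]
  exact op_hom_mono (fun A hA => hF A hA t ht0 ht1) (hL.nonneg s)

end Vale.Agent.P154.AF
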