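import Vale.Agent.P154AF.Core

/-! The analytic comparison lemma for Poisson mixtures. -/

namespace Vale.Agent.P154.AF

open Finset Filter Topology

theorem seq_hasSum {a : ℕ → ℝ} {C : ℝ} (ha : ∀ k, |a k| ≤ C) (x : ℝ) :
    HasSum (fun k : ℕ => x ^ k / k.factorial * a k) (∑' k : ℕ, x ^ k / k.factorial * a k) := by
  apply Summable.hasSum
  have h1 : Summable (fun k : ℕ => |x| ^ k / k.factorial * C) :=
    (Real.summable_pow_div_factorial |x|).mul_right C
  apply Summable.of_norm_bounded h1
  intro k
  rw [Real.norm_eq_abs, abs_mul, abs_div, abs_pow, Nat.abs_cast]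
  exact mul_le_mul_of_nonneg_left (ha k) (by positivity)

theorem seq_deriv {a : ℕ → ℝ} {C : ℝ} (ha : ∀ k, |a k| ≤ C) (R x : ℝ) (hx : |x| < R) :
    HasDerivAt (fun z : ℝ => ∑' k : ℕ, z ^ k / k.factorial * a k)
      (∑' k : ℕ, x ^ k / k.factorial * a (k + 1)) x := by
  have hR : 0 < R := lt_of_le_of_lt (abs_nonneg x) hx
  have hC : 0 ≤ C := (abs_nonneg _).trans (ha 0)
  have hu : Summable (fun k : ℕ => (k : ℝ) * R ^ (k - 1) / k.factorial * C) := by
    rw [← summable_nat_add_iff 1]
    have h1 : (fun k : ℕ => ((k + 1 : ℕ) : ℝ) * R ^ (k + 1 - 1) / (k + 1).factorial * C) =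
        fun k : ℕ => R ^ k / k.factorial * C := by
      funext k
      rw [Nat.add_sub_cancel, Nat.factorial_succ]
      push_cast
      have h2 : (k : ℝ) + 1 ≠ 0 := by positivity
      have h3 : (k.factorial : ℝ) ≠ 0 := by positivity
      field_simp
    rw [h1]
    exact (Real.summable_pow_div_factorial R).mul_right C
  have h1 := hasDerivAt_tsum_of_isPreconnected (t := Set.Ioo (-R) R)
    (g := fun (k : ℕ) (z : ℝ) => z ^ k / k.factorial * a k)
    (g' := fun (k : ℕ) (z : ℝ) => (k : ℝ) * z ^ (k - 1) / k.factorial * a k)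
    (y₀ := 0) (y := x) hu isOpen_Ioo isPreconnected_Ioo
    (by
      intro k z _
      exact ((hasDerivAt_pow k z).div_const _).mul_const _)
    (by
      intro k z hz
      have hz' : |z| ≤ R := (abs_lt.2 hz).le
      rw [Real.norm_eq_abs, abs_mul, abs_div, abs_mul, abs_pow, Nat.abs_cast, Nat.abs_cast]
      have h2 : |z| ^ (k - 1) ≤ R ^ (k - 1) := pow_le_pow_left₀ (abs_nonneg z) hz' _
      have h3 : (k : ℝ) * |z| ^ (k - 1) / k.factorial ≤ (k : ℝ) * R ^ (k - 1) / k.factorial := by
        gcongr
      exact mul_le_mul h3 (ha k) (abs_nonneg _) (by positivity))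
    ⟨by linarith, hR⟩ (seq_hasSum ha 0).summable (abs_lt.1 hx)
  have h2 : (∑' k : ℕ, (k : ℝ) * x ^ (k - 1) / k.factorial * a k)
      = ∑' k : ℕ, x ^ k / k.factorial * a (k + 1) := by
    have h3 : (fun k : ℕ => ((k + 1 : ℕ) : ℝ) * x ^ (k + 1 - 1) / (k + 1).factorial * a (k + 1)) =
        fun k : ℕ => x ^ k / k.factorial * a (k + 1) := by
      funext k
      rw [Nat.add_sub_cancel, Nat.factorial_succ]
      push_cast
      have h2 : (k : ℝ) + 1 ≠ 0 := by positivity
      have h3 : (k.factorial : ℝ) ≠ 0 := by positivity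
      field_simp
    have h4 : Summable (fun k : ℕ => (k : ℝ) * x ^ (k - 1) / k.factorial * a k) := by
      rw [← summable_nat_add_iff 1]
      rw [h3]
      exact (seq_hasSum (a := fun k => a (k + 1)) (C := C) (fun k => ha (k + 1)) x).summable
    rw [h4.tsum_eq_zero_add, h3]
    simp
  rw [← h2]
  exact h1

theorem seq : StmtSeq := by
  intro m a C S κ d hκ hd hS ha hstep
  have hC : 0 ≤ C := (abs_nonneg _).trans (ha 0 (Nat.zero_le m) 0)
  set y : ℕ → ℝ → ℝ := fun i z => ∑' k : ℕ, z ^ k / k.factorial * a i k with hy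
  set y' : ℕ → ℝ → ℝ := fun i z => ∑' k : ℕ, z ^ k / k.factorial * a i (k + 1) with hy'
  set ψ : ℝ → ℝ := fun x => Real.exp (-x) * ∑ i ∈ range (m + 1), (κ * (d - x)) ^ i * y i x with hψ
  have hder : ∀ x : ℝ, HasDerivAt ψ
      (-Real.exp (-x) * (∑ i ∈ range (m + 1), (κ * (d - x)) ^ i * y i x) +
        Real.exp (-x) * ∑ i ∈ range (m + 1),
          (((i : ℝ) * (κ * (d - x)) ^ (i - 1) * (-κ)) * y i x + (κ * (d - x)) ^ i * y' i x)) x := by
    intro x
    have h1 : HasDerivAt (fun x : ℝ => Real.exp (-x)) (-Real.exp (-x)) x := by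
      have h3 := (hasDerivAt_neg x).exp
      have h4 : Real.exp (-x) * -1 = -Real.exp (-x) := by ring
      rw [h4] at h3
      exact h3
    have h2 : HasDerivAt (fun x : ℝ => κ * (d - x)) (-κ) x := by
      have h3 : HasDerivAt (fun x : ℝ => d - x) (-1) x := by
        simpa using (hasDerivAt_id x).const_sub d
      have h4 := h3.const_mul κ
      simpa using h4
    apply h1.mul
    apply HasDerivAt.fun_sum
    intro i hi
    have hi' : i ≤ m := by
      have := Finset.mem_range.1 hi
      omega
    have h5 := seq_deriv (ha i hi') (|x| + 1) x (by linarith)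
    exact (h2.pow i).mul h5
  have hanti : AntitoneOn ψ (Set.Icc 0 d) := by
    apply antitoneOn_of_deriv_nonpos (convex_Icc 0 d)
    · intro x _
      exact (hder x).continuousAt.continuousWithinAt
    · intro x _
      exact (hder x).differentiableAt.differentiableWithinAt
    · intro x hx
      rw [interior_Icc] at hx
      rw [(hder x).deriv]
      set s : ℝ := κ * (d - x) with hs
      have hs0 : 0 ≤ s := mul_nonneg hκ (by linarith [hx.2])
      have hsS : s ≤ S := by
        have : κ * (d - x) ≤ κ * d := mul_le_mul_of_nonneg_left (by linarith [hx.1]) hκ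
        linarith
      have hkey : ∑ i ∈ range (m + 1),
          (s ^ i * (y' i x - y i x) - κ * ((i : ℝ) * s ^ (i - 1) * y i x)) ≤ 0 := by
        have hsum : HasSum (fun k : ℕ => ∑ i ∈ range (m + 1),
            (s ^ i * (x ^ k / k.factorial * a i (k + 1) - x ^ k / k.factorial * a i k)
              - κ * ((i : ℝ) * s ^ (i - 1) * (x ^ k / k.factorial * a i k))))
            (∑ i ∈ range (m + 1),
          (s ^ i * (y' i x - y i x) - κ * ((i : ℝ) * s ^ (i - 1) * y i x))) := by
          apply hasSum_sum
          intro i hi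
          have hi' : i ≤ m := by
            have := Finset.mem_range.1 hi
            omega
          have h1 := seq_hasSum (ha i hi') x
          have h2 := seq_hasSum (a := fun k => a i (k + 1)) (C := C) (fun k => ha i hi' (k + 1)) x
          exact ((h2.sub h1).mul_left (s ^ i)).sub ((h1.mul_left ((i : ℝ) * s ^ (i - 1))).mul_left κ)
        refine hasSum_le (fun k => ?_) hsum hasSum_zero
        have h3 := hstep s hs0 hsS k
        have h4 : ∑ i ∈ range (m + 1),
            (s ^ i * (x ^ k / k.factorial * a i (k + 1) - x ^ k / k.factorial * a i k)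
              - κ * ((i : ℝ) * s ^ (i - 1) * (x ^ k / k.factorial * a i k)))
            = x ^ k / k.factorial * (∑ i ∈ range (m + 1), s ^ i * (a i (k + 1) - a i k)
              - κ * ∑ i ∈ range (m + 1), (i : ℝ) * s ^ (i - 1) * a i k) := by
          rw [mul_sub, mul_sum, mul_sum, mul_sum, ← sum_sub_distrib]
          apply sum_congr rfl
          intro i _
          ring
        rw [h4]
        have h5 : 0 ≤ x ^ k / k.factorial := by
          have := hx.1.le
          positivity
        exact mul_nonpos_of_nonneg_of_nonpos h5 (by linarith)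
      have h6 : -Real.exp (-x) * (∑ i ∈ range (m + 1), s ^ i * y i x) +
        Real.exp (-x) * ∑ i ∈ range (m + 1),
          (((i : ℝ) * s ^ (i - 1) * (-κ)) * y i x + s ^ i * y' i x)
          = Real.exp (-x) * ∑ i ∈ range (m + 1),
          (s ^ i * (y' i x - y i x) - κ * ((i : ℝ) * s ^ (i - 1) * y i x)) := by
        rw [neg_mul, neg_add_eq_sub, ← mul_sub, ← sum_sub_distrib]
        congr 1
        apply sum_congr rfl
        intro i _
        ring
      rw [h6]
      exact mul_nonpos_of_nonneg_of_nonpos (Real.exp_pos _).le hkey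
  have hfin := hanti (Set.left_mem_Icc.2 hd) (Set.right_mem_Icc.2 hd) hd
  have h0 : ψ 0 = ∑ i ∈ range (m + 1), (d * κ) ^ i * a i 0 := by
    simp only [hψ, neg_zero, Real.exp_zero, one_mul, sub_zero]
    apply sum_congr rfl
    intro i _
    have h1 : y i 0 = a i 0 := by
      simp only [hy]
      rw [tsum_eq_single 0]
      · simp
      · intro k hk
        rw [zero_pow hk]
        simp
    rw [h1, mul_comm κ d]
  have h1 : ψ d = ∑' k : ℕ, Real.exp (-d) * d ^ k / k.factorial * a 0 k := by
    simp only [hψ, sub_self, mul_zero]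
    rw [Finset.sum_eq_single 0]
    · rw [pow_zero, one_mul]
      simp only [hy]
      rw [← tsum_mul_left]
      apply tsum_congr
      intro k
      ring
    · intro i _ hi
      rw [zero_pow hi, zero_mul]
    · intro h
      exact absurd (Finset.mem_range.2 (Nat.succ_pos m)) h
  rw [← h0, ← h1]
  exact hfin

end Vale.Agent.P154.AF
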