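import Vale.Agent.P154AF.Core
import Vale.Agent.P154AF.SEQ

/-! The expected potential on Poisson trees tends to zero. -/

namespace Vale.Agent.P154.AF

open Finset Filter Topology

/-- quadratic damping forces convergence to zero -/
theorem poi_tendsto {x : ℕ → ℝ} (h0 : ∀ n, 0 ≤ x n) {c : ℝ} (hc : 0 < c)
    (h : ∀ n, x (n + 1) ≤ x n - c * x n ^ 2) : Tendsto x atTop (𝓝 0) := by
  have hanti : Antitone x := by
    apply antitone_nat_of_succ_le
    intro n
    have := h n
    have h2 := mul_nonneg hc.le (pow_nonneg (h0 n) 2)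
    linarith
  have hlim : Tendsto x atTop (𝓝 (⨅ n, x n)) :=
    tendsto_atTop_ciInf hanti ⟨0, by rintro _ ⟨n, rfl⟩; exact h0 n⟩
  set L := ⨅ n, x n with hL
  have hL0 : 0 ≤ L := ge_of_tendsto' hlim h0
  have h1 : Tendsto (fun n => x (n + 1)) atTop (𝓝 L) := hlim.comp (tendsto_add_atTop_nat 1)
  have h2 : Tendsto (fun n => x n - c * x n ^ 2) atTop (𝓝 (L - c * L ^ 2)) :=
    hlim.sub ((hlim.pow 2).const_mul c)
  have h3 : L ≤ L - c * L ^ 2 := le_of_tendsto_of_tendsto' h1 h2 h
  have h4 : L = 0 := by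
    by_contra hne
    have : 0 < L := lt_of_le_of_ne hL0 (Ne.symm hne)
    have := mul_pos hc (pow_pos this 2)
    linarith
  rw [h4] at hlim
  exact hlim

/-- an abstract operator which is monotone, linear and bounded on bounded functions of
normalised vectors -/
structure PoiOp (P : (V3 → ℝ) → (V3 → ℝ)) : Prop where
  bd : ∀ (C : ℝ) (phi : V3 → ℝ), (∀ A, Norm 3 A → |phi A| ≤ C) → ∀ A, Norm 3 A → |P phi A| ≤ C
  mono : ∀ (C : ℝ) (phi psi : V3 → ℝ), (∀ A, Norm 3 A → |phi A| ≤ C) →
    (∀ A, Norm 3 A → |psi A| ≤ C) → (∀ A, Norm 3 A → phi A ≤ psi A) →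
    ∀ A, Norm 3 A → P phi A ≤ P psi A
  lin : ∀ (C : ℝ) (phi psi : V3 → ℝ), (∀ A, Norm 3 A → |phi A| ≤ C) →
    (∀ A, Norm 3 A → |psi A| ≤ C) → ∀ x y : ℝ, ∀ A, Norm 3 A →
      P (fun B => x * phi B + y * psi B) A = x * P phi A + y * P psi A

theorem PoiOp.congr {P : (V3 → ℝ) → (V3 → ℝ)} (hP : PoiOp P) (C : ℝ) (phi psi : V3 → ℝ)
    (h1 : ∀ A, Norm 3 A → |phi A| ≤ C) (h : ∀ A, Norm 3 A → phi A = psi A) :
    ∀ A, Norm 3 A → P phi A = P psi A := by
  intro A hA
  have h2 : ∀ A, Norm 3 A → |psi A| ≤ C := fun B hB => by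
    rw [← h B hB]
    exact h1 B hB
  exact le_antisymm (hP.mono C phi psi h1 h2 (fun B hB => (h B hB).le) A hA)
    (hP.mono C psi phi h2 h1 (fun B hB => (h B hB).ge) A hA)

theorem poi_sum_bd (f : ℕ → V3 → ℝ) (C : ℝ) (c : ℕ → ℝ) (M : ℕ)
    (hf : ∀ i < M, ∀ A, Norm 3 A → |f i A| ≤ C) :
    ∀ A, Norm 3 A → |∑ i ∈ range M, c i * f i A| ≤ ∑ i ∈ range M, |c i| * C := by
  intro A hA
  refine (Finset.abs_sum_le_sum_abs _ _).trans (Finset.sum_le_sum ?_)
  intro i hi
  rw [abs_mul]
  exact mul_le_mul_of_nonneg_left (hf i (Finset.mem_range.1 hi) A hA) (abs_nonneg _)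

theorem PoiOp.sum {P : (V3 → ℝ) → (V3 → ℝ)} (hP : PoiOp P) (f : ℕ → V3 → ℝ) (C : ℝ)
    (c : ℕ → ℝ) : ∀ M : ℕ, (∀ i < M, ∀ A, Norm 3 A → |f i A| ≤ C) →
    ∀ A, Norm 3 A → P (fun B => ∑ i ∈ range M, c i * f i B) A =
      ∑ i ∈ range M, c i * P (f i) A := by
  intro M
  induction M with
  | zero =>
    intro _ A hA
    have h1 := hP.lin 0 (fun _ => 0) (fun _ => 0) (fun _ _ => by simp) (fun _ _ => by simp) 0 0 A hA
    simp only [Finset.sum_range_zero]
    simp only [zero_mul, add_zero] at h1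
    exact h1
  | succ M ih =>
    intro hf A hA
    have hf' : ∀ i < M, ∀ A, Norm 3 A → |f i A| ≤ C := fun i hi => hf i (by omega)
    have h1 := hP.lin (max (∑ i ∈ range M, |c i| * C) C) (fun B => ∑ i ∈ range M, c i * f i B)
      (f M) (fun B hB => (poi_sum_bd f C c M hf' B hB).trans (le_max_left _ _))
      (fun B hB => (hf M (Nat.lt_succ_self M) B hB).trans (le_max_right _ _)) 1 (c M) A hA
    have h2 : (fun B : V3 => 1 * (∑ i ∈ range M, c i * f i B) + c M * f M B)
        = fun B => ∑ i ∈ range (M + 1), c i * f i B := by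
      funext B
      rw [Finset.sum_range_succ, one_mul]
    rw [h2] at h1
    rw [h1, ih hf' A hA, Finset.sum_range_succ, one_mul]

theorem PoiOp.iter {P : (V3 → ℝ) → (V3 → ℝ)} (hP : PoiOp P) (k : ℕ) : PoiOp (P^[k]) := by
  induction k with
  | zero =>
    refine ⟨fun C phi h => h, fun C phi psi _ _ h => h, fun C phi psi _ _ x y A _ => rfl⟩
  | succ k ih =>
    refine ⟨?_, ?_, ?_⟩
    · intro C phi h
      rw [Function.iterate_succ']
      exact hP.bd C _ (ih.bd C phi h)
    · intro C phi psi h1 h2 h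
      rw [Function.iterate_succ']
      exact hP.mono C _ _ (ih.bd C phi h1) (ih.bd C psi h2) (ih.mono C phi psi h1 h2 h)
    · intro C phi psi h1 h2 x y A hA
      rw [Function.iterate_succ']
      have h3 := hP.lin C _ _ (ih.bd C phi h1) (ih.bd C psi h2) x y A hA
      rw [Function.comp_apply, Function.comp_apply, Function.comp_apply, ← h3]
      apply hP.congr ((|x| + |y|) * C) _ _ _ _ A hA
      · intro B hB
        rw [ih.lin C phi psi h1 h2 x y B hB]
        have h4 := ih.bd C phi h1 B hB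
        have h5 := ih.bd C psi h2 B hB
        calc |x * P^[k] phi B + y * P^[k] psi B| ≤ |x * P^[k] phi B| + |y * P^[k] psi B| :=
              abs_add_le _ _
          _ = |x| * |P^[k] phi B| + |y| * |P^[k] psi B| := by rw [abs_mul, abs_mul]
          _ ≤ |x| * C + |y| * C := by gcongr
          _ = _ := by ring
      · intro B hB
        exact ih.lin C phi psi h1 h2 x y B hB

theorem norm_one3 : Norm 3 one3 := by
  refine ⟨fun i => zero_le_one, ?_⟩
  simp [one3]

theorem poi_of (h1 : StmtGW1) (h2 : StmtGW2) (h3 : StmtGW3) (hkb : StmtKBound) : StmtPoi := by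
  intro S m Phi hc d lam hd hl0 hl1 hks
  have hl2 : lam ≤ 1 := by linarith
  set t : ℝ := -2 * lam with ht
  have ht0 : 0 ≤ t := by
    rw [ht]
    linarith
  have ht1 : t ≤ 1 := by
    rw [ht]
    linarith
  have htl : t * (-1/2) = lam := by
    rw [ht]
    ring
  obtain ⟨C, hC⟩ := hc.bdd
  obtain ⟨c, hc0, hcS, hdamp⟩ := hc.damp
  have hK := (hkb (Phi 0) S hc.rng lam hl0 hl2).2 d
  obtain ⟨⟨c1, hc1, hlow⟩, hup⟩ := hc.rng
  have hF0 : ∀ A, Norm 3 A → 0 ≤ Phi 0 A := fun A hA =>
    le_trans (mul_nonneg hc1.le (uFn_nonneg A)) (hlow A hA)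
  have hOp : ∀ n, PoiOp (TG d lam n) := by
    intro n
    refine ⟨?_, ?_, ?_⟩
    · intro C phi h
      exact (h2 lam hl0 hl2 d hd n C phi phi h h).1
    · intro C phi psi h h'
      exact (h2 lam hl0 hl2 d hd n C phi psi h h').2.1
    · intro C phi psi h h'
      exact (h2 lam hl0 hl2 d hd n C phi psi h h').2.2
  have hstep : ∀ n, KG (Phi 0) d lam (n + 1) ≤ KG (Phi 0) d lam n - c * KG (Phi 0) d lam n ^ 2 := by
    intro n
    set P := TG d lam n with hP
    set K := KG (Phi 0) d lam n with hKn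
    have hK0 : 0 ≤ K := (hK n hd).1
    have hKS : K ≤ S := (hK n hd).2
    -- a common bound
    have hCn : 0 ≤ C := (abs_nonneg _).trans (hC 0 (Nat.zero_le m) one3 norm_one3)
    obtain ⟨hk0, hk1, _⟩ := h3 (-1/2) t le_rfl (by norm_num) ht0 ht1 d hd n (Phi 0) C hc.ctr hF0
      (hC 0 (Nat.zero_le m))
    set κ := kapG (Phi 0) d (-1/2) t n with hκ
    rw [htl] at hk1
    have hx0 : 0 ≤ d * κ := mul_nonneg hd.le hk0
    have hxK : d * κ ≤ K := by
      calc d * κ ≤ d * (lam ^ 2 * K) := mul_le_mul_of_nonneg_left hk1 hd.le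
        _ = d * lam ^ 2 * K := by ring
        _ ≤ 1 * K := mul_le_mul_of_nonneg_right hks hK0
        _ = K := one_mul _
    have hxS : d * κ ≤ S := hxK.trans hKS
    set a : ℕ → ℕ → ℝ := fun i k => (P^[k] (Phi i)) one3 with ha
    have hab : ∀ i ≤ m, ∀ k, |a i k| ≤ C := by
      intro i hi k
      exact ((hOp n).iter k).bd C (Phi i) (hC i hi) one3 norm_one3
    have hseq := seq m a C S κ d hk0 hd.le hxS hab (by
      intro s hs0 hsS k
      set H : V3 → ℝ := fun A => ∑ i ∈ range (m + 1), s ^ i * Phi i A with hH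
      set e : V3 → ℝ := fun A => ∑ i ∈ range (m + 1), (i : ℝ) * s ^ (i - 1) * Phi i A with he
      have hPb : ∀ i < m + 1, ∀ A, Norm 3 A → |Phi i A| ≤ C := fun i hi => hC i (by omega)
      have hHb := poi_sum_bd Phi C (fun i => s ^ i) (m + 1) hPb
      set CH : ℝ := ∑ i ∈ range (m + 1), |s ^ i| * C with hCH
      have h4 := (h3 (-1/2) t le_rfl (by norm_num) ht0 ht1 d hd n (Phi 0) (max C CH) hc.ctr hF0
        (fun A hA => (hC 0 (Nat.zero_le m) A hA).trans (le_max_left _ _))).2.2 H e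
        (fun A hA => (hHb A hA).trans (le_max_right _ _)) (hc.step s hs0 hsS)
      rw [htl] at h4
      -- apply the iterate
      have hcomb : ∀ A : V3, H A + κ * e A =
          ∑ i ∈ range (m + 1), (s ^ i + κ * ((i : ℝ) * s ^ (i - 1))) * Phi i A := by
        intro A
        rw [hH, he]
        simp only
        rw [mul_sum, ← sum_add_distrib]
        apply sum_congr rfl
        intro i _
        ring
      have hcb := poi_sum_bd Phi C (fun i => s ^ i + κ * ((i : ℝ) * s ^ (i - 1))) (m + 1) hPb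
      set CC : ℝ := ∑ i ∈ range (m + 1), |s ^ i + κ * ((i : ℝ) * s ^ (i - 1))| * C with hCC
      have hit := (hOp n).iter k
      have h5 : P^[k] (P H) one3 ≤ P^[k] (fun A =>
          ∑ i ∈ range (m + 1), (s ^ i + κ * ((i : ℝ) * s ^ (i - 1))) * Phi i A) one3 := by
        apply hit.mono (max CH CC) _ _ _ _ _ one3 norm_one3
        · intro A hA
          exact ((hOp n).bd CH H hHb A hA).trans (le_max_left _ _)
        · intro A hA
          exact (hcb A hA).trans (le_max_right _ _)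
        · intro A hA
          rw [← hcomb A]
          exact h4 A hA
      rw [hit.sum Phi C _ (m + 1) hPb one3 norm_one3] at h5
      have h6 : P^[k] (P H) one3 = ∑ i ∈ range (m + 1), s ^ i * a i (k + 1) := by
        have h7 : P^[k] (P H) = P^[k + 1] H := (Function.iterate_succ_apply P k H).symm
        rw [h7]
        exact ((hOp n).iter (k + 1)).sum Phi C (fun i => s ^ i) (m + 1) hPb one3 norm_one3
      rw [h6] at h5
      have h8 : ∑ i ∈ range (m + 1), (s ^ i + κ * ((i : ℝ) * s ^ (i - 1))) * P^[k] (Phi i) one3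
          = ∑ i ∈ range (m + 1), s ^ i * a i k
            + κ * ∑ i ∈ range (m + 1), (i : ℝ) * s ^ (i - 1) * a i k := by
        rw [mul_sum, ← sum_add_distrib]
        apply sum_congr rfl
        intro i _
        simp only [ha]
        ring
      rw [h8] at h5
      have h9 : ∑ i ∈ range (m + 1), s ^ i * (a i (k + 1) - a i k)
          = ∑ i ∈ range (m + 1), s ^ i * a i (k + 1) - ∑ i ∈ range (m + 1), s ^ i * a i k := by
        rw [← sum_sub_distrib]
        apply sum_congr rfl
        intro i _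
        ring
      rw [h9]
      linarith)
    have hgw := h1 lam hl0 hl2 (Phi 0) C (hC 0 (Nat.zero_le m)) d hd n
    rw [hgw]
    have h10 : ∑' k : ℕ, Real.exp (-d) * d ^ k / k.factorial * ((TG d lam n)^[k] (Phi 0)) one3
        ≤ ∑ i ∈ range (m + 1), (d * κ) ^ i * Phi i one3 := hseq
    refine h10.trans ((hdamp (d * κ) hx0 hxS).trans ?_)
    have h11 : 0 ≤ (K - d * κ) * (1 - c * (K + d * κ)) := by
      apply mul_nonneg (by linarith)
      have h12 : c * (K + d * κ) ≤ c * (S + S) := by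
        apply mul_le_mul_of_nonneg_left _ hc0.le
        linarith
      linarith
    nlinarith [h11]
  exact poi_tendsto (fun n => (hK n hd).1) hc0 hstep

end Vale.Agent.P154.AF
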