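import Vale.Agent.P154AF.Core2
import Vale.Agent.P154AF.POI
import Vale.Agent.P154AF.GW1
import Vale.Agent.P154AF.GW23
import Vale.Agent.P154AF.KBOUND

/-! The expected potential on Poisson trees tends to zero: piecewise cubic certificates. -/

namespace Vale.Agent.P154.AF

open Finset Filter Topology

/-- the exponential generating function of a bounded sequence -/
noncomputable def pwY (b : ℕ → ℝ) (x : ℝ) : ℝ := ∑' k : ℕ, x ^ k / k.factorial * b k

theorem pwY_le {b c : ℕ → ℝ} {C C' : ℝ} (hb : ∀ k, |b k| ≤ C) (hc : ∀ k, |c k| ≤ C')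
    (h : ∀ k, b k ≤ c k) {x : ℝ} (hx : 0 ≤ x) : pwY b x ≤ pwY c x := by
  refine hasSum_le (fun k => ?_) (seq_hasSum hb x) (seq_hasSum hc x)
  exact mul_le_mul_of_nonneg_left (h k) (by positivity)

theorem pwY_zero (b : ℕ → ℝ) : pwY b 0 = b 0 := by
  unfold pwY
  rw [tsum_eq_single 0]
  · simp
  · intro k hk
    rw [zero_pow hk]
    simp

/-- linear combinations of four bounded sequences -/
theorem pwY_comb {b0 b1 b2 b3 : ℕ → ℝ} {C : ℝ} (h0 : ∀ k, |b0 k| ≤ C) (h1 : ∀ k, |b1 k| ≤ C)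
    (h2 : ∀ k, |b2 k| ≤ C) (h3 : ∀ k, |b3 k| ≤ C) (c0 c1 c2 c3 x : ℝ) :
    pwY (fun k => c0 * b0 k + c1 * b1 k + c2 * b2 k + c3 * b3 k) x =
      c0 * pwY b0 x + c1 * pwY b1 x + c2 * pwY b2 x + c3 * pwY b3 x := by
  have e := ((((seq_hasSum h0 x).mul_left c0).add ((seq_hasSum h1 x).mul_left c1)).add
    ((seq_hasSum h2 x).mul_left c2)).add ((seq_hasSum h3 x).mul_left c3)
  unfold pwY
  rw [← e.tsum_eq]
  apply tsum_congr
  intro k
  ring

/-- a shifted sequence below a combination -/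
theorem pwY_shift {b b0 b1 b2 b3 : ℕ → ℝ} {C : ℝ} (hb : ∀ k, |b k| ≤ C)
    (h0 : ∀ k, |b0 k| ≤ C) (h1 : ∀ k, |b1 k| ≤ C)
    (h2 : ∀ k, |b2 k| ≤ C) (h3 : ∀ k, |b3 k| ≤ C) (c0 c1 c2 c3 : ℝ)
    (h : ∀ k, b (k + 1) ≤ c0 * b0 k + c1 * b1 k + c2 * b2 k + c3 * b3 k) {x : ℝ} (hx : 0 ≤ x) :
    pwY (fun k => b (k + 1)) x ≤
      c0 * pwY b0 x + c1 * pwY b1 x + c2 * pwY b2 x + c3 * pwY b3 x := by
  rw [← pwY_comb h0 h1 h2 h3]
  have hC : 0 ≤ C := (abs_nonneg _).trans (hb 0)
  refine pwY_le (C := C) (C' := (|c0| + |c1| + |c2| + |c3|) * C) (fun k => hb (k + 1)) ?_ h hx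
  intro k
  have e0 : |c0 * b0 k| ≤ |c0| * C := by
    rw [abs_mul]; exact mul_le_mul_of_nonneg_left (h0 k) (abs_nonneg _)
  have e1 : |c1 * b1 k| ≤ |c1| * C := by
    rw [abs_mul]; exact mul_le_mul_of_nonneg_left (h1 k) (abs_nonneg _)
  have e2 : |c2 * b2 k| ≤ |c2| * C := by
    rw [abs_mul]; exact mul_le_mul_of_nonneg_left (h2 k) (abs_nonneg _)
  have e3 : |c3 * b3 k| ≤ |c3| * C := by
    rw [abs_mul]; exact mul_le_mul_of_nonneg_left (h3 k) (abs_nonneg _)
  have t1 := abs_add_le (c0 * b0 k + c1 * b1 k + c2 * b2 k) (c3 * b3 k)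
  have t2 := abs_add_le (c0 * b0 k + c1 * b1 k) (c2 * b2 k)
  have t3 := abs_add_le (c0 * b0 k) (c1 * b1 k)
  linarith

/-- moving inside one interval -/
theorem pw_seg {b0 b1 b2 b3 : ℕ → ℝ} {C : ℝ} (h0 : ∀ k, |b0 k| ≤ C) (h1 : ∀ k, |b1 k| ≤ C)
    (h2 : ∀ k, |b2 k| ≤ C) (h3 : ∀ k, |b3 k| ≤ C) (r : ℝ)
    (v0 : ∀ k, b0 (k + 1) ≤ b0 k + r * (3 * (b1 k - b0 k)))
    (v1 : ∀ k, b1 (k + 1) ≤ b1 k + r * (2 * b2 k - b1 k - b0 k))
    (v2 : ∀ k, b2 (k + 1) ≤ b2 k + r * (b3 k + b2 k - 2 * b1 k))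
    (v3 : ∀ k, b3 (k + 1) ≤ b3 k + r * (3 * (b3 k - b2 k)))
    (x1 x2 q : ℝ) (hx1 : 0 ≤ x1) (hx : x1 ≤ x2)
    (hz : ∀ x, x1 ≤ x → x ≤ x2 → 0 ≤ r * (q - x) ∧ r * (q - x) ≤ 1) :
    Real.exp (-x2) * B3 (pwY b0 x2) (pwY b1 x2) (pwY b2 x2) (pwY b3 x2) (r * (q - x2)) ≤
      Real.exp (-x1) * B3 (pwY b0 x1) (pwY b1 x1) (pwY b2 x1) (pwY b3 x1) (r * (q - x1)) := by
  set ψ : ℝ → ℝ := fun x =>
    Real.exp (-x) * B3 (pwY b0 x) (pwY b1 x) (pwY b2 x) (pwY b3 x) (r * (q - x)) with hψ
  set Y : (ℕ → ℝ) → ℝ → ℝ := fun b x => pwY (fun k => b (k + 1)) x with hY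
  have hder : ∀ x : ℝ, HasDerivAt ψ
      (Real.exp (-x) * (B3 (Y b0 x - pwY b0 x) (Y b1 x - pwY b1 x) (Y b2 x - pwY b2 x)
        (Y b3 x - pwY b3 x) (r * (q - x)) - r * (3 * (1 - r * (q - x)) ^ 2 * (pwY b1 x - pwY b0 x)
        + 6 * (r * (q - x)) * (1 - r * (q - x)) * (pwY b2 x - pwY b1 x)
        + 3 * (r * (q - x)) ^ 2 * (pwY b3 x - pwY b2 x)))) x := by
    intro x
    have g1 : HasDerivAt (fun x : ℝ => Real.exp (-x)) (-Real.exp (-x)) x := by
      have h3 := (hasDerivAt_neg x).exp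
      have h4 : Real.exp (-x) * -1 = -Real.exp (-x) := by ring
      rw [h4] at h3
      exact h3
    have g2 : HasDerivAt (fun x : ℝ => r * (q - x)) (-r) x := by
      have h3 : HasDerivAt (fun x : ℝ => q - x) (-1) x := by
        simpa using (hasDerivAt_id x).const_sub q
      have h4 := h3.const_mul r
      simpa using h4
    have g3 : HasDerivAt (fun x : ℝ => 1 - r * (q - x)) r x := by
      have := g2.const_sub 1
      simpa using this
    have d0 : HasDerivAt (fun x => pwY b0 x) (Y b0 x) x := seq_deriv h0 (|x| + 1) x (by linarith)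
    have d1 : HasDerivAt (fun x => pwY b1 x) (Y b1 x) x := seq_deriv h1 (|x| + 1) x (by linarith)
    have d2 : HasDerivAt (fun x => pwY b2 x) (Y b2 x) x := seq_deriv h2 (|x| + 1) x (by linarith)
    have d3 : HasDerivAt (fun x => pwY b3 x) (Y b3 x) x := seq_deriv h3 (|x| + 1) x (by linarith)
    have e0 := (g3.pow 3).mul d0
    have e1 := ((g2.const_mul 3).mul (g3.pow 2)).mul d1
    have e2 := (((g2.pow 2).const_mul 3).mul g3).mul d2
    have e3 := (g2.pow 3).mul d3
    have e := g1.mul (((e0.add e1).add e2).add e3)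
    refine HasDerivAt.congr_deriv (f := ψ) e ?_
    simp only [B3, Pi.mul_apply, Pi.add_apply, Pi.pow_apply]
    push_cast
    ring
  have hanti : AntitoneOn ψ (Set.Icc x1 x2) := by
    apply antitoneOn_of_deriv_nonpos (convex_Icc x1 x2)
    · intro x _
      exact (hder x).continuousAt.continuousWithinAt
    · intro x _
      exact (hder x).differentiableAt.differentiableWithinAt
    · intro x hx'
      rw [interior_Icc] at hx'
      rw [(hder x).deriv]
      obtain ⟨hz0, hz1⟩ := hz x hx'.1.le hx'.2.le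
      set z := r * (q - x) with hzdef
      have hx0 : 0 ≤ x := hx1.trans hx'.1.le
      have w0 := pwY_shift h0 h0 h1 h2 h3 (1 - 3 * r) (3 * r) 0 0
        (fun k => by linarith [v0 k]) hx0
      have w1 := pwY_shift h1 h0 h1 h2 h3 (-r) (1 - r) (2 * r) 0
        (fun k => by linarith [v1 k]) hx0
      have w2 := pwY_shift h2 h0 h1 h2 h3 0 (-2 * r) (1 + r) r
        (fun k => by linarith [v2 k]) hx0
      have w3 := pwY_shift h3 h0 h1 h2 h3 0 0 (-3 * r) (1 + 3 * r)
        (fun k => by linarith [v3 k]) hx0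
      have hz1' : 0 ≤ 1 - z := by linarith
      have m0 := mul_le_mul_of_nonneg_left w0 (pow_nonneg hz1' 3)
      have m1 := mul_le_mul_of_nonneg_left w1
        (mul_nonneg (mul_nonneg (by norm_num : (0:ℝ) ≤ 3) hz0) (pow_nonneg hz1' 2))
      have m2 := mul_le_mul_of_nonneg_left w2
        (mul_nonneg (mul_nonneg (by norm_num : (0:ℝ) ≤ 3) (pow_nonneg hz0 2)) hz1')
      have m3 := mul_le_mul_of_nonneg_left w3 (pow_nonneg hz0 3)
      apply mul_nonpos_of_nonneg_of_nonpos (Real.exp_pos _).le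
      unfold B3
      simp only [hY]
      nlinarith [m0, m1, m2, m3]
  exact hanti (Set.left_mem_Icc.2 hx) (Set.right_mem_Icc.2 hx) hx

/-- crossing the breakpoints -/
theorem pw_chain (J : ℕ) (br : ℕ → ℝ) (b : ℕ → ℕ → ℝ) (C κ d : ℝ) (hκ : 0 ≤ κ)
    (br0 : br 0 = 0) (brm : ∀ j < J, br j < br (j + 1))
    (hb : ∀ i ≤ 3 * J, ∀ k, |b i k| ≤ C)
    (v0 : ∀ j < J, ∀ k, b (3 * j) (k + 1) ≤ b (3 * j) k +
      κ / (br (j + 1) - br j) * (3 * (b (3 * j + 1) k - b (3 * j) k)))
    (v1 : ∀ j < J, ∀ k, b (3 * j + 1) (k + 1) ≤ b (3 * j + 1) k +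
      κ / (br (j + 1) - br j) * (2 * b (3 * j + 2) k - b (3 * j + 1) k - b (3 * j) k))
    (v2 : ∀ j < J, ∀ k, b (3 * j + 2) (k + 1) ≤ b (3 * j + 2) k +
      κ / (br (j + 1) - br j) * (b (3 * j + 3) k + b (3 * j + 2) k - 2 * b (3 * j + 1) k))
    (v3 : ∀ j < J, ∀ k, b (3 * j + 3) (k + 1) ≤ b (3 * j + 3) k +
      κ / (br (j + 1) - br j) * (3 * (b (3 * j + 3) k - b (3 * j + 2) k))) :
    ∀ j < J, ∀ x, 0 ≤ x → x ≤ d → br j ≤ κ * (d - x) → κ * (d - x) ≤ br (j + 1) →
      Real.exp (-d) * pwY (b 0) d ≤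
        Real.exp (-x) * B3 (pwY (b (3 * j)) x) (pwY (b (3 * j + 1)) x) (pwY (b (3 * j + 2)) x)
          (pwY (b (3 * j + 3)) x) ((κ * (d - x) - br j) / (br (j + 1) - br j)) := by
  intro j
  induction j with
  | zero =>
    intro hj x hx0 hxd hl hu
    have hbr : 0 < br (0 + 1) - br 0 := by linarith [brm 0 hj]
    have h := pw_seg (hb (3 * 0) (by omega)) (hb (3 * 0 + 1) (by omega))
      (hb (3 * 0 + 2) (by omega)) (hb (3 * 0 + 3) (by omega)) (κ / (br (0 + 1) - br 0))
      (v0 0 hj) (v1 0 hj) (v2 0 hj) (v3 0 hj) x d d hx0 hxd (by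
        intro x' h1 h2
        constructor
        · exact mul_nonneg (div_nonneg hκ hbr.le) (by linarith)
        · rw [div_mul_eq_mul_div, div_le_one hbr, br0, sub_zero]
          refine le_trans ?_ hu
          exact mul_le_mul_of_nonneg_left (by linarith) hκ)
    have e1 : κ / (br (0 + 1) - br 0) * (d - d) = 0 := by rw [sub_self, mul_zero]
    have e2 : (κ * (d - x) - br 0) / (br (0 + 1) - br 0) = κ / (br (0 + 1) - br 0) * (d - x) := by
      rw [br0]; ring
    rw [e1] at h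
    rw [e2]
    refine le_trans (le_of_eq ?_) h
    unfold B3
    simp
  | succ j ih =>
    intro hj x hx0 hxd hl hu
    have hbr0 := brm j (by omega)
    have hbr : 0 < br (j + 1 + 1) - br (j + 1) := by linarith [brm (j + 1) hj]
    have hmono : ∀ i ≤ j, 0 ≤ br i := by
      intro i
      induction i with
      | zero => intro _; rw [br0]
      | succ i ihi =>
        intro hi
        have := brm i (by omega)
        have := ihi (by omega)
        linarith
    have hbj : 0 < br (j + 1) := lt_of_le_of_lt (hmono j le_rfl) hbr0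
    have hκ0 : 0 < κ := by
      rcases hκ.lt_or_eq with h | h
      · exact h
      · exfalso
        rw [← h, zero_mul] at hl
        linarith
    set x' : ℝ := d - br (j + 1) / κ with hx'
    have hx'1 : κ * (d - x') = br (j + 1) := by
      rw [hx']
      field_simp
      ring
    have hxx' : x ≤ x' := by
      rw [hx', le_sub_iff_add_le, ← le_sub_iff_add_le', div_le_iff₀ hκ0]
      linarith
    have hx'd : x' ≤ d := by
      rw [hx']
      have := div_nonneg hbj.le hκ
      linarith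
    have hi := ih (by omega) x' (hx0.trans hxx') hx'd (by rw [hx'1]; exact hbr0.le)
      (by rw [hx'1])
    have e1 : (κ * (d - x') - br j) / (br (j + 1) - br j) = 1 := by
      rw [hx'1]
      exact div_self (by linarith)
    rw [e1] at hi
    have e2 : B3 (pwY (b (3 * j)) x') (pwY (b (3 * j + 1)) x') (pwY (b (3 * j + 2)) x')
          (pwY (b (3 * j + 3)) x') 1 = pwY (b (3 * (j + 1))) x' := by
      unfold B3
      have : 3 * (j + 1) = 3 * j + 3 := by ring
      rw [this]
      ring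
    rw [e2] at hi
    have h := pw_seg (hb (3 * (j + 1)) (by omega)) (hb (3 * (j + 1) + 1) (by omega))
      (hb (3 * (j + 1) + 2) (by omega)) (hb (3 * (j + 1) + 3) (by omega))
      (κ / (br (j + 1 + 1) - br (j + 1)))
      (v0 (j + 1) hj) (v1 (j + 1) hj) (v2 (j + 1) hj) (v3 (j + 1) hj) x x' x' hx0 hxx' (by
        intro y h1 h2
        constructor
        · exact mul_nonneg (div_nonneg hκ hbr.le) (by linarith)
        · rw [div_mul_eq_mul_div, div_le_one hbr]
          have h3 : κ * (x' - y) ≤ κ * (x' - x) := mul_le_mul_of_nonneg_left (by linarith) hκ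
          have h4 : κ * (x' - x) = κ * (d - x) - κ * (d - x') := by ring
          linarith)
    have e3 : κ / (br (j + 1 + 1) - br (j + 1)) * (x' - x') = 0 := by rw [sub_self, mul_zero]
    have e4 : (κ * (d - x) - br (j + 1)) / (br (j + 1 + 1) - br (j + 1)) =
        κ / (br (j + 1 + 1) - br (j + 1)) * (x' - x) := by
      rw [← hx'1]; ring
    rw [e3] at h
    rw [e4]
    refine hi.trans (le_trans (le_of_eq ?_) h)
    unfold B3
    ring

/-- finding the interval -/
theorem pw_find (J : ℕ) (br : ℕ → ℝ) (s : ℝ) (h0 : br 0 ≤ s) (hJ : 0 < J) (hs : s ≤ br J) :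
    ∃ j < J, br j ≤ s ∧ s ≤ br (j + 1) := by
  induction J with
  | zero => omega
  | succ J ih =>
    by_cases h : br J ≤ s
    · exact ⟨J, Nat.lt_succ_self J, h, hs⟩
    · push Not at h
      rcases Nat.eq_zero_or_pos J with h1 | h1
      · subst h1
        exact absurd h (not_lt.mpr h0)
      · obtain ⟨j, hj, h2⟩ := ih h1 h.le
        exact ⟨j, by omega, h2⟩

/-- one unit inequality iterated -/
theorem pw_unit {P : (V3 → ℝ) → (V3 → ℝ)} (hP : PoiOp P) (g : ℕ → V3 → ℝ) (C : ℝ)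
    (hg : ∀ i < 4, ∀ A, Norm 3 A → |g i A| ≤ C) (H : V3 → ℝ) (hH : ∀ A, Norm 3 A → |H A| ≤ C)
    (c : ℕ → ℝ) (hle : ∀ A, Norm 3 A → P H A ≤ ∑ i ∈ range 4, c i * g i A) (k : ℕ) :
    P^[k + 1] H one3 ≤ ∑ i ∈ range 4, c i * P^[k] (g i) one3 := by
  have hit := hP.iter k
  have hcb := poi_sum_bd g C c 4 hg
  rw [← hit.sum g C c 4 hg one3 norm_one3, Function.iterate_succ_apply]
  refine hit.mono (max C (∑ i ∈ range 4, |c i| * C)) _ _ ?_ ?_ hle one3 norm_one3
  · intro A hA
    exact (hP.bd C H hH A hA).trans (le_max_left _ _)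
  · intro A hA
    exact (hcb A hA).trans (le_max_right _ _)

theorem pw_sum4 (c g : ℕ → ℝ) :
    ∑ i ∈ range 4, c i * g i = c 0 * g 0 + c 1 * g 1 + c 2 * g 2 + c 3 * g 3 := by
  simp [Finset.sum_range_succ]

theorem poiPW : StmtPoiPW := by
  intro S J br f c hc d lam hd hl0 hl1 hks
  have hl2 : lam ≤ 1 := by linarith
  set t : ℝ := -2 * lam with ht
  have ht0 : 0 ≤ t := by
    rw [ht]
    linarith
  have ht1 : t ≤ 1 := by
    rw [ht]
    linarith
  have htl : t * (-1/2) = lam := by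
    rw [ht]
    ring
  obtain ⟨C, hC⟩ := hc.bdd
  have hK := (kbound (f 0) S hc.rng lam hl0 hl2).2 d
  rcases Nat.eq_zero_or_pos J with hJ | hJ
  · -- degenerate case
    have hS : S = 0 := by rw [← hc.brS, hJ, hc.br0]
    have hz : KG (f 0) d lam = fun _ => (0 : ℝ) := by
      funext n
      have h1 := hK n hd
      linarith [h1.1, h1.2]
    rw [hz]
    exact tendsto_const_nhds
  obtain ⟨⟨c1, hc1, hlow⟩, hup⟩ := hc.rng
  have hF0 : ∀ A, Norm 3 A → 0 ≤ f 0 A := fun A hA =>
    le_trans (mul_nonneg hc1.le (uFn_nonneg A)) (hlow A hA)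
  have hOp : ∀ n, PoiOp (TG d lam n) := by
    intro n
    refine ⟨?_, ?_, ?_⟩
    · intro C phi h
      exact (gw2 lam hl0 hl2 d hd n C phi phi h h).1
    · intro C phi psi h h'
      exact (gw2 lam hl0 hl2 d hd n C phi psi h h').2.1
    · intro C phi psi h h'
      exact (gw2 lam hl0 hl2 d hd n C phi psi h h').2.2
  have hstep : ∀ n, KG (f 0) d lam (n + 1) ≤ KG (f 0) d lam n - c * KG (f 0) d lam n ^ 2 := by
    intro n
    set P := TG d lam n with hP
    set K := KG (f 0) d lam n with hKn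
    have hK0 : 0 ≤ K := (hK n hd).1
    have hKS : K ≤ S := (hK n hd).2
    have hg3 := gw3 (-1/2) t le_rfl (by norm_num) ht0 ht1 d hd n (f 0) C hc.ctr hF0
      (hC 0 (Nat.zero_le _))
    obtain ⟨hk0, hk1, hg3⟩ := hg3
    set κ := kapG (f 0) d (-1/2) t n with hκ
    rw [htl] at hk1 hg3
    have hx0 : 0 ≤ d * κ := mul_nonneg hd.le hk0
    have hxK : d * κ ≤ K := by
      calc d * κ ≤ d * (lam ^ 2 * K) := mul_le_mul_of_nonneg_left hk1 hd.le
        _ = d * lam ^ 2 * K := by ring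
        _ ≤ 1 * K := mul_le_mul_of_nonneg_right hks hK0
        _ = K := one_mul _
    have hxS : d * κ ≤ S := hxK.trans hKS
    set a : ℕ → ℕ → ℝ := fun i k => (P^[k] (f i)) one3 with ha
    have hab : ∀ i ≤ 3 * J, ∀ k, |a i k| ≤ C := by
      intro i hi k
      exact ((hOp n).iter k).bd C (f i) (hC i hi) one3 norm_one3
    -- the iterated unit inequality
    have hun : ∀ j < J, ∀ i ≤ 3 * J, ∀ e : V3 → ℝ, ∀ w : ℕ → ℝ,
        Stp (-1/2) (f 0) (f i) e →
        (∀ A, f i A + κ * e A = ∑ l ∈ range 4, w l * f (3 * j + l) A) →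
        ∀ k, a i (k + 1) ≤ ∑ l ∈ range 4, w l * a (3 * j + l) k := by
      intro j hj i hi e w hs hw k
      refine pw_unit (hOp n) (fun l => f (3 * j + l)) C
        (fun l hl => hC (3 * j + l) (by omega)) (f i) (hC i hi) w ?_ k
      intro A hA
      rw [← hw A]
      exact hg3 (f i) e (hC i hi) hs A hA
    have w0 : ∀ j < J, ∀ k, a (3 * j) (k + 1) ≤ a (3 * j) k +
        κ / (br (j + 1) - br j) * (3 * (a (3 * j + 1) k - a (3 * j) k)) := by
      intro j hj k
      have h := hun j hj (3 * j) (by omega) _ (fun l => match l with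
        | 0 => 1 - 3 * (κ / (br (j + 1) - br j))
        | 1 => 3 * (κ / (br (j + 1) - br j))
        | _ => 0) (hc.u0 j hj) (by
          intro A
          rw [pw_sum4]
          simp only [add_zero]
          ring) k
      rw [pw_sum4] at h
      simp only [add_zero] at h
      linarith
    have w1 : ∀ j < J, ∀ k, a (3 * j + 1) (k + 1) ≤ a (3 * j + 1) k +
        κ / (br (j + 1) - br j) * (2 * a (3 * j + 2) k - a (3 * j + 1) k - a (3 * j) k) := by
      intro j hj k
      have h := hun j hj (3 * j + 1) (by omega) _ (fun l => match l with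
        | 0 => - (κ / (br (j + 1) - br j))
        | 1 => 1 - (κ / (br (j + 1) - br j))
        | 2 => 2 * (κ / (br (j + 1) - br j))
        | _ => 0) (hc.u1 j hj) (by
          intro A
          rw [pw_sum4]
          simp only [add_zero]
          ring) k
      rw [pw_sum4] at h
      simp only [add_zero] at h
      linarith
    have w2 : ∀ j < J, ∀ k, a (3 * j + 2) (k + 1) ≤ a (3 * j + 2) k +
        κ / (br (j + 1) - br j) * (a (3 * j + 3) k + a (3 * j + 2) k - 2 * a (3 * j + 1) k) := by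
      intro j hj k
      have h := hun j hj (3 * j + 2) (by omega) _ (fun l => match l with
        | 0 => 0
        | 1 => - (2 * (κ / (br (j + 1) - br j)))
        | 2 => 1 + (κ / (br (j + 1) - br j))
        | 3 => (κ / (br (j + 1) - br j))
        | _ => 0) (hc.u2 j hj) (by
          intro A
          rw [pw_sum4]
          simp only [add_zero]
          ring) k
      rw [pw_sum4] at h
      simp only [add_zero] at h
      linarith
    have w3 : ∀ j < J, ∀ k, a (3 * j + 3) (k + 1) ≤ a (3 * j + 3) k +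
        κ / (br (j + 1) - br j) * (3 * (a (3 * j + 3) k - a (3 * j + 2) k)) := by
      intro j hj k
      have h := hun j hj (3 * j + 3) (by omega) _ (fun l => match l with
        | 0 => 0
        | 1 => 0
        | 2 => - (3 * (κ / (br (j + 1) - br j)))
        | 3 => 1 + 3 * (κ / (br (j + 1) - br j))
        | _ => 0) (hc.u3 j hj) (by
          intro A
          rw [pw_sum4]
          simp only [add_zero]
          ring) k
      rw [pw_sum4] at h
      simp only [add_zero] at h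
      linarith
    -- the interval of `d κ`
    obtain ⟨j, hj, hj1, hj2⟩ := pw_find J br (d * κ) (by rw [hc.br0]; exact hx0) hJ
      (by rw [hc.brS]; exact hxS)
    have hch := pw_chain J br a C κ d hk0 hc.br0 hc.brm hab w0 w1 w2 w3 j hj 0 le_rfl hd.le
      (by rw [sub_zero, mul_comm]; exact hj1) (by rw [sub_zero, mul_comm]; exact hj2)
    rw [neg_zero, Real.exp_zero, one_mul, pwY_zero, pwY_zero, pwY_zero, pwY_zero, sub_zero] at hch
    have hbr : 0 < br (j + 1) - br j := by linarith [hc.brm j hj]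
    set z : ℝ := (κ * d - br j) / (br (j + 1) - br j) with hz
    have hz0 : 0 ≤ z := div_nonneg (by linarith [mul_comm d κ]) hbr.le
    have hz1 : z ≤ 1 := by
      rw [hz, div_le_one hbr]
      linarith [mul_comm d κ]
    have hzs : br j + z * (br (j + 1) - br j) = d * κ := by
      rw [hz, div_mul_cancel₀ _ hbr.ne']
      ring
    have hda := hc.damp j hj z hz0 hz1
    rw [hzs] at hda
    have hgw := gw1 lam hl0 hl2 (f 0) C (hC 0 (Nat.zero_le _)) d hd n
    have hV : ∑' k : ℕ, Real.exp (-d) * d ^ k / k.factorial * ((TG d lam n)^[k] (f 0)) one3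
        = Real.exp (-d) * pwY (a 0) d := by
      unfold pwY
      rw [← tsum_mul_left]
      apply tsum_congr
      intro k
      simp only [ha, hP]
      ring
    rw [hgw, hV]
    refine hch.trans (hda.trans ?_)
    have h11 : 0 ≤ (K - d * κ) * (1 - c * (K + d * κ)) := by
      apply mul_nonneg (by linarith)
      have h12 : c * (K + d * κ) ≤ c * (S + S) := by
        apply mul_le_mul_of_nonneg_left _ hc.c_pos.le
        linarith
      have := hc.cS
      linarith
    nlinarith [h11]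
  exact poi_tendsto (fun n => (hK n hd).1) hc.c_pos hstep

end Vale.Agent.P154.AF
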