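import Vale.Agent.P154AF.POI
import Vale.Agent.P154AF.GW1
import Vale.Agent.P154AF.GW23
import Vale.Agent.P154AF.KBOUND

/-! The expected potential on Poisson trees tends to zero (unconditional). -/

namespace Vale.Agent.P154.AF

theorem poi : StmtPoi := poi_of gw1 gw2 gw3 kbound

end Vale.Agent.P154.AF
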