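import Vale.Agent.P154AF.OP

/-! One generation of the regular tree (module REG). -/

namespace Vale.Agent.P154.AF

open Finset Filter Topology

theorem reg_hom_lin (x y : ℝ) (phi psi : V3 → ℝ) (v : V3) :
    hom 3 (fun A => x * phi A + y * psi A) v = x * hom 3 phi v + y * hom 3 psi v := by
  rw [hom_eq, hom_eq, hom_eq]
  ring

theorem reg_kern_lin (x y : ℝ) (phi psi : V3 → ℝ) (A B : V3) :
    kern 3 (fun A => x * phi A + y * psi A) A B = x * kern 3 phi A B + y * kern 3 psi A B := by
  rw [kern_eq, kern_eq, kern_eq]
  simp_rw [reg_hom_lin]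
  rw [sum_add_distrib, ← mul_sum, ← mul_sum]
  ring

theorem reg_TO_lin {S : Type} [Fintype S] (M : S → V3) (x y : ℝ) (phi psi : V3 → ℝ) :
    TO M (fun A => x * phi A + y * psi A) = fun A => x * TO M phi A + y * TO M psi A := by
  funext A
  unfold TO
  simp_rw [reg_kern_lin]
  rw [sum_add_distrib, ← mul_sum, ← mul_sum]

theorem reg_iter_lin {S : Type} [Fintype S] (M : S → V3) (x y : ℝ) (phi psi : V3 → ℝ) (j : ℕ) :
    (TO M)^[j] (fun A => x * phi A + y * psi A) =
      fun A => x * ((TO M)^[j] phi) A + y * ((TO M)^[j] psi) A := by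
  induction j with
  | zero => rfl
  | succ j ih =>
    rw [Function.iterate_succ_apply', ih, reg_TO_lin, Function.iterate_succ_apply',
      Function.iterate_succ_apply']

theorem reg_iter_mono {S : Type} [Fintype S] {M : S → V3} (hM : Chan M) (j : ℕ)
    {phi psi : V3 → ℝ} (h : ∀ A, Norm 3 A → phi A ≤ psi A) :
    ∀ A, Norm 3 A → ((TO M)^[j] phi) A ≤ ((TO M)^[j] psi) A := by
  induction j with
  | zero => exact h
  | succ j ih =>
    rw [Function.iterate_succ_apply', Function.iterate_succ_apply']
    exact opMono S M hM _ _ ih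

theorem reg_norm_one : Norm 3 one3 := by
  refine ⟨fun _ => zero_le_one, ?_⟩
  unfold one3
  simp

theorem reg : StmtReg := by
  intro lam1 g hl0 hl1 hg F H h d hd hH0 hC hF hh hs hlast t ht0 ht1 n
  set lam := t * lam1 with hlam
  have hlam0 : -1 / 2 ≤ lam := by rw [hlam]; nlinarith
  have hlam1 : lam ≤ 1 := by rw [hlam]; nlinarith
  have hL : Chan (tch 3 lam n (dary d n)) := op_chan_tree hlam0 hlam1 n (dary d n)
  have hM : Chan (fun s => edge 3 lam (tch 3 lam n (dary d n) s)) := op_chan_edge hlam0 hlam1 hL
  have hE : Chan (fun s => edge 3 t (tch 3 lam n (dary d n) s)) :=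
    op_chan_edge (by linarith) ht1 hL
  have hEF : 0 ≤ ev F (fun s => edge 3 t (tch 3 lam n (dary d n) s)) :=
    ev_nonneg_of op_three hE hF
  refine ⟨lam1 ^ 2 * ev F (fun s => edge 3 t (tch 3 lam n (dary d n) s)), by positivity, ?_, ?_⟩
  · have h1 := opCtr _ (tch 3 lam n (dary d n)) hL F hC t ht0 ht1
    unfold KF
    calc lam1 ^ 2 * ev F (fun s => edge 3 t (tch 3 lam n (dary d n) s))
        ≤ lam1 ^ 2 * (t ^ 2 * ev F (tch 3 lam n (dary d n))) :=
          mul_le_mul_of_nonneg_left h1 (sq_nonneg _)
      _ = (lam) ^ 2 * ev F (tch 3 lam n (dary d n)) := by rw [hlam]; ring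
  · set κ := lam1 ^ 2 * ev F (fun s => edge 3 t (tch 3 lam n (dary d n) s)) with hκ
    have hκ0 : 0 ≤ κ := by rw [hκ]; positivity
    intro hκg
    have hθ0 : 0 ≤ κ / g := div_nonneg hκ0 hg.le
    have hθ1 : κ / g ≤ 1 := (div_le_one hg).mpr hκg
    set M : Bdry 3 n (dary d n) → V3 := fun s => edge 3 lam (tch 3 lam n (dary d n) s) with hMdef
    have key : ∀ j k, j + k ≤ d → k < d → ((TO M)^[j] (H k)) one3 ≤ PB h (κ / g) j k := by
      intro j
      induction j with
      | zero =>
        intro k _ hk
        rw [Function.iterate_zero, id_eq, ← hh k hk]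
        exact le_of_eq rfl
      | succ j ih =>
        intro k hjk hk
        by_cases hk1 : k + 1 < d
        · have h1 : ∀ A, Norm 3 A → TO M (H k) A ≤
              (1 - κ / g) * H k A + (κ / g) * H (k + 1) A := by
            intro A hA
            have h2 := op_step_at lam1 t ht0 ht1 hL F (H k) A (H k A)
              ((H (k + 1) A - H k A) / g) (fun b hb => hs k hk1 A b hA hb)
            refine h2.trans (le_of_eq ?_)
            rw [← hκ]
            ring
          have h3 := reg_iter_mono hM j h1 one3 reg_norm_one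
          rw [Function.iterate_succ_apply]
          refine h3.trans ?_
          rw [reg_iter_lin]
          show _ ≤ (1 - κ / g) * PB h (κ / g) j k + κ / g * PB h (κ / g) j (k + 1)
          apply add_le_add
          · exact mul_le_mul_of_nonneg_left (ih k (by omega) hk) (by linarith)
          · exact mul_le_mul_of_nonneg_left (ih (k + 1) (by omega) hk1) hθ0
        · have hkd : k = d - 1 := by omega
          have hj : j = 0 := by omega
          subst hj
          have h2 := op_step_at lam1 t ht0 ht1 hL F (H k) one3 (h k) ((h d - h (d - 1)) / g)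
            (by
              intro b hb
              rw [hkd]
              exact hlast b hb)
          rw [Function.iterate_succ_apply, Function.iterate_zero, id_eq]
          refine h2.trans (le_of_eq ?_)
          rw [← hκ]
          show _ = (1 - κ / g) * h k + κ / g * h (k + 1)
          have : k + 1 = d := by omega
          rw [this, hkd]
          ring
    have h4 := opReg lam hlam0 hlam1 F d n
    rw [h4, ← hH0]
    exact key d 0 (by omega) (by omega)

end Vale.Agent.P154.AF
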